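import Vale.Agent.P088.R2.H961.W.Sl

/-!
# Weighted `L²` methods: the conjugated operators of one slot

`P = e^{-W} (Λ + v) e^{W}`, its adjoint `Q = e^{W} (Λ + v) e^{-W}` in `L²(θ)`, and the exact formula
`∫ θ (Q a)² = ∫ θ (P a)² + 8 ∫ θ Hess W(X a, X a) + ∫ θ z a²`, `X a = a DW - D a`.
-/

open MeasureTheory Set Filter
open scoped ContDiff Topology

noncomputable section

namespace Vale.Agent.P088.R2.H961.GW

variable {E ι : Type*} [NormedAddCommGroup E] [NormedSpace ℝ E] [Fintype ι]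

/-- `K f = 2 Γ(W, f) + (Λ W) f`. -/
def Sl.K (σ : Sl E ι) (W f : E → ℝ) (z : E) : ℝ := 2 * σ.Γ W f z + σ.Λ W z * f z

/-- `F = Γ(W, W)`. -/
def Sl.F (σ : Sl E ι) (W : E → ℝ) (z : E) : ℝ := σ.Γ W W z

/-- `P = e^{-W} (Λ + v) e^{W}`. -/
def Sl.P (σ : Sl E ι) (v W f : E → ℝ) (z : E) : ℝ :=
  σ.Λ f z + v z * f z + σ.K W f z + σ.F W z * f z

/-- `Q = e^{W} (Λ + v) e^{-W}`. -/
def Sl.Q (σ : Sl E ι) (v W f : E → ℝ) (z : E) : ℝ :=
  σ.Λ f z + v z * f z - σ.K W f z + σ.F W z * f z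

/-- The commutator of `P` (with `W`) or `Q` (with `-W`) and the multiplication by `χ`. -/
def Sl.N (σ : Sl E ι) (W χ f : E → ℝ) (z : E) : ℝ :=
  2 * σ.Γ χ f z + σ.Λ χ z * f z + 2 * σ.Γ W χ z * f z

/-- Twice the Hessian form on `(D f, D f)`. -/
def Sl.Hf (σ : Sl E ι) (W f : E → ℝ) (z : E) : ℝ := 2 * σ.Γ f (σ.Γ W f) z - σ.Γ W (σ.Γ f f) z

/-- The Hessian form on `(X a, X a)`, `X a = a DW - D a`. -/
def Sl.Hd (σ : Sl E ι) (W a : E → ℝ) (z : E) : ℝ :=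
  1 / 2 * σ.Hf W a z - a z * σ.Γ a (σ.F W) z + 1 / 2 * a z ^ 2 * σ.Γ W (σ.F W) z

/-- The potential in the formula for `Q`. -/
def Sl.zz (σ : Sl E ι) (v W : E → ℝ) (z : E) : ℝ :=
  -(4 * σ.Λ (σ.F W) z) - 2 * σ.Λ (σ.Λ W) z + 4 * σ.Γ W v z

section slot

variable {σ : Sl E ι} {U : Set E} {θ : E → ℝ} {v W f g h a χ : E → ℝ} {z : E}

theorem Sl.Ok.sF (ok : σ.Ok U θ) (hW : Sm U W) : Sm U (σ.F W) := ok.sG hW hW

theorem Sl.Ok.sK (ok : σ.Ok U θ) (hW : Sm U W) (hf : Sm U f) : Sm U (σ.K W f) :=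
  (contDiffOn_const.mul (ok.sG hW hf)).add ((ok.sL hW).mul hf)

theorem Sl.Ok.tK (ok : σ.Ok U θ) (hW : Sm U W) (hf : Te U f) : Te U (σ.K W f) :=
  ((ok.tG hW hf).cmul ok.op 2).add ok.op (hf.mul_left ok.op (ok.sL hW))

theorem Sl.Ok.sP (ok : σ.Ok U θ) (hv : Sm U v) (hW : Sm U W) (hf : Sm U f) : Sm U (σ.P v W f) :=
  (((ok.sL hf).add (hv.mul hf)).add (ok.sK hW hf)).add ((ok.sF hW).mul hf)

theorem Sl.Ok.tP (ok : σ.Ok U θ) (hv : Sm U v) (hW : Sm U W) (hf : Te U f) : Te U (σ.P v W f) :=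
  (((ok.tL hf).add ok.op (hf.mul_left ok.op hv)).add ok.op (ok.tK hW hf)).add ok.op
    (hf.mul_left ok.op (ok.sF hW))

theorem Sl.Ok.sQ (ok : σ.Ok U θ) (hv : Sm U v) (hW : Sm U W) (hf : Sm U f) : Sm U (σ.Q v W f) :=
  (((ok.sL hf).add (hv.mul hf)).sub (ok.sK hW hf)).add ((ok.sF hW).mul hf)

theorem Sl.Ok.tQ (ok : σ.Ok U θ) (hv : Sm U v) (hW : Sm U W) (hf : Te U f) : Te U (σ.Q v W f) :=
  (((ok.tL hf).add ok.op (hf.mul_left ok.op hv)).sub ok.op (ok.tK hW hf)).add ok.op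
    (hf.mul_left ok.op (ok.sF hW))

theorem Sl.Ok.tHf (ok : σ.Ok U θ) (hW : Sm U W) (hf : Te U f) : Te U (σ.Hf W f) :=
  ((ok.tG hf.sm (ok.tG hW hf)).cmul ok.op 2).sub ok.op (ok.tG hW (ok.tG hf.sm hf))

theorem Sl.Ok.tHd (ok : σ.Ok U θ) (hW : Sm U W) (ha : Te U a) : Te U (σ.Hd W a) := by
  have t1 := (ok.tHf hW ha).cmul ok.op (1 / 2)
  have t2 : Te U fun z => a z * σ.Γ a (σ.F W) z :=
    ha.mul_right ok.op (ok.sG ha.sm (ok.sF hW))
  have t3 : Te U fun z => 1 / 2 * a z ^ 2 * σ.Γ W (σ.F W) z :=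
    ((ha.sq ok.op).cmul ok.op (1 / 2)).mul_right ok.op (ok.sG hW (ok.sF hW))
  exact (t1.sub ok.op t2).add ok.op t3

theorem Sl.Ok.szz (ok : σ.Ok U θ) (hv : Sm U v) (hW : Sm U W) : Sm U (σ.zz v W) :=
  (((contDiffOn_const.mul (ok.sL (ok.sF hW))).neg).sub
    (contDiffOn_const.mul (ok.sL (ok.sL hW)))).add (contDiffOn_const.mul (ok.sG hW hv))

theorem P_add (ok : σ.Ok U θ) (hW : Sm U W) (hf : Sm U f) (hg : Sm U g) (hz : z ∈ U) :
    σ.P v W (fun z => f z + g z) z = σ.P v W f z + σ.P v W g z := by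
  unfold Sl.P Sl.K
  rw [L_add ok hf hg hz, G_add ok W hf hg hz]
  ring

theorem P_mul (ok : σ.Ok U θ) (v W : E → ℝ) (hχ : Sm U χ) (hf : Sm U f) (hz : z ∈ U) :
    σ.P v W (fun z => χ z * f z) z = χ z * σ.P v W f z + σ.N W χ f z := by
  unfold Sl.P Sl.K Sl.N
  rw [L_mul ok hχ hf hz, G_mul ok W hχ hf hz]
  ring

theorem Q_mul (ok : σ.Ok U θ) (v : E → ℝ) (hW : Sm U W) (hχ : Sm U χ) (hf : Sm U f) (hz : z ∈ U) :
    σ.Q v W (fun z => χ z * f z) z = χ z * σ.Q v W f z + σ.N (fun z => -W z) χ f z := by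
  unfold Sl.Q Sl.K Sl.N
  rw [L_mul ok hχ hf hz, G_mul ok W hχ hf hz, G_comm ok (fun z => -W z) χ,
    G_neg ok χ hW hz, G_comm ok χ W]
  ring

/-- Locality. -/
theorem P_congr_nhds (v W : E → ℝ) (h : f =ᶠ[𝓝 z] g) : σ.P v W f =ᶠ[𝓝 z] σ.P v W g := by
  have h1 : ∀ᶠ w in 𝓝 z, f =ᶠ[𝓝 w] g := h.eventually_nhds
  filter_upwards [h1] with w hw
  have h2 : ∀ j, σ.D j f =ᶠ[𝓝 w] σ.D j g := fun j => by
    filter_upwards [hw.eventually_nhds] with v hv using D_congr_nhds σ hv j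
  have h3 : ∀ i j, σ.D i (σ.D j f) w = σ.D i (σ.D j g) w := fun i j => D_congr_nhds σ (h2 j) i
  have h4 : ∀ j, σ.D j f w = σ.D j g w := fun j => D_congr_nhds σ hw j
  simp only [Sl.P, Sl.K, Sl.Λ, Sl.Γ, h3, h4, hw.eq_of_nhds]

theorem Q_congr_nhds (v W : E → ℝ) (h : f =ᶠ[𝓝 z] g) : σ.Q v W f =ᶠ[𝓝 z] σ.Q v W g := by
  have h1 : ∀ᶠ w in 𝓝 z, f =ᶠ[𝓝 w] g := h.eventually_nhds
  filter_upwards [h1] with w hw
  have h2 : ∀ j, σ.D j f =ᶠ[𝓝 w] σ.D j g := fun j => by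
    filter_upwards [hw.eventually_nhds] with v hv using D_congr_nhds σ hv j
  have h3 : ∀ i j, σ.D i (σ.D j f) w = σ.D i (σ.D j g) w := fun i j => D_congr_nhds σ (h2 j) i
  have h4 : ∀ j, σ.D j f w = σ.D j g w := fun j => D_congr_nhds σ hw j
  simp only [Sl.Q, Sl.K, Sl.Λ, Sl.Γ, h3, h4, hw.eq_of_nhds]

end slot

/-! ## Integral identities -/

variable [MeasureSpace E] [FiniteDimensional ℝ E] [BorelSpace E]
  [(volume : Measure E).IsAddHaarMeasure]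

section integral

variable {σ : Sl E ι} {U : Set E} {θ : E → ℝ} {v W f g h a : E → ℝ}

/-- `Q` is the adjoint of `P`. -/
theorem adj (ok : σ.Ok U θ) (hv : Sm U v) (hW : Sm U W) (hf : Te U f) (hh : Te U h) :
    In U θ (fun z => σ.P v W f z * h z) = In U θ (fun z => f z * σ.Q v W h z) := by
  have hU := ok.op
  have sf := hf.sm
  have sh := hh.sm
  have e1 := In_L ok sf hh
  have e2 := In_L ok sh hf
  have e3 : In U θ (σ.Γ f h) = In U θ (σ.Γ h f) := In_congr hU fun z _ => G_comm ok f h z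
  have tfh : Te U fun z => f z * h z := hf.mul_right hU sh
  have e4 := In_L ok hW tfh
  have t1 : Te U fun z => σ.Λ f z * h z := hh.mul_left hU (ok.sL sf)
  have t2 : Te U fun z => σ.Λ h z * f z := hf.mul_left hU (ok.sL sh)
  have t3 : Te U fun z => σ.Λ W z * (f z * h z) := tfh.mul_left hU (ok.sL hW)
  have t4 : Te U (σ.Γ W fun z => f z * h z) := ok.tG hW tfh
  have t5 : Te U fun z => σ.P v W f z * h z := hh.mul_left hU (ok.sP hv hW sf)
  have t6 : Te U fun z => f z * σ.Q v W h z := hf.mul_right hU (ok.sQ hv hW sh)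
  have e5 : In U θ (fun z => (σ.Λ f z * h z - σ.Λ h z * f z) +
      2 * (σ.Λ W z * (f z * h z) + σ.Γ W (fun z => f z * h z) z)) =
      In U θ (fun z => σ.P v W f z * h z - f z * σ.Q v W h z) := by
    refine In_congr hU fun z hz => ?_
    rw [G_mul ok W sf sh hz]
    unfold Sl.P Sl.Q Sl.K
    ring
  rw [In_sub hU ok.ts t5 t6, In_add hU ok.ts (t1.sub hU t2) ((t3.add hU t4).cmul hU 2),
    In_sub hU ok.ts t1 t2, In_cmul, In_add hU ok.ts t3 t4, e1, e2, e3, e4] at e5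
  linarith

/-- The first order part is antisymmetric: `∫ h f K f = -∫ f² Γ(W, h)`. -/
theorem In_fK (ok : σ.Ok U θ) (hW : Sm U W) (hf : Te U f) (hh : Sm U h) :
    In U θ (fun z => h z * f z * σ.K W f z) = -In U θ (fun z => f z ^ 2 * σ.Γ W h z) := by
  have hU := ok.op
  have hf2 : Te U fun z => f z ^ 2 := hf.sq hU
  have t1 : Te U fun z => h z * f z ^ 2 := hf2.mul_left hU hh
  have e1 := In_L ok hW t1
  have e2 : In U θ (fun z => h z * f z * σ.K W f z) =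
      In U θ (fun z => σ.Λ W z * (h z * f z ^ 2) + (σ.Γ W (fun z => h z * f z ^ 2) z
        - f z ^ 2 * σ.Γ W h z)) := by
    refine In_congr hU fun z hz => ?_
    rw [G_mul ok W hh hf2.sm hz, G_sq ok W hf.sm hz]
    unfold Sl.K
    ring
  rw [e2, In_add hU ok.ts (t1.mul_left hU (ok.sL hW)) ((ok.tG hW t1).sub hU
    (hf2.mul_right hU (ok.sG hW hh))), In_sub hU ok.ts (ok.tG hW t1)
    (hf2.mul_right hU (ok.sG hW hh)), e1]
  ring

/-- The commutator of `Λ` and `K`. -/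
theorem In_LK (ok : σ.Ok U θ) (hW : Sm U W) (hf : Te U f) :
    In U θ (fun z => σ.Λ f z * σ.K W f z) =
      -In U θ (fun z => σ.Hf W f z + f z * σ.Γ f (σ.Λ W) z) := by
  have hU := ok.op
  have sk : Sm U (σ.Λ W) := ok.sL hW
  have sf : Sm U f := hf.sm
  have tg : Te U (σ.Γ W f) := ok.tG hW hf
  have tff : Te U (σ.Γ f f) := ok.tG sf hf
  have tk : Te U fun z => σ.Λ W z * f z := hf.mul_left hU sk
  have e1 := In_L ok sf tg
  have e2 := In_L ok sf tk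
  have e3 := In_L ok hW tff
  have t1 : Te U (σ.Γ f (σ.Γ W f)) := ok.tG sf tg
  have t2 : Te U (σ.Γ W (σ.Γ f f)) := ok.tG hW tff
  have t3 : Te U fun z => f z * σ.Γ f (σ.Λ W) z := hf.mul_right hU (ok.sG sf sk)
  have t4 : Te U fun z => σ.Λ W z * σ.Γ f f z := tff.mul_left hU sk
  have t5 : Te U fun z => σ.Λ f z * σ.Γ W f z := tg.mul_left hU (ok.sL sf)
  have t6 : Te U fun z => σ.Λ f z * (σ.Λ W z * f z) := tk.mul_left hU (ok.sL sf)
  have e4 : In U θ (σ.Γ f fun z => σ.Λ W z * f z) =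
      In U θ (fun z => σ.Λ W z * σ.Γ f f z) + In U θ (fun z => f z * σ.Γ f (σ.Λ W) z) := by
    rw [← In_add hU ok.ts t4 t3]
    exact In_congr hU fun z hz => G_mul ok f sk sf hz
  have e5 : In U θ (fun z => σ.Λ f z * σ.K W f z) =
      2 * In U θ (fun z => σ.Λ f z * σ.Γ W f z) + In U θ (fun z => σ.Λ f z * (σ.Λ W z * f z)) := by
    rw [← In_cmul, ← In_add hU ok.ts (t5.cmul hU 2) t6]
    refine In_congr hU fun z hz => ?_
    unfold Sl.K
    ring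
  have e6 : In U θ (fun z => σ.Hf W f z + f z * σ.Γ f (σ.Λ W) z) =
      2 * In U θ (σ.Γ f (σ.Γ W f)) - In U θ (σ.Γ W (σ.Γ f f)) +
        In U θ (fun z => f z * σ.Γ f (σ.Λ W) z) := by
    unfold Sl.Hf
    rw [In_add hU ok.ts ((t1.cmul hU 2).sub hU t2) t3, In_sub hU ok.ts (t1.cmul hU 2) t2, In_cmul]
  rw [e5, e6, e1, e2, e4, e3]
  ring

/-- `∫ a Γ(a, g) = -(1/2) ∫ a² Λ g`. -/
theorem In_aG (ok : σ.Ok U θ) (ha : Te U a) (hg : Sm U g) :
    In U θ (fun z => a z * σ.Γ a g z) = -(1 / 2) * In U θ (fun z => σ.Λ g z * a z ^ 2) := by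
  have hU := ok.op
  have e := In_L ok hg (ha.sq hU)
  have e2 : In U θ (σ.Γ g fun z => a z ^ 2) = 2 * In U θ (fun z => a z * σ.Γ a g z) := by
    rw [← In_cmul]
    refine In_congr hU fun z hz => ?_
    rw [G_sq ok g ha.sm hz, G_comm ok a g]
    ring
  rw [e, e2]
  ring

/-- The one-factor identity. -/
theorem one_id (ok : σ.Ok U θ) (hv : Sm U v) (hW : Sm U W) (hf : Te U f) :
    In U θ (fun z => σ.Q v W f z ^ 2) = In U θ (fun z => σ.P v W f z ^ 2) +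
      4 * In U θ (fun z => σ.Hf W f z + f z * σ.Γ f (σ.Λ W) z +
        f z ^ 2 * σ.Γ W (fun z => v z + σ.F W z) z) := by
  have hU := ok.op
  have sv : Sm U fun z => v z + σ.F W z := hv.add (ok.sF hW)
  have e1 := In_LK ok hW hf
  have e2 := In_fK ok hW hf sv
  have sf := hf.sm
  have tH : Te U (σ.Hf W f) := ok.tHf hW hf
  have tk : Te U fun z => f z * σ.Γ f (σ.Λ W) z := hf.mul_right hU (ok.sG sf (ok.sL hW))
  have tv : Te U fun z => f z ^ 2 * σ.Γ W (fun z => v z + σ.F W z) z :=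
    (hf.sq hU).mul_right hU (ok.sG hW sv)
  have tK : Te U (σ.K W f) := ok.tK hW hf
  have t1 : Te U fun z => σ.Λ f z * σ.K W f z := tK.mul_left hU (ok.sL sf)
  have t2 : Te U fun z => (v z + σ.F W z) * f z * σ.K W f z := tK.mul_left hU (sv.mul sf)
  have tP : Te U fun z => σ.P v W f z ^ 2 := (ok.tP hv hW hf).sq hU
  have e3 : In U θ (fun z => σ.Q v W f z ^ 2) = In U θ (fun z => σ.P v W f z ^ 2 +
      (-4) * (σ.Λ f z * σ.K W f z + (v z + σ.F W z) * f z * σ.K W f z)) := by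
    refine In_congr hU fun z _ => ?_
    unfold Sl.P Sl.Q
    ring
  rw [e3, In_add hU ok.ts tP ((t1.add hU t2).cmul hU (-4)), In_cmul, In_add hU ok.ts t1 t2, e1, e2,
    In_add hU ok.ts (tH.add hU tk) tv]
  ring

/-- The one-factor identity with the dressed derivatives. -/
theorem one_id' (ok : σ.Ok U θ) (hv : Sm U v) (hW : Sm U W) (ha : Te U a) :
    In U θ (fun z => σ.Q v W a z ^ 2) = In U θ (fun z => σ.P v W a z ^ 2) +
      8 * In U θ (σ.Hd W a) + In U θ (fun z => σ.zz v W z * a z ^ 2) := by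
  have hU := ok.op
  have sF := ok.sF hW
  have sL := ok.sL hW
  have sa := ha.sm
  have ta := ha.sq hU
  rw [one_id ok hv hW ha]
  have t1 := ok.tHf hW ha
  have t2 : Te U fun z => a z * σ.Γ a (σ.Λ W) z := ha.mul_right hU (ok.sG sa sL)
  have t3 : Te U fun z => a z ^ 2 * σ.Γ W (σ.F W) z := ta.mul_right hU (ok.sG hW sF)
  have t4 : Te U fun z => a z ^ 2 * σ.Γ W v z := ta.mul_right hU (ok.sG hW hv)
  have t5 : Te U fun z => a z * σ.Γ a (σ.F W) z := ha.mul_right hU (ok.sG sa sF)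
  have t6 : Te U fun z => σ.Λ (σ.F W) z * a z ^ 2 := ta.mul_left hU (ok.sL sF)
  have t7 : Te U fun z => σ.Λ (σ.Λ W) z * a z ^ 2 := ta.mul_left hU (ok.sL sL)
  have e1 : In U θ (fun z => σ.Hf W a z + a z * σ.Γ a (σ.Λ W) z +
        a z ^ 2 * σ.Γ W (fun z => v z + σ.F W z) z) =
      In U θ (fun z => (σ.Hf W a z + a z * σ.Γ a (σ.Λ W) z) +
        (a z ^ 2 * σ.Γ W v z + a z ^ 2 * σ.Γ W (σ.F W) z)) := by
    refine In_congr hU fun z hz => ?_
    rw [G_add ok W hv sF hz]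
    ring
  have e2 : In U θ (σ.Hd W a) = In U θ (fun z => 1 / 2 * σ.Hf W a z -
      a z * σ.Γ a (σ.F W) z + 1 / 2 * (a z ^ 2 * σ.Γ W (σ.F W) z)) := by
    refine In_congr hU fun z hz => ?_
    unfold Sl.Hd
    ring
  have e3 : In U θ (fun z => σ.zz v W z * a z ^ 2) = In U θ (fun z =>
      (-4) * (σ.Λ (σ.F W) z * a z ^ 2) + (-2) * (σ.Λ (σ.Λ W) z * a z ^ 2) +
        4 * (a z ^ 2 * σ.Γ W v z)) := by
    refine In_congr hU fun z hz => ?_
    unfold Sl.zz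
    ring
  rw [e1, e2, e3, In_add hU ok.ts (t1.add hU t2) (t4.add hU t3), In_add hU ok.ts t1 t2,
    In_add hU ok.ts t4 t3,
    In_add hU ok.ts ((t1.cmul hU (1 / 2)).sub hU t5) (t3.cmul hU (1 / 2)),
    In_sub hU ok.ts (t1.cmul hU (1 / 2)) t5, In_cmul, In_cmul,
    In_add hU ok.ts ((t6.cmul hU (-4)).add hU (t7.cmul hU (-2))) (t4.cmul hU 4),
    In_add hU ok.ts (t6.cmul hU (-4)) (t7.cmul hU (-2)), In_cmul, In_cmul, In_cmul,
    In_aG ok ha sL, In_aG ok ha sF]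
  ring

end integral

end Vale.Agent.P088.R2.H961.GW
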