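import Mathlib.Analysis.Calculus.ContDiff.Operations
import Mathlib.Analysis.Calculus.FDeriv.Symmetric
import Mathlib.Analysis.Calculus.LineDeriv.IntegrationByParts
import Mathlib.Analysis.InnerProductSpace.Basic
import Mathlib.MeasureTheory.Integral.Bochner.Set
import Mathlib.MeasureTheory.Integral.IntegralEqImproper
import Mathlib.Algebra.Order.Chebyshev

/-!
# Weighted `L²` methods: one factor (a *slot*)

A slot consists of the derivations `D i f = ρ ∂_{e i} f`, a symmetric tensor `s`, and the functions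
`k i` with `∫ θ (D i h + k i h) = 0`; then
`Λ f = ∑ (s_ij (D_i D_j f + k_i D_j f) + D_i s_ij D_j f)` (the divergence form operator
`∑_i (D_i + k_i) (∑_j s_ij D_j f)`) satisfies
`∫ θ Λ f h = -∫ θ Γ(f, h)`, `Γ(f, h) = ∑ s_ij D_i f D_j h`.
-/

open MeasureTheory Set Filter
open scoped ContDiff Topology

noncomputable section

namespace Vale.Agent.P088.R2.H961.GW

variable {E ι : Type*} [NormedAddCommGroup E] [NormedSpace ℝ E]

/-- Smooth on `U`. -/
abbrev Sm (U : Set E) (f : E → ℝ) : Prop := ContDiffOn ℝ ∞ f U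

/-- Test functions: smooth with compact support in `U`. -/
def Te (U : Set E) (f : E → ℝ) : Prop :=
  ContDiff ℝ ∞ f ∧ HasCompactSupport f ∧ tsupport f ⊆ U

section basic

variable {U : Set E} {f g : E → ℝ} {z : E}

theorem Sm.at (hU : IsOpen U) (hf : Sm U f) (hz : z ∈ U) : ContDiffAt ℝ ∞ f z :=
  (hf z hz).contDiffAt (hU.mem_nhds hz)

theorem Sm.diff (hU : IsOpen U) (hf : Sm U f) (hz : z ∈ U) : DifferentiableAt ℝ f z :=
  (hf.at hU hz).differentiableAt (by simp)

theorem Sm.fd (hU : IsOpen U) (hf : Sm U f) (v : E) : Sm U fun z => fderiv ℝ f z v := by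
  have h : ContDiffOn ℝ ∞ (fderiv ℝ f) U := hf.fderiv_of_isOpen hU (by norm_num)
  exact h.clm_apply contDiffOn_const

theorem Sm.sum {α : Type*} (S : Finset α) {f : α → E → ℝ} (hf : ∀ j ∈ S, Sm U (f j)) :
    Sm U fun z => ∑ j ∈ S, f j z := ContDiffOn.sum hf

theorem Te.sm (hf : Te U f) : Sm U f := hf.1.contDiffOn

theorem te_of {K : Set E} (hU : IsOpen U) (hK : IsCompact K) (hKU : K ⊆ U) (hf : Sm U f)
    (h0 : ∀ z ∉ K, f z = 0) : Te U f := by
  have hs : tsupport f ⊆ K := by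
    refine closure_minimal ?_ hK.isClosed
    intro z hz
    by_contra hc
    exact hz (h0 z hc)
  refine ⟨?_, HasCompactSupport.intro hK h0, hs.trans hKU⟩
  rw [contDiff_iff_contDiffAt]
  intro z
  by_cases hz : z ∈ U
  · exact hf.at hU hz
  · have hzK : z ∈ Kᶜ := fun h => hz (hKU h)
    have : f =ᶠ[𝓝 z] fun _ => 0 := by
      filter_upwards [hK.isClosed.isOpen_compl.mem_nhds hzK] with w hw using h0 w hw
    exact contDiffAt_const.congr_of_eventuallyEq this

theorem Te.cpt (hf : Te U f) : IsCompact (tsupport f) := hf.2.1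

theorem Te.zero (hf : Te U f) (hz : z ∉ tsupport f) : f z = 0 := by
  have := hf.1
  exact image_eq_zero_of_notMem_tsupport hz

theorem Te.off (hf : Te U f) (hz : z ∉ U) : f z = 0 := hf.zero fun h => hz (hf.2.2 h)

theorem Te.fd (hU : IsOpen U) (hf : Te U f) (v : E) : Te U fun z => fderiv ℝ f z v := by
  refine te_of hU hf.cpt hf.2.2 (hf.sm.fd hU v) ?_
  intro z hz
  have : f =ᶠ[𝓝 z] fun _ => 0 := by
    filter_upwards [(isClosed_tsupport f).isOpen_compl.mem_nhds hz] with w hw using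
      image_eq_zero_of_notMem_tsupport hw
  rw [this.fderiv_eq]; simp

theorem Te.mul_right (hU : IsOpen U) (hf : Te U f) (hg : Sm U g) : Te U fun z => f z * g z := by
  refine te_of hU hf.cpt hf.2.2 (hf.sm.mul hg) ?_
  intro z hz
  rw [hf.zero hz, zero_mul]

theorem Te.mul_left (hU : IsOpen U) (hf : Te U f) (hg : Sm U g) : Te U fun z => g z * f z := by
  simpa only [mul_comm] using hf.mul_right hU hg

theorem Te.cmul (hU : IsOpen U) (hf : Te U f) (c : ℝ) : Te U fun z => c * f z :=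
  hf.mul_left hU (g := fun _ => c) contDiffOn_const

theorem Te.add (hU : IsOpen U) (hf : Te U f) (hg : Te U g) : Te U fun z => f z + g z := by
  refine te_of hU (hf.cpt.union hg.cpt) (union_subset hf.2.2 hg.2.2) (hf.sm.add hg.sm) ?_
  intro z hz
  rw [hf.zero fun h => hz (Or.inl h), hg.zero fun h => hz (Or.inr h), zero_add]

theorem Te.neg (hU : IsOpen U) (hf : Te U f) : Te U fun z => -f z := by
  have := hf.cmul hU (-1)
  simpa using this

theorem Te.sub (hU : IsOpen U) (hf : Te U f) (hg : Te U g) : Te U fun z => f z - g z := by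
  simpa only [sub_eq_add_neg] using hf.add hU (hg.neg hU)

theorem te_zero (hU : IsOpen U) : Te U fun _ : E => (0 : ℝ) :=
  te_of hU isCompact_empty (empty_subset _) contDiffOn_const fun _ _ => rfl

theorem Te.sum {α : Type*} (hU : IsOpen U) (S : Finset α) {f : α → E → ℝ}
    (hf : ∀ i ∈ S, Te U (f i)) : Te U fun z => ∑ i ∈ S, f i z := by
  classical
  induction S using Finset.induction_on with
  | empty => simpa using te_zero hU
  | insert a S ha ih =>
    simp only [Finset.sum_insert ha]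
    exact (hf a (Finset.mem_insert_self a S)).add hU
      (ih fun i hi => hf i (Finset.mem_insert_of_mem hi))

theorem Te.pow (hU : IsOpen U) (hf : Te U f) {k : ℕ} (hk : k ≠ 0) : Te U fun z => f z ^ k := by
  obtain ⟨m, rfl⟩ := Nat.exists_eq_succ_of_ne_zero hk
  simp only [pow_succ]
  exact hf.mul_left hU (hf.sm.pow m)

theorem Te.sq (hU : IsOpen U) (hf : Te U f) : Te U fun z => f z ^ 2 := hf.pow hU two_ne_zero

theorem Te.congr (hf : Te U f) (h : ∀ z, g z = f z) : Te U g := by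
  have : g = f := funext h
  rw [this]; exact hf

end basic

/-! ## Slots -/

/-- One factor. -/
structure Sl (E ι : Type*) where
  ρ : E → ℝ
  e : ι → E
  s : ι → ι → E → ℝ
  k : ι → E → ℝ

/-- The derivations of a slot. -/
def Sl.D (σ : Sl E ι) (i : ι) (f : E → ℝ) (z : E) : ℝ := σ.ρ z * fderiv ℝ f z (σ.e i)

section der

variable {U : Set E} (σ : Sl E ι) {f g : E → ℝ} {z : E}

theorem D_congr (hU : IsOpen U) (h : ∀ z ∈ U, f z = g z) (i : ι) (hz : z ∈ U) :
    σ.D i f z = σ.D i g z := by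
  have : f =ᶠ[𝓝 z] g := by
    filter_upwards [hU.mem_nhds hz] with w hw using h w hw
  simp only [Sl.D, this.fderiv_eq]

theorem D_congr_nhds (h : f =ᶠ[𝓝 z] g) (i : ι) : σ.D i f z = σ.D i g z := by
  simp only [Sl.D, h.fderiv_eq]

theorem D_add (hU : IsOpen U) (hf : Sm U f) (hg : Sm U g) (i : ι) (hz : z ∈ U) :
    σ.D i (fun z => f z + g z) z = σ.D i f z + σ.D i g z := by
  simp only [Sl.D]
  rw [fderiv_fun_add (hf.diff hU hz) (hg.diff hU hz)]
  simp only [_root_.add_apply]; ring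

theorem D_sub (hU : IsOpen U) (hf : Sm U f) (hg : Sm U g) (i : ι) (hz : z ∈ U) :
    σ.D i (fun z => f z - g z) z = σ.D i f z - σ.D i g z := by
  simp only [Sl.D]
  rw [fderiv_fun_sub (hf.diff hU hz) (hg.diff hU hz)]
  simp only [_root_.sub_apply]; ring

theorem D_mul (hU : IsOpen U) (hf : Sm U f) (hg : Sm U g) (i : ι) (hz : z ∈ U) :
    σ.D i (fun z => f z * g z) z = σ.D i f z * g z + f z * σ.D i g z := by
  simp only [Sl.D]
  rw [fderiv_fun_mul (hf.diff hU hz) (hg.diff hU hz)]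
  simp only [_root_.add_apply, _root_.smul_apply, smul_eq_mul]; ring

theorem D_const (c : ℝ) (i : ι) (z : E) : σ.D i (fun _ => c) z = 0 := by
  simp [Sl.D]

theorem D_cmul (hU : IsOpen U) (c : ℝ) (hf : Sm U f) (i : ι) (hz : z ∈ U) :
    σ.D i (fun z => c * f z) z = c * σ.D i f z := by
  rw [D_mul σ hU contDiffOn_const hf i hz, D_const]; ring

theorem D_neg (hU : IsOpen U) (hf : Sm U f) (i : ι) (hz : z ∈ U) :
    σ.D i (fun z => -f z) z = -σ.D i f z := by
  have := D_cmul σ hU (-1) hf i hz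
  simpa using this

theorem D_sum {α : Type*} (hU : IsOpen U) (S : Finset α) {f : α → E → ℝ}
    (hf : ∀ j ∈ S, Sm U (f j)) (i : ι) (hz : z ∈ U) :
    σ.D i (fun z => ∑ j ∈ S, f j z) z = ∑ j ∈ S, σ.D i (f j) z := by
  simp only [Sl.D]
  rw [fderiv_fun_sum fun j hj => (hf j hj).diff hU hz]
  simp only [_root_.sum_apply, Finset.mul_sum]

theorem D_sq (hU : IsOpen U) (hf : Sm U f) (i : ι) (hz : z ∈ U) :
    σ.D i (fun z => f z ^ 2) z = 2 * f z * σ.D i f z := by
  rw [D_congr σ hU (g := fun z => f z * f z) (fun z _ => by ring) i hz, D_mul σ hU hf hf i hz]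
  ring

end der

variable [Fintype ι]

/-- `Γ(f, h)`. -/
def Sl.Γ (σ : Sl E ι) (f h : E → ℝ) (z : E) : ℝ := ∑ i, ∑ j, σ.s i j z * σ.D i f z * σ.D j h z

/-- `Λ f` (divergence form). -/
def Sl.Λ (σ : Sl E ι) (f : E → ℝ) (z : E) : ℝ :=
  ∑ i, ∑ j, (σ.s i j z * (σ.D i (σ.D j f) z + σ.k i z * σ.D j f z) +
    σ.D i (σ.s i j) z * σ.D j f z)

/-- The divergence of `s`. -/
def Sl.dv (σ : Sl E ι) (j : ι) (z : E) : ℝ := ∑ i, σ.D i (σ.s i j) z

/-- The divergence part of `Λ`. -/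
theorem L_split (σ : Sl E ι) (f : E → ℝ) (z : E) :
    σ.Λ f z = (∑ i, ∑ j, σ.s i j z * (σ.D i (σ.D j f) z + σ.k i z * σ.D j f z)) +
      ∑ j, σ.dv j z * σ.D j f z := by
  have e : ∑ i, ∑ j, σ.D i (σ.s i j) z * σ.D j f z = ∑ j, σ.dv j z * σ.D j f z := by
    rw [Finset.sum_comm]
    exact Finset.sum_congr rfl fun j _ => by rw [← Finset.sum_mul]; rfl
  unfold Sl.Λ
  simp only [Finset.sum_add_distrib]
  rw [e]

/-- `Λ` when `s` is divergence free. -/
theorem L_dv (σ : Sl E ι) (f : E → ℝ) {z : E} (h : ∀ j, ∑ i, σ.D i (σ.s i j) z = 0) :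
    σ.Λ f z = ∑ i, ∑ j, σ.s i j z * (σ.D i (σ.D j f) z + σ.k i z * σ.D j f z) := by
  have h' : ∀ j, σ.dv j z = 0 := h
  rw [L_split]
  simp only [h', zero_mul, Finset.sum_const_zero, add_zero]

/-- The properties of a slot. -/
structure Sl.Ok (σ : Sl E ι) (U : Set E) (θ : E → ℝ) : Prop where
  op : IsOpen U
  tp : ∀ z ∈ U, 0 < θ z
  ts : Sm U θ
  rs : Sm U σ.ρ
  ss : ∀ i j, Sm U (σ.s i j)
  ks : ∀ i, Sm U (σ.k i)
  sy : ∀ i j z, σ.s i j z = σ.s j i z
  th : ∀ z ∈ U, ∀ i, σ.D i θ z + fderiv ℝ σ.ρ z (σ.e i) * θ z = σ.k i z * θ z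

section slot

variable {σ : Sl E ι} {U : Set E} {θ : E → ℝ} {f g h : E → ℝ} {z : E}

theorem Sl.Ok.sD (ok : σ.Ok U θ) (hf : Sm U f) (i : ι) : Sm U (σ.D i f) :=
  ok.rs.mul (hf.fd ok.op _)

theorem Sl.Ok.tD (ok : σ.Ok U θ) (hf : Te U f) (i : ι) : Te U (σ.D i f) :=
  (hf.fd ok.op _).mul_left ok.op ok.rs

theorem Sl.Ok.sG (ok : σ.Ok U θ) (hf : Sm U f) (hh : Sm U h) : Sm U (σ.Γ f h) :=
  Sm.sum _ fun i _ => Sm.sum _ fun j _ => ((ok.ss i j).mul (ok.sD hf i)).mul (ok.sD hh j)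

theorem Sl.Ok.sL (ok : σ.Ok U θ) (hf : Sm U f) : Sm U (σ.Λ f) :=
  Sm.sum _ fun i _ => Sm.sum _ fun j _ =>
    ((ok.ss i j).mul ((ok.sD (ok.sD hf j) i).add ((ok.ks i).mul (ok.sD hf j)))).add
      ((ok.sD (ok.ss i j) i).mul (ok.sD hf j))

theorem Sl.Ok.tG (ok : σ.Ok U θ) (hf : Sm U f) (hh : Te U h) : Te U (σ.Γ f h) :=
  Te.sum ok.op _ fun i _ => Te.sum ok.op _ fun j _ =>
    (ok.tD hh j).mul_left ok.op ((ok.ss i j).mul (ok.sD hf i))

theorem Sl.Ok.tL (ok : σ.Ok U θ) (hf : Te U f) : Te U (σ.Λ f) :=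
  Te.sum ok.op _ fun i _ => Te.sum ok.op _ fun j _ =>
    (((ok.tD (ok.tD hf j) i).add ok.op ((ok.tD hf j).mul_left ok.op (ok.ks i))).mul_left ok.op
      (ok.ss i j)).add ok.op ((ok.tD hf j).mul_left ok.op (ok.sD (ok.ss i j) i))

theorem G_comm (ok : σ.Ok U θ) (f h : E → ℝ) (z : E) : σ.Γ f h z = σ.Γ h f z := by
  unfold Sl.Γ
  rw [Finset.sum_comm]
  refine Finset.sum_congr rfl fun i _ => Finset.sum_congr rfl fun j _ => ?_
  rw [ok.sy j i]; ring

theorem Sl.Ok.tG' (ok : σ.Ok U θ) (hf : Te U f) (hh : Sm U h) : Te U (σ.Γ f h) :=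
  (ok.tG hh hf).congr fun z => G_comm ok f h z

theorem G_congr (ok : σ.Ok U θ) {f' h' : E → ℝ} (ef : ∀ z ∈ U, f z = f' z)
    (eh : ∀ z ∈ U, h z = h' z) (hz : z ∈ U) : σ.Γ f h z = σ.Γ f' h' z := by
  unfold Sl.Γ
  refine Finset.sum_congr rfl fun i _ => Finset.sum_congr rfl fun j _ => ?_
  rw [D_congr σ ok.op ef i hz, D_congr σ ok.op eh j hz]

theorem L_congr (ok : σ.Ok U θ) (e : ∀ z ∈ U, f z = g z) (hz : z ∈ U) :
    σ.Λ f z = σ.Λ g z := by
  unfold Sl.Λ
  refine Finset.sum_congr rfl fun i _ => Finset.sum_congr rfl fun j _ => ?_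
  rw [D_congr σ ok.op (fun z hz => D_congr σ ok.op e j hz) i hz, D_congr σ ok.op e j hz]

theorem G_add (ok : σ.Ok U θ) (f : E → ℝ) (hg : Sm U g) (hh : Sm U h) (hz : z ∈ U) :
    σ.Γ f (fun z => g z + h z) z = σ.Γ f g z + σ.Γ f h z := by
  unfold Sl.Γ
  simp only [← Finset.sum_add_distrib]
  refine Finset.sum_congr rfl fun i _ => Finset.sum_congr rfl fun j _ => ?_
  rw [D_add σ ok.op hg hh j hz]; ring

theorem G_sub (ok : σ.Ok U θ) (f : E → ℝ) (hg : Sm U g) (hh : Sm U h) (hz : z ∈ U) :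
    σ.Γ f (fun z => g z - h z) z = σ.Γ f g z - σ.Γ f h z := by
  unfold Sl.Γ
  simp only [← Finset.sum_sub_distrib]
  refine Finset.sum_congr rfl fun i _ => Finset.sum_congr rfl fun j _ => ?_
  rw [D_sub σ ok.op hg hh j hz]; ring

theorem G_mul (ok : σ.Ok U θ) (f : E → ℝ) (hg : Sm U g) (hh : Sm U h) (hz : z ∈ U) :
    σ.Γ f (fun z => g z * h z) z = g z * σ.Γ f h z + h z * σ.Γ f g z := by
  unfold Sl.Γ
  simp only [Finset.mul_sum, ← Finset.sum_add_distrib]
  refine Finset.sum_congr rfl fun i _ => Finset.sum_congr rfl fun j _ => ?_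
  rw [D_mul σ ok.op hg hh j hz]; ring

theorem G_cmul (ok : σ.Ok U θ) (f : E → ℝ) (c : ℝ) (hh : Sm U h) (hz : z ∈ U) :
    σ.Γ f (fun z => c * h z) z = c * σ.Γ f h z := by
  unfold Sl.Γ
  simp only [Finset.mul_sum]
  refine Finset.sum_congr rfl fun i _ => Finset.sum_congr rfl fun j _ => ?_
  rw [D_cmul σ ok.op c hh j hz]; ring

theorem G_neg (ok : σ.Ok U θ) (f : E → ℝ) (hh : Sm U h) (hz : z ∈ U) :
    σ.Γ f (fun z => -h z) z = -σ.Γ f h z := by
  have := G_cmul ok f (-1) hh hz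
  simpa using this

theorem G_sq (ok : σ.Ok U θ) (f : E → ℝ) (hh : Sm U h) (hz : z ∈ U) :
    σ.Γ f (fun z => h z ^ 2) z = 2 * h z * σ.Γ f h z := by
  rw [G_congr ok (f' := f) (h' := fun z => h z * h z) (fun _ _ => rfl) (fun z _ => by ring) hz,
    G_mul ok f hh hh hz]
  ring

theorem L_add (ok : σ.Ok U θ) (hg : Sm U g) (hh : Sm U h) (hz : z ∈ U) :
    σ.Λ (fun z => g z + h z) z = σ.Λ g z + σ.Λ h z := by
  unfold Sl.Λ
  simp only [← Finset.sum_add_distrib]
  refine Finset.sum_congr rfl fun i _ => Finset.sum_congr rfl fun j _ => ?_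
  rw [D_congr σ ok.op (fun z hz => D_add σ ok.op hg hh j hz) i hz,
    D_add σ ok.op (ok.sD hg j) (ok.sD hh j) i hz, D_add σ ok.op hg hh j hz]
  ring

theorem L_cmul (ok : σ.Ok U θ) (c : ℝ) (hg : Sm U g) (hz : z ∈ U) :
    σ.Λ (fun z => c * g z) z = c * σ.Λ g z := by
  unfold Sl.Λ
  simp only [Finset.mul_sum]
  refine Finset.sum_congr rfl fun i _ => Finset.sum_congr rfl fun j _ => ?_
  rw [D_congr σ ok.op (fun z hz => D_cmul σ ok.op c hg j hz) i hz,
    D_cmul σ ok.op c (ok.sD hg j) i hz, D_cmul σ ok.op c hg j hz]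
  ring

theorem L_sub (ok : σ.Ok U θ) (hg : Sm U g) (hh : Sm U h) (hz : z ∈ U) :
    σ.Λ (fun z => g z - h z) z = σ.Λ g z - σ.Λ h z := by
  unfold Sl.Λ
  simp only [← Finset.sum_sub_distrib]
  refine Finset.sum_congr rfl fun i _ => Finset.sum_congr rfl fun j _ => ?_
  rw [D_congr σ ok.op (fun z hz => D_sub σ ok.op hg hh j hz) i hz,
    D_sub σ ok.op (ok.sD hg j) (ok.sD hh j) i hz, D_sub σ ok.op hg hh j hz]
  ring

theorem L_mul (ok : σ.Ok U θ) (hg : Sm U g) (hh : Sm U h) (hz : z ∈ U) :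
    σ.Λ (fun z => g z * h z) z = g z * σ.Λ h z + h z * σ.Λ g z + 2 * σ.Γ g h z := by
  have e : 2 * σ.Γ g h z = σ.Γ g h z + σ.Γ h g z := by rw [G_comm ok h g]; ring
  rw [e]
  unfold Sl.Λ Sl.Γ
  simp only [Finset.mul_sum, ← Finset.sum_add_distrib]
  refine Finset.sum_congr rfl fun i _ => Finset.sum_congr rfl fun j _ => ?_
  rw [D_congr σ ok.op (fun z hz => D_mul σ ok.op hg hh j hz) i hz,
    D_add σ ok.op ((ok.sD hg j).mul hh) (hg.mul (ok.sD hh j)) i hz,
    D_mul σ ok.op (ok.sD hg j) hh i hz, D_mul σ ok.op hg (ok.sD hh j) i hz,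
    D_mul σ ok.op hg hh j hz]
  ring

theorem Sl.Ok.sdv (ok : σ.Ok U θ) (j : ι) : Sm U (σ.dv j) :=
  Sm.sum _ fun i _ => ok.sD (ok.ss i j) i

/-- The divergence form of `Λ`. -/
theorem L_div (ok : σ.Ok U θ) (hf : Sm U f) (hz : z ∈ U) :
    σ.Λ f z = ∑ i, (σ.D i (fun z => ∑ j, σ.s i j z * σ.D j f z) z +
      σ.k i z * (∑ j, σ.s i j z * σ.D j f z)) := by
  unfold Sl.Λ
  refine Finset.sum_congr rfl fun i _ => ?_
  rw [D_sum σ ok.op _ (fun j _ => (ok.ss i j).mul (ok.sD hf j)) i hz, Finset.mul_sum,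
    ← Finset.sum_add_distrib]
  refine Finset.sum_congr rfl fun j _ => ?_
  rw [D_mul σ ok.op (ok.ss i j) (ok.sD hf j) i hz]
  ring

end slot

/-! ## The integral -/

variable [MeasureSpace E]

/-- The weighted integral. -/
def In (U : Set E) (θ f : E → ℝ) : ℝ := ∫ z in U, θ z * f z

variable [FiniteDimensional ℝ E] [BorelSpace E] [(volume : Measure E).IsAddHaarMeasure]

section integral

variable {σ : Sl E ι} {U : Set E} {θ : E → ℝ} {f g h : E → ℝ} {z : E}

theorem te_int (hU : IsOpen U) (hθ : Sm U θ) (hf : Te U f) :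
    IntegrableOn (fun z => θ z * f z) U := by
  have h : Te U fun z => θ z * f z := hf.mul_left hU hθ
  exact (h.1.continuous.integrable_of_hasCompactSupport h.2.1).integrableOn

theorem In_congr (hU : IsOpen U) (h : ∀ z ∈ U, f z = g z) : In U θ f = In U θ g :=
  setIntegral_congr_fun hU.measurableSet fun z hz => by
    rw [h z hz]

theorem In_add (hU : IsOpen U) (hθ : Sm U θ) (hf : Te U f) (hg : Te U g) :
    In U θ (fun z => f z + g z) = In U θ f + In U θ g := by
  unfold In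
  rw [← integral_add (te_int hU hθ hf) (te_int hU hθ hg)]
  simp only [mul_add]

theorem In_sub (hU : IsOpen U) (hθ : Sm U θ) (hf : Te U f) (hg : Te U g) :
    In U θ (fun z => f z - g z) = In U θ f - In U θ g := by
  unfold In
  rw [← integral_sub (te_int hU hθ hf) (te_int hU hθ hg)]
  simp only [mul_sub]

theorem In_cmul (U : Set E) (θ : E → ℝ) (c : ℝ) (f : E → ℝ) :
    In U θ (fun z => c * f z) = c * In U θ f := by
  unfold In
  rw [← integral_const_mul]
  congr 1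
  funext z
  ring

theorem In_neg (U : Set E) (θ f : E → ℝ) : In U θ (fun z => -f z) = -In U θ f := by
  have := In_cmul U θ (-1) f
  simpa using this

theorem In_zero (U : Set E) (θ : E → ℝ) : In U θ (fun _ => 0) = 0 := by
  unfold In; simp

theorem In_sum {α : Type*} (hU : IsOpen U) (hθ : Sm U θ) (S : Finset α) {f : α → E → ℝ}
    (hf : ∀ i ∈ S, Te U (f i)) : In U θ (fun z => ∑ i ∈ S, f i z) = ∑ i ∈ S, In U θ (f i) := by
  unfold In
  rw [← integral_finsetSum S fun i hi => te_int hU hθ (hf i hi)]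
  simp only [Finset.mul_sum]

theorem In_nonneg (hU : IsOpen U) (hθ : ∀ z ∈ U, 0 < θ z) (h : ∀ z ∈ U, 0 ≤ f z) :
    0 ≤ In U θ f :=
  setIntegral_nonneg hU.measurableSet fun z hz => mul_nonneg (hθ z hz).le (h z hz)

theorem In_mono (hU : IsOpen U) (hθ : ∀ z ∈ U, 0 < θ z) (hs : Sm U θ) (hf : Te U f) (hg : Te U g)
    (h : ∀ z ∈ U, f z ≤ g z) : In U θ f ≤ In U θ g :=
  setIntegral_mono_on (te_int hU hs hf) (te_int hU hs hg) hU.measurableSet
    fun z hz => mul_le_mul_of_nonneg_left (h z hz) (hθ z hz).le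

theorem int_fd (hU : IsOpen U) (hf : Te U f) (v : E) : ∫ z, fderiv ℝ f z v = 0 := by
  have h1 : Te U fun z => fderiv ℝ f z v := hf.fd hU v
  have hi : Integrable (fun z => fderiv ℝ f z v) :=
    h1.1.continuous.integrable_of_hasCompactSupport h1.2.1
  have hf' : Integrable f := hf.1.continuous.integrable_of_hasCompactSupport hf.2.1
  have := integral_mul_fderiv_eq_neg_fderiv_mul_of_integrable (μ := (volume : Measure E))
    (f := fun _ : E => (1 : ℝ)) (g := f) (v := v) (by simp) (by simpa using hi)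
    (by simpa using hf') (fun x _ => differentiableAt_const _)
    (fun x _ => hf.1.differentiable (by simp) |>.differentiableAt)
  simpa using this

theorem ibp (ok : σ.Ok U θ) (hh : Te U h) (i : ι) :
    In U θ (fun z => σ.D i h z + σ.k i z * h z) = 0 := by
  have s1 : Sm U fun z : E => θ z * σ.ρ z := ok.ts.mul ok.rs
  have t1 : Te U fun z => θ z * σ.ρ z * h z := hh.mul_left ok.op s1
  have e := int_fd ok.op t1 (σ.e i)
  rw [← setIntegral_eq_integral_of_forall_compl_eq_zero (s := U)] at e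
  · unfold In
    rw [← e]
    refine setIntegral_congr_fun ok.op.measurableSet fun z hz => ?_
    have h1 := ok.th z hz i
    have e2 : ∀ p q : E → ℝ, Sm U p → Sm U q → fderiv ℝ (fun z => p z * q z) z (σ.e i) =
        p z * fderiv ℝ q z (σ.e i) + q z * fderiv ℝ p z (σ.e i) := by
      intro p q hp hq
      rw [fderiv_fun_mul (hp.diff ok.op hz) (hq.diff ok.op hz)]
      simp only [_root_.add_apply, _root_.smul_apply, smul_eq_mul]
    rw [e2 _ _ s1 hh.sm, e2 _ _ ok.ts ok.rs]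
    simp only [Sl.D] at h1 ⊢
    linear_combination -h z * h1
  · intro z hz
    have t2 := t1.fd ok.op (σ.e i)
    exact t2.off hz

/-- Integration by parts. -/
theorem In_L (ok : σ.Ok U θ) (hf : Sm U f) (hh : Te U h) :
    In U θ (fun z => σ.Λ f z * h z) = -In U θ (σ.Γ f h) := by
  have hU := ok.op
  have sY : ∀ i, Sm U fun z => ∑ j, σ.s i j z * σ.D j f z := fun i =>
    Sm.sum _ fun j _ => (ok.ss i j).mul (ok.sD hf j)
  have tY : ∀ i, Te U fun z => (∑ j, σ.s i j z * σ.D j f z) * h z := fun i =>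
    hh.mul_left hU (sY i)
  have h0 : In U θ (fun z => ∑ i, (σ.D i (fun z => (∑ j, σ.s i j z * σ.D j f z) * h z) z +
      σ.k i z * ((∑ j, σ.s i j z * σ.D j f z) * h z))) = 0 := by
    rw [In_sum hU ok.ts _ (f := fun i z => σ.D i (fun z => (∑ j, σ.s i j z * σ.D j f z) * h z) z +
      σ.k i z * ((∑ j, σ.s i j z * σ.D j f z) * h z))]
    · exact Finset.sum_eq_zero fun i _ => ibp ok (tY i) i
    · intro i _
      exact (ok.tD (tY i) i).add hU ((tY i).mul_left hU (ok.ks i))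
  have tL : Te U fun z => σ.Λ f z * h z := hh.mul_left hU (ok.sL hf)
  have tG : Te U (σ.Γ f h) := ok.tG hf hh
  have h1 : In U θ (fun z => σ.Λ f z * h z + σ.Γ f h z) = 0 := by
    rw [← h0]
    refine In_congr hU fun z hz => ?_
    have e1 : ∀ i, σ.D i (fun z => (∑ j, σ.s i j z * σ.D j f z) * h z) z =
        (∑ j, (σ.D i (σ.s i j) z * σ.D j f z + σ.s i j z * σ.D i (σ.D j f) z)) * h z
          + (∑ j, σ.s i j z * σ.D j f z) * σ.D i h z := by
      intro i
      rw [D_mul σ hU (sY i) hh.sm i hz,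
        D_sum σ hU _ (fun j _ => (ok.ss i j).mul (ok.sD hf j)) i hz]
      congr 2
      refine Finset.sum_congr rfl fun j _ => ?_
      rw [D_mul σ hU (ok.ss i j) (ok.sD hf j) i hz]
    have e3 : ∀ i, σ.D i (fun z => (∑ j, σ.s i j z * σ.D j f z) * h z) z +
        σ.k i z * ((∑ j, σ.s i j z * σ.D j f z) * h z) =
        ((∑ j, (σ.s i j z * (σ.D i (σ.D j f) z + σ.k i z * σ.D j f z) +
          σ.D i (σ.s i j) z * σ.D j f z)) * h z +
        ∑ j, σ.s i j z * σ.D j f z * σ.D i h z) := by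
      intro i
      rw [e1 i]
      simp only [Finset.mul_sum, Finset.sum_mul, ← Finset.sum_add_distrib]
      refine Finset.sum_congr rfl fun j _ => ?_
      ring
    simp only [e3]
    rw [Finset.sum_add_distrib, ← Finset.sum_mul]
    have e4 : σ.Γ f h z = ∑ i, ∑ j, σ.s i j z * σ.D j f z * σ.D i h z := by
      unfold Sl.Γ
      rw [Finset.sum_comm]
      refine Finset.sum_congr rfl fun i _ => Finset.sum_congr rfl fun j _ => ?_
      rw [ok.sy j i]
    rw [e4]
    rfl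
  rw [In_add hU ok.ts tL tG] at h1
  linarith

/-- Integration by parts, the total integral of `Λ f`. -/
theorem In_L0 (ok : σ.Ok U θ) (hf : Te U f) : In U θ (σ.Λ f) = 0 := by
  have hU := ok.op
  have tY : ∀ i, Te U fun z => ∑ j, σ.s i j z * σ.D j f z := fun i =>
    Te.sum hU _ fun j _ => (ok.tD hf j).mul_left hU (ok.ss i j)
  have h0 : In U θ (fun z => ∑ i, (σ.D i (fun z => ∑ j, σ.s i j z * σ.D j f z) z +
      σ.k i z * (∑ j, σ.s i j z * σ.D j f z))) = 0 := by
    rw [In_sum hU ok.ts _ (f := fun i z => σ.D i (fun z => ∑ j, σ.s i j z * σ.D j f z) z +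
      σ.k i z * (∑ j, σ.s i j z * σ.D j f z))]
    · exact Finset.sum_eq_zero fun i _ => ibp ok (tY i) i
    · intro i _
      exact (ok.tD (tY i) i).add hU ((tY i).mul_left hU (ok.ks i))
  rw [← h0]
  exact In_congr hU fun z hz => L_div ok hf.sm hz

end integral

end Vale.Agent.P088.R2.H961.GW
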