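import Vale.Agent.P088.R2.H961.W.Exp
import Vale.Agent.P088.R2.H558.Defs
import Mathlib.Analysis.SpecialFunctions.Pow.Deriv

/-!
# Weighted `L²` methods: conformal frames on pairs of points

`D_i = r₁(x) ∂_{x_i}`, `D_i = r₂(y) ∂_{y_i}`, `θ = (r₁ r₂)^{-n}`.
-/

open MeasureTheory Set Filter
open scoped ContDiff Topology Matrix

noncomputable section

namespace Vale.Agent.P088.R2.H961.GW

open Vale.Agent.P088.LR Vale.Agent.P088.HY

variable {n : ℕ}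

/-- A scale and a symmetric tensor on `O`. -/
structure Fr0 (r : V n → ℝ) (s : MF n) (O : Set (V n)) : Prop where
  op : IsOpen O
  rp : ∀ x ∈ O, 0 < r x
  rs : ContDiffOn ℝ ∞ r O
  ss : ∀ i j, ContDiffOn ℝ ∞ (fun x => s x i j) O
  sy : ∀ x i j, s x i j = s x j i

/-- A scale and a divergence free tensor on `O`. -/
structure Fr (r : V n → ℝ) (s : MF n) (O : Set (V n)) : Prop extends Fr0 r s O where
  dv : ∀ x ∈ O, ∀ j, ∑ i, pd i (fun y => s y i j) x = 0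

/-- The slot of the first variable. -/
def slx (r : V n → ℝ) (s : MF n) : Sl (VV n) (Fin n) where
  ρ z := r z.1
  e i := (Pi.single i 1, 0)
  s i j z := s z.1 i j
  k i z := -((n : ℝ) - 1) * pd i r z.1

/-- The slot of the second variable. -/
def sly (r : V n → ℝ) (s : MF n) : Sl (VV n) (Fin n) where
  ρ z := r z.2
  e i := (0, Pi.single i 1)
  s i j z := s z.2 i j
  k i z := -((n : ℝ) - 1) * pd i r z.2

/-- The density. -/
def tht (r₁ r₂ : V n → ℝ) (z : VV n) : ℝ := ((r₁ z.1 * r₂ z.2) ^ n)⁻¹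

/-- The potential `r^{γ+2} L r^{-γ}`. -/
def vpt (r : V n → ℝ) (s : MF n) (x : V n) : ℝ :=
  -(ga n * r x * Lv s r x) + ga n * (ga n + 1) * ∑ i, ∑ j, s x i j * pd i r x * pd j r x

section cal

variable {r r₁ r₂ : V n → ℝ} {s s₁ s₂ : MF n} {O O₁ O₂ : Set (V n)} {U : Set (VV n)} {z : VV n}

theorem fd_fst {g : V n → ℝ} (hg : DifferentiableAt ℝ g z.1) (u v : V n) :
    fderiv ℝ (fun z : VV n => g z.1) z (u, v) = fderiv ℝ g z.1 u := by
  have : HasFDerivAt (fun z : VV n => g z.1)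
    ((fderiv ℝ g z.1).comp (ContinuousLinearMap.fst ℝ (V n) (V n))) z :=
    HasFDerivAt.comp z hg.hasFDerivAt hasFDerivAt_fst
  rw [this.fderiv]; rfl

theorem fd_snd {g : V n → ℝ} (hg : DifferentiableAt ℝ g z.2) (u v : V n) :
    fderiv ℝ (fun z : VV n => g z.2) z (u, v) = fderiv ℝ g z.2 v := by
  have : HasFDerivAt (fun z : VV n => g z.2)
    ((fderiv ℝ g z.2).comp (ContinuousLinearMap.snd ℝ (V n) (V n))) z :=
    HasFDerivAt.comp z hg.hasFDerivAt hasFDerivAt_snd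
  rw [this.fderiv]; rfl

theorem sm_fst {g : V n → ℝ} (hU : U ⊆ O₁ ×ˢ O₂) (hg : ContDiffOn ℝ ∞ g O₁) :
    Sm U fun z => g z.1 :=
  hg.comp contDiff_fst.contDiffOn fun _ hz => (hU hz).1

theorem sm_snd {g : V n → ℝ} (hU : U ⊆ O₁ ×ˢ O₂) (hg : ContDiffOn ℝ ∞ g O₂) :
    Sm U fun z => g z.2 :=
  hg.comp contDiff_snd.contDiffOn fun _ hz => (hU hz).2

theorem sm_pd {g : V n → ℝ} (hO : IsOpen O) (hg : ContDiffOn ℝ ∞ g O) (i : Fin n) :
    ContDiffOn ℝ ∞ (pd i g) O := by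
  have h : ContDiffOn ℝ ∞ (fderiv ℝ g) O := hg.fderiv_of_isOpen hO (by norm_num)
  exact h.clm_apply contDiffOn_const

theorem df_of {g : V n → ℝ} {x : V n} (hO : IsOpen O) (hg : ContDiffOn ℝ ∞ g O) (hx : x ∈ O) :
    DifferentiableAt ℝ g x :=
  ((hg x hx).contDiffAt (hO.mem_nhds hx)).differentiableAt (by simp)

/-- The derivations on functions of the first variable. -/
theorem Dx_fst {g : V n → ℝ} (hg : DifferentiableAt ℝ g z.1) (i : Fin n) :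
    (slx r s).D i (fun z => g z.1) z = r z.1 * pd i g z.1 := by
  have := fd_fst (z := z) hg (Pi.single i 1) 0
  simp only [Sl.D, slx, this]
  rfl

theorem Dx_snd {g : V n → ℝ} (hg : DifferentiableAt ℝ g z.2) (i : Fin n) :
    (slx r s).D i (fun z => g z.2) z = 0 := by
  have := fd_snd (z := z) hg (Pi.single i 1) 0
  simp [Sl.D, slx, this]

theorem Dy_snd {g : V n → ℝ} (hg : DifferentiableAt ℝ g z.2) (i : Fin n) :
    (sly r s).D i (fun z => g z.2) z = r z.2 * pd i g z.2 := by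
  have := fd_snd (z := z) hg 0 (Pi.single i 1)
  simp only [Sl.D, sly, this]
  rfl

theorem Dy_fst {g : V n → ℝ} (hg : DifferentiableAt ℝ g z.1) (i : Fin n) :
    (sly r s).D i (fun z => g z.1) z = 0 := by
  have := fd_fst (z := z) hg 0 (Pi.single i 1)
  simp [Sl.D, sly, this]

theorem tht_pos (f₁ : Fr0 r₁ s₁ O₁) (f₂ : Fr0 r₂ s₂ O₂) (hU : U ⊆ O₁ ×ˢ O₂) (hz : z ∈ U) :
    0 < tht r₁ r₂ z := by
  have h1 := f₁.rp _ (hU hz).1
  have h2 := f₂.rp _ (hU hz).2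
  unfold tht
  positivity

theorem sm_tht (f₁ : Fr0 r₁ s₁ O₁) (f₂ : Fr0 r₂ s₂ O₂) (hU : U ⊆ O₁ ×ˢ O₂) :
    Sm U (tht r₁ r₂) := by
  unfold tht
  refine ContDiffOn.inv (((sm_fst hU f₁.rs).mul (sm_snd hU f₂.rs)).pow n) ?_
  intro z hz
  have h1 := f₁.rp _ (hU hz).1
  have h2 := f₂.rp _ (hU hz).2
  positivity

theorem Dtht (f₁ : Fr0 r₁ s₁ O₁) (f₂ : Fr0 r₂ s₂ O₂) (ho : IsOpen U) (hU : U ⊆ O₁ ×ˢ O₂)
    (hz : z ∈ U) (v : VV n) : fderiv ℝ (tht r₁ r₂) z v =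
      -(n : ℝ) * (fderiv ℝ (fun z : VV n => r₁ z.1) z v * r₂ z.2 +
        r₁ z.1 * fderiv ℝ (fun z : VV n => r₂ z.2) z v) / (r₁ z.1 * r₂ z.2) * tht r₁ r₂ z := by
  have h1 := f₁.rp _ (hU hz).1
  have h2 := f₂.rp _ (hU hz).2
  have hp : 0 < r₁ z.1 * r₂ z.2 := mul_pos h1 h2
  have d1 : DifferentiableAt ℝ (fun z : VV n => r₁ z.1) z := (sm_fst hU f₁.rs).diff ho hz
  have d2 : DifferentiableAt ℝ (fun z : VV n => r₂ z.2) z := (sm_snd hU f₂.rs).diff ho hz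
  have hm := d1.hasFDerivAt.mul d2.hasFDerivAt
  have hq := (hasDerivAt_zpow (-(n : ℤ)) (r₁ z.1 * r₂ z.2) (Or.inl hp.ne')).comp_hasFDerivAt z hm
  have he : tht r₁ r₂ = (fun x : ℝ => x ^ (-(n : ℤ))) ∘ fun z : VV n => r₁ z.1 * r₂ z.2 := by
    funext w
    simp only [tht, Function.comp, zpow_neg, zpow_natCast]
  have hc : (fun x : ℝ => x ^ (-(n : ℤ))) (r₁ z.1 * r₂ z.2) = tht r₁ r₂ z := by
    rw [he]; rfl
  rw [he] at *
  rw [show fderiv ℝ ((fun x : ℝ => x ^ (-(n : ℤ))) ∘ fun z : VV n => r₁ z.1 * r₂ z.2) z =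
    _ from hq.fderiv]
  simp only [_root_.smul_apply, _root_.add_apply, smul_eq_mul, Function.comp]
  rw [zpow_sub_one₀ hp.ne']
  push_cast
  field_simp
  ring

theorem okx (f₁ : Fr0 r₁ s₁ O₁) (f₂ : Fr0 r₂ s₂ O₂) (ho : IsOpen U) (hU : U ⊆ O₁ ×ˢ O₂) :
    (slx r₁ s₁).Ok U (tht r₁ r₂) where
  op := ho
  tp _ hz := tht_pos f₁ f₂ hU hz
  ts := sm_tht f₁ f₂ hU
  rs := sm_fst hU f₁.rs
  ss i j := sm_fst hU (f₁.ss i j)
  ks i := contDiffOn_const.mul (sm_fst hU (sm_pd f₁.op f₁.rs i))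
  sy i j z := f₁.sy z.1 i j
  th z hz i := by
    have h1 := f₁.rp _ (hU hz).1
    have h2 := f₂.rp _ (hU hz).2
    have e1 : fderiv ℝ (slx r₁ s₁).ρ z ((slx r₁ s₁).e i) = pd i r₁ z.1 :=
      fd_fst (df_of f₁.op f₁.rs (hU hz).1) _ _
    have e2 : fderiv ℝ (fun z : VV n => r₁ z.1) z (Pi.single i 1, 0) = pd i r₁ z.1 :=
      fd_fst (df_of f₁.op f₁.rs (hU hz).1) _ _
    have e3 : fderiv ℝ (fun z : VV n => r₂ z.2) z (Pi.single i 1, 0) = 0 := by
      rw [fd_snd (df_of f₂.op f₂.rs (hU hz).2) _ _]; simp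
    rw [e1]
    have e4 : (slx r₁ s₁).D i (tht r₁ r₂) z = r₁ z.1 * fderiv ℝ (tht r₁ r₂) z
      (Pi.single i 1, 0) := rfl
    rw [e4, Dtht f₁ f₂ ho hU hz, e2, e3]
    simp only [slx]
    field_simp
    ring

theorem oky (f₁ : Fr0 r₁ s₁ O₁) (f₂ : Fr0 r₂ s₂ O₂) (ho : IsOpen U) (hU : U ⊆ O₁ ×ˢ O₂) :
    (sly r₂ s₂).Ok U (tht r₁ r₂) where
  op := ho
  tp _ hz := tht_pos f₁ f₂ hU hz
  ts := sm_tht f₁ f₂ hU
  rs := sm_snd hU f₂.rs
  ss i j := sm_snd hU (f₂.ss i j)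
  ks i := contDiffOn_const.mul (sm_snd hU (sm_pd f₂.op f₂.rs i))
  sy i j z := f₂.sy z.2 i j
  th z hz i := by
    have h1 := f₁.rp _ (hU hz).1
    have h2 := f₂.rp _ (hU hz).2
    have e1 : fderiv ℝ (sly r₂ s₂).ρ z ((sly r₂ s₂).e i) = pd i r₂ z.2 :=
      fd_snd (df_of f₂.op f₂.rs (hU hz).2) _ _
    have e2 : fderiv ℝ (fun z : VV n => r₂ z.2) z (0, Pi.single i 1) = pd i r₂ z.2 :=
      fd_snd (df_of f₂.op f₂.rs (hU hz).2) _ _
    have e3 : fderiv ℝ (fun z : VV n => r₁ z.1) z (0, Pi.single i 1) = 0 := by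
      rw [fd_fst (df_of f₁.op f₁.rs (hU hz).1) _ _]; simp
    rw [e1]
    have e4 : (sly r₂ s₂).D i (tht r₁ r₂) z = r₂ z.2 * fderiv ℝ (tht r₁ r₂) z
      (0, Pi.single i 1) := rfl
    rw [e4, Dtht f₁ f₂ ho hU hz, e2, e3]
    simp only [sly]
    field_simp
    ring

/-- The slots commute. -/
theorem cmm (f₁ : Fr0 r₁ s₁ O₁) (f₂ : Fr0 r₂ s₂ O₂) (ho : IsOpen U) (hU : U ⊆ O₁ ×ˢ O₂) :
    Cm (slx r₁ s₁) (sly r₂ s₂) U where
  cc f hf z hz i k := by
    have hs : IsSymmSndFDerivAt ℝ f z := (hf.at ho hz).isSymmSndFDerivAt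
      (by rw [minSmoothness_of_isRCLikeNormedField]; exact WithTop.coe_le_coe.2 le_top)
    have h3 : DifferentiableAt ℝ (fderiv ℝ f) z := by
      have h : ContDiffOn ℝ ∞ (fderiv ℝ f) U := hf.fderiv_of_isOpen ho (by norm_num)
      exact ((h z hz).contDiffAt (ho.mem_nhds hz)).differentiableAt (by simp)
    have h2 : ∀ v, DifferentiableAt ℝ (fun w => fderiv ℝ f w v) z := fun v =>
      (hf.fd ho v).diff ho hz
    have e1 : ∀ u v : VV n, fderiv ℝ (fun w => fderiv ℝ f w v) z u =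
        fderiv ℝ (fderiv ℝ f) z u v := by
      intro u v
      have := fderiv_clm_apply h3 (differentiableAt_const v)
      rw [this]
      simp
    have d1 : DifferentiableAt ℝ (fun z : VV n => r₁ z.1) z := (sm_fst hU f₁.rs).diff ho hz
    have d2 : DifferentiableAt ℝ (fun z : VV n => r₂ z.2) z := (sm_snd hU f₂.rs).diff ho hz
    have g1 : fderiv ℝ (fun z : VV n => r₁ z.1) z (0, Pi.single k 1) = 0 := by
      rw [fd_fst (df_of f₁.op f₁.rs (hU hz).1) _ _]; simp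
    have g2 : fderiv ℝ (fun z : VV n => r₂ z.2) z (Pi.single i 1, 0) = 0 := by
      rw [fd_snd (df_of f₂.op f₂.rs (hU hz).2) _ _]; simp
    have a1 : (slx r₁ s₁).D i ((sly r₂ s₂).D k f) z = r₁ z.1 *
      fderiv ℝ (fun w : VV n => r₂ w.2 * fderiv ℝ f w (0, Pi.single k 1)) z
        (Pi.single i 1, 0) := rfl
    have a2 : (sly r₂ s₂).D k ((slx r₁ s₁).D i f) z = r₂ z.2 *
      fderiv ℝ (fun w : VV n => r₁ w.1 * fderiv ℝ f w (Pi.single i 1, 0)) z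
        (0, Pi.single k 1) := rfl
    rw [a1, a2, fderiv_fun_mul d2 (h2 _), fderiv_fun_mul d1 (h2 _)]
    simp only [_root_.add_apply, _root_.smul_apply, smul_eq_mul, e1, g1, g2]
    rw [hs (Pi.single i 1, 0) (0, Pi.single k 1)]
    ring
  s1 z hz i k l := Dx_snd (df_of f₂.op (f₂.ss k l) (hU hz).2) i
  k1 z hz i k := by
    have : DifferentiableAt ℝ (fun x => -((n : ℝ) - 1) * pd k r₂ x) z.2 :=
      df_of f₂.op (contDiffOn_const.mul (sm_pd f₂.op f₂.rs k)) (hU hz).2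
    exact Dx_snd this i
  s2 z hz k i j := Dy_fst (df_of f₁.op (f₁.ss i j) (hU hz).1) k
  k2 z hz k i := by
    have : DifferentiableAt ℝ (fun x => -((n : ℝ) - 1) * pd i r₁ x) z.1 :=
      df_of f₁.op (contDiffOn_const.mul (sm_pd f₁.op f₁.rs i)) (hU hz).1
    exact Dy_fst this k

theorem sm_vpt (f : Fr0 r s O) : ContDiffOn ℝ ∞ (vpt r s) O := by
  unfold vpt Lv
  refine ContDiffOn.add (ContDiffOn.neg ((contDiffOn_const.mul f.rs).mul ?_))
    (contDiffOn_const.mul ?_)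
  · exact ContDiffOn.sum fun i _ => ContDiffOn.sum fun j _ =>
      (f.ss i j).mul (sm_pd f.op (sm_pd f.op f.rs j) i)
  · exact ContDiffOn.sum fun i _ => ContDiffOn.sum fun j _ =>
      ((f.ss i j).mul (sm_pd f.op f.rs i)).mul (sm_pd f.op f.rs j)

theorem Dy_vpt (f₁ : Fr0 r₁ s₁ O₁) (hU : U ⊆ O₁ ×ˢ O₂) (hz : z ∈ U) (k : Fin n) :
    (sly r₂ s₂).D k (fun z => vpt r₁ s₁ z.1) z = 0 :=
  Dy_fst (df_of f₁.op (sm_vpt f₁) (hU hz).1) k

theorem Dx_vpt (f₂ : Fr0 r₂ s₂ O₂) (hU : U ⊆ O₁ ×ˢ O₂) (hz : z ∈ U) (i : Fin n) :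
    (slx r₁ s₁).D i (fun z => vpt r₂ s₂ z.2) z = 0 :=
  Dx_snd (df_of f₂.op (sm_vpt f₂) (hU hz).2) i

/-! ## The connection with `Lx`, `Ly` -/

theorem fr_one0 (f : Fr0 r s O) : Fr0 (fun _ => 1) s O where
  op := f.op
  rp _ _ := one_pos
  rs := contDiffOn_const
  ss := f.ss
  sy := f.sy

theorem fr_one (f : Fr r s O) : Fr (fun _ => 1) s O where
  toFr0 := fr_one0 f.toFr0
  dv := f.dv

/-- The divergence of the tensor. -/
theorem dvx (f₁ : Fr r₁ s₁ O₁) (hx : z.1 ∈ O₁) (j : Fin n) :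
    ∑ i, (slx r₁ s₁).D i ((slx r₁ s₁).s i j) z = 0 := by
  have e : ∀ i, (slx r₁ s₁).D i ((slx r₁ s₁).s i j) z =
      r₁ z.1 * pd i (fun y => s₁ y i j) z.1 := fun i =>
    Dx_fst (df_of f₁.op (f₁.ss i j) hx) i
  simp only [e, ← Finset.mul_sum, f₁.dv z.1 hx j, mul_zero]

theorem dvy (f₂ : Fr r₂ s₂ O₂) (hy : z.2 ∈ O₂) (j : Fin n) :
    ∑ i, (sly r₂ s₂).D i ((sly r₂ s₂).s i j) z = 0 := by
  have e : ∀ i, (sly r₂ s₂).D i ((sly r₂ s₂).s i j) z =
      r₂ z.2 * pd i (fun y => s₂ y i j) z.2 := fun i =>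
    Dy_snd (df_of f₂.op (f₂.ss i j) hy) i
  simp only [e, ← Finset.mul_sum, f₂.dv z.2 hy j, mul_zero]

theorem Dx_one (i : Fin n) (f : VV n → ℝ) : (slx (fun _ => 1) s).D i f = dx i f := by
  funext z
  simp only [Sl.D, slx, one_mul]
  rfl

theorem Dy_one (i : Fin n) (f : VV n → ℝ) : (sly (fun _ => 1) s).D i f = dy i f := by
  funext z
  simp only [Sl.D, sly, one_mul]
  rfl

theorem Lx_one (f₁ : Fr r s O) (hx : z.1 ∈ O) (f : VV n → ℝ) :
    (slx (fun _ => 1) s).Λ f z = Lx s f z := by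
  have h : ∀ i : Fin n, (slx (fun _ => 1) s).k i z = 0 := fun i => by simp [slx, pd]
  rw [L_dv _ f fun j => dvx (fr_one f₁) hx j]
  unfold Lx
  simp only [Dx_one, h, zero_mul, add_zero]
  rfl

theorem Ly_one (f₂ : Fr r s O) (hy : z.2 ∈ O) (f : VV n → ℝ) :
    (sly (fun _ => 1) s).Λ f z = Ly s f z := by
  have h : ∀ i : Fin n, (sly (fun _ => 1) s).k i z = 0 := fun i => by simp [sly, pd]
  rw [L_dv _ f fun j => dvy (fr_one f₂) hy j]
  unfold Ly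
  simp only [Dy_one, h, zero_mul, add_zero]
  rfl

/-- `Λ` of the flat frame is the divergence form operator. -/
theorem Lx_div (o : (slx (fun _ => 1) s).Ok U (tht (fun _ => 1) fun _ => 1)) {f : VV n → ℝ}
    (hf : Sm U f) (hz : z ∈ U) :
    (slx (fun _ => 1) s).Λ f z = ∑ i, ∑ j, dx i (fun w => s w.1 i j * dx j f w) z := by
  have h : ∀ i : Fin n, (slx (fun _ => 1) s).k i z = 0 := fun i => by simp [slx, pd]
  rw [L_div o hf hz]
  refine Finset.sum_congr rfl fun i _ => ?_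
  rw [h i, zero_mul, add_zero,
    D_sum _ o.op _ (fun j _ => (o.ss i j).mul (o.sD hf j)) i hz]
  refine Finset.sum_congr rfl fun j _ => ?_
  rw [Dx_one, Dx_one]
  rfl

theorem Ly_div (o : (sly (fun _ => 1) s).Ok U (tht (fun _ => 1) fun _ => 1)) {f : VV n → ℝ}
    (hf : Sm U f) (hz : z ∈ U) :
    (sly (fun _ => 1) s).Λ f z = ∑ i, ∑ j, dy i (fun w => s w.2 i j * dy j f w) z := by
  have h : ∀ i : Fin n, (sly (fun _ => 1) s).k i z = 0 := fun i => by simp [sly, pd]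
  rw [L_div o hf hz]
  refine Finset.sum_congr rfl fun i _ => ?_
  rw [h i, zero_mul, add_zero,
    D_sum _ o.op _ (fun j _ => (o.ss i j).mul (o.sD hf j)) i hz]
  refine Finset.sum_congr rfl fun j _ => ?_
  rw [Dy_one, Dy_one]
  rfl

theorem tht_one : tht (n := n) (fun _ => 1) (fun _ => 1) = fun _ => 1 := by
  funext z; simp [tht]

/-- The integral of the flat frames. -/
theorem In_one (U : Set (VV n)) (f : VV n → ℝ) :
    In U (tht (fun _ => 1) fun _ => 1) f = ∫ z in U, f z := by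
  unfold In
  simp only [tht_one, one_mul]

theorem dx_rpow (f : Fr0 r s O) {α : ℝ} {x : V n} (hx : x ∈ O) (i : Fin n) :
    pd i (fun x => r x ^ α) x = α * r x ^ (α - 1) * pd i r x := by
  have h1 := f.rp x hx
  have d := (df_of f.op f.rs hx).hasFDerivAt
  have := d.rpow_const (p := α) (Or.inl h1.ne')
  unfold pd
  rw [this.fderiv]
  simp only [_root_.smul_apply, smul_eq_mul]

theorem sm_rpow (f : Fr0 r s O) (α : ℝ) : ContDiffOn ℝ ∞ (fun x => r x ^ α) O :=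
  f.rs.rpow_const_of_ne fun x hx => (f.rp x hx).ne'

/-- `L r^α`. -/
theorem Lv_rpow (f : Fr0 r s O) {α : ℝ} {x : V n} (hx : x ∈ O) :
    Lv s (fun x => r x ^ α) x = α * r x ^ (α - 1) * Lv s r x +
      α * (α - 1) * r x ^ (α - 2) * ∑ i, ∑ j, s x i j * pd i r x * pd j r x := by
  have hsm := sm_rpow f (α - 1)
  have e : ∀ i j, pd i (pd j fun x => r x ^ α) x =
      α * ((α - 1) * r x ^ (α - 2) * pd i r x) * pd j r x +
        α * r x ^ (α - 1) * pd i (pd j r) x := by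
    intro i j
    have h1 : (pd j fun x => r x ^ α) =ᶠ[𝓝 x] fun x => α * r x ^ (α - 1) * pd j r x := by
      filter_upwards [f.op.mem_nhds hx] with y hy using dx_rpow f hy j
    have h2 : pd i (pd j fun x => r x ^ α) x = pd i (fun x => α * r x ^ (α - 1) * pd j r x) x := by
      unfold pd
      unfold pd at h1
      rw [h1.fderiv_eq]
    rw [h2]
    have d1 : DifferentiableAt ℝ (fun x => α * r x ^ (α - 1)) x :=
      df_of f.op (contDiffOn_const.mul hsm) hx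
    have d2 : DifferentiableAt ℝ (pd j r) x := df_of f.op (sm_pd f.op f.rs j) hx
    have d3 : DifferentiableAt ℝ (fun x => r x ^ (α - 1)) x := df_of f.op hsm hx
    have e3 := dx_rpow f (α := α - 1) hx i
    rw [show α - 1 - 1 = α - 2 by ring] at e3
    have e4 : pd i (fun x => α * r x ^ (α - 1)) x = α * ((α - 1) * r x ^ (α - 2) * pd i r x) := by
      rw [← e3]
      unfold pd
      rw [fderiv_const_mul d3]
      simp
    have e5 : pd i (fun x => α * r x ^ (α - 1) * pd j r x) x =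
        pd i (fun x => α * r x ^ (α - 1)) x * pd j r x + α * r x ^ (α - 1) * pd i (pd j r) x := by
      unfold pd
      unfold pd at d2
      rw [fderiv_fun_mul d1 d2]
      simp only [_root_.add_apply, _root_.smul_apply, smul_eq_mul]
      ring
    rw [e5, e4]
  unfold Lv
  simp only [e, Finset.mul_sum, ← Finset.sum_add_distrib]
  refine Finset.sum_congr rfl fun i _ => Finset.sum_congr rfl fun j _ => ?_
  ring

theorem Lx_fst {g : V n → ℝ} (hU : U ⊆ O₁ ×ˢ O₂) (ho : IsOpen U) (hO : IsOpen O₁)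
    (hg : ContDiffOn ℝ ∞ g O₁) (hz : z ∈ U) : Lx s (fun w => g w.1) z = Lv s g z.1 := by
  have e : ∀ i j, dx i (dx j fun w => g w.1) z = pd i (pd j g) z.1 := by
    intro i j
    have h1 : (dx j fun w : VV n => g w.1) =ᶠ[𝓝 z] fun w => pd j g w.1 := by
      filter_upwards [ho.mem_nhds hz] with w hw using
        fd_fst (df_of hO hg (hU hw).1) _ _
    have h2 : dx i (dx j fun w : VV n => g w.1) z = dx i (fun w : VV n => pd j g w.1) z := by
      unfold dx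
      unfold dx at h1
      rw [h1.fderiv_eq]
    rw [h2]
    exact fd_fst (df_of hO (sm_pd hO hg j) (hU hz).1) _ _
  unfold Lx Lv
  simp only [e]

theorem Ly_snd {g : V n → ℝ} (hU : U ⊆ O₁ ×ˢ O₂) (ho : IsOpen U) (hO : IsOpen O₂)
    (hg : ContDiffOn ℝ ∞ g O₂) (hz : z ∈ U) : Ly s (fun w => g w.2) z = Lv s g z.2 := by
  have e : ∀ i j, dy i (dy j fun w => g w.2) z = pd i (pd j g) z.2 := by
    intro i j
    have h1 : (dy j fun w : VV n => g w.2) =ᶠ[𝓝 z] fun w => pd j g w.2 := by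
      filter_upwards [ho.mem_nhds hz] with w hw using
        fd_snd (df_of hO hg (hU hw).2) _ _
    have h2 : dy i (dy j fun w : VV n => g w.2) z = dy i (fun w : VV n => pd j g w.2) z := by
      unfold dy
      unfold dy at h1
      rw [h1.fderiv_eq]
    rw [h2]
    exact fd_snd (df_of hO (sm_pd hO hg j) (hU hz).2) _ _
  unfold Ly Lv
  simp only [e]

/-- The conformal form of `Lx`. -/
theorem Lx_conf (f₁ : Fr r₁ s₁ O₁) (f₂ : Fr r₂ s₂ O₂) (ho : IsOpen U) (hU : U ⊆ O₁ ×ˢ O₂)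
    {f : VV n → ℝ} (hf : Sm U f) (hz : z ∈ U) :
    (slx r₁ s₁).Λ f z + vpt r₁ s₁ z.1 * f z =
      r₁ z.1 ^ (ga n + 2) * Lx s₁ (fun w => r₁ w.1 ^ (-ga n) * f w) z := by
  have h1 := f₁.rp _ (hU hz).1
  have o1 := okx (fr_one f₁).toFr0 (fr_one f₂).toFr0 ho hU
  have lo := fun g : VV n → ℝ => Lx_one f₁ (hU hz).1 g
  have sp : Sm U fun w : VV n => r₁ w.1 ^ (-ga n) := sm_fst hU (sm_rpow f₁.toFr0 (-ga n))
  have e1 := L_mul o1 sp hf hz
  rw [lo, lo, lo, Lx_fst hU ho f₁.op (sm_rpow f₁.toFr0 (-ga n)) hz,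
    Lv_rpow f₁.toFr0 (hU hz).1] at e1
  have e2 : (slx (fun _ => 1) s₁).Γ (fun w : VV n => r₁ w.1 ^ (-ga n)) f z =
      -ga n * r₁ z.1 ^ (-ga n - 1) * ∑ i, ∑ j, s₁ z.1 i j * pd i r₁ z.1 * dx j f z := by
    unfold Sl.Γ
    simp only [Finset.mul_sum]
    refine Finset.sum_congr rfl fun i _ => Finset.sum_congr rfl fun j _ => ?_
    rw [Dx_one, Dx_one]
    have : dx i (fun w : VV n => r₁ w.1 ^ (-ga n)) z = pd i (fun x => r₁ x ^ (-ga n)) z.1 :=
      fd_fst (df_of f₁.op (sm_rpow f₁.toFr0 (-ga n)) (hU hz).1) _ _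
    rw [this, dx_rpow f₁.toFr0 (hU hz).1]
    simp only [slx]
    ring
  have e3 : (slx r₁ s₁).Λ f z = r₁ z.1 ^ 2 * Lx s₁ f z -
      ((n : ℝ) - 2) * r₁ z.1 * ∑ i, ∑ j, s₁ z.1 i j * pd i r₁ z.1 * dx j f z := by
    have h3 : DifferentiableAt ℝ (fun z : VV n => r₁ z.1) z := (sm_fst hU f₁.rs).diff ho hz
    have h4 : ∀ i j, (slx r₁ s₁).D i ((slx r₁ s₁).D j f) z =
        r₁ z.1 * (pd i r₁ z.1 * dx j f z + r₁ z.1 * dx i (dx j f) z) := by
      intro i j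
      have a : (slx r₁ s₁).D i ((slx r₁ s₁).D j f) z = r₁ z.1 *
        fderiv ℝ (fun w : VV n => r₁ w.1 * dx j f w) z (Pi.single i 1, 0) := rfl
      have b : fderiv ℝ (fun z : VV n => r₁ z.1) z (Pi.single i 1, 0) = pd i r₁ z.1 :=
        fd_fst (df_of f₁.op f₁.rs (hU hz).1) _ _
      have c : DifferentiableAt ℝ (dx j f) z := (hf.fd ho _).diff ho hz
      rw [a, fderiv_fun_mul h3 c]
      simp only [_root_.add_apply, _root_.smul_apply, smul_eq_mul, b]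
      simp only [dx]
      ring
    rw [L_dv _ f fun j => dvx f₁ (hU hz).1 j]
    unfold Lx
    simp only [h4, Finset.mul_sum, ← Finset.sum_sub_distrib]
    refine Finset.sum_congr rfl fun i _ => Finset.sum_congr rfl fun j _ => ?_
    have b : (slx r₁ s₁).D j f z = r₁ z.1 * dx j f z := rfl
    rw [b]
    simp only [slx]
    ring
  rw [e1, e2, e3]
  have k1 : r₁ z.1 ^ (ga n + 2) * r₁ z.1 ^ (-ga n) = r₁ z.1 ^ 2 := by
    rw [← Real.rpow_add h1, show ga n + 2 + -ga n = ((2 : ℕ) : ℝ) by push_cast; ring,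
      Real.rpow_natCast]
  have k2 : r₁ z.1 ^ (ga n + 2) * r₁ z.1 ^ (-ga n - 1) = r₁ z.1 := by
    rw [← Real.rpow_add h1, show ga n + 2 + (-ga n - 1) = 1 by ring, Real.rpow_one]
  have k3 : r₁ z.1 ^ (ga n + 2) * r₁ z.1 ^ (-ga n - 2) = 1 := by
    rw [← Real.rpow_add h1, show ga n + 2 + (-ga n - 2) = 0 by ring, Real.rpow_zero]
  have k4 : (n : ℝ) - 2 = 2 * ga n := by unfold ga; ring
  rw [k4]
  unfold vpt
  linear_combination (-Lx s₁ f z) * k1 + (2 * ga n * (∑ i, ∑ j, s₁ z.1 i j * pd i r₁ z.1 *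
    dx j f z) + f z * ga n * Lv s₁ r₁ z.1) * k2 - (f z * (-ga n) * (-ga n - 1) *
    ∑ i, ∑ j, s₁ z.1 i j * pd i r₁ z.1 * pd j r₁ z.1) * k3

/-- The conformal form of `Ly`. -/
theorem Ly_conf (f₁ : Fr r₁ s₁ O₁) (f₂ : Fr r₂ s₂ O₂) (ho : IsOpen U) (hU : U ⊆ O₁ ×ˢ O₂)
    {f : VV n → ℝ} (hf : Sm U f) (hz : z ∈ U) :
    (sly r₂ s₂).Λ f z + vpt r₂ s₂ z.2 * f z =
      r₂ z.2 ^ (ga n + 2) * Ly s₂ (fun w => r₂ w.2 ^ (-ga n) * f w) z := by
  have h1 := f₂.rp _ (hU hz).2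
  have o1 := oky (fr_one f₁).toFr0 (fr_one f₂).toFr0 ho hU
  have lo := fun g : VV n → ℝ => Ly_one f₂ (hU hz).2 g
  have sp : Sm U fun w : VV n => r₂ w.2 ^ (-ga n) := sm_snd hU (sm_rpow f₂.toFr0 (-ga n))
  have e1 := L_mul o1 sp hf hz
  rw [lo, lo, lo, Ly_snd hU ho f₂.op (sm_rpow f₂.toFr0 (-ga n)) hz,
    Lv_rpow f₂.toFr0 (hU hz).2] at e1
  have e2 : (sly (fun _ => 1) s₂).Γ (fun w : VV n => r₂ w.2 ^ (-ga n)) f z =
      -ga n * r₂ z.2 ^ (-ga n - 1) * ∑ i, ∑ j, s₂ z.2 i j * pd i r₂ z.2 * dy j f z := by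
    unfold Sl.Γ
    simp only [Finset.mul_sum]
    refine Finset.sum_congr rfl fun i _ => Finset.sum_congr rfl fun j _ => ?_
    rw [Dy_one, Dy_one]
    have : dy i (fun w : VV n => r₂ w.2 ^ (-ga n)) z = pd i (fun x => r₂ x ^ (-ga n)) z.2 :=
      fd_snd (df_of f₂.op (sm_rpow f₂.toFr0 (-ga n)) (hU hz).2) _ _
    rw [this, dx_rpow f₂.toFr0 (hU hz).2]
    simp only [sly]
    ring
  have e3 : (sly r₂ s₂).Λ f z = r₂ z.2 ^ 2 * Ly s₂ f z -
      ((n : ℝ) - 2) * r₂ z.2 * ∑ i, ∑ j, s₂ z.2 i j * pd i r₂ z.2 * dy j f z := by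
    have h3 : DifferentiableAt ℝ (fun z : VV n => r₂ z.2) z := (sm_snd hU f₂.rs).diff ho hz
    have h4 : ∀ i j, (sly r₂ s₂).D i ((sly r₂ s₂).D j f) z =
        r₂ z.2 * (pd i r₂ z.2 * dy j f z + r₂ z.2 * dy i (dy j f) z) := by
      intro i j
      have a : (sly r₂ s₂).D i ((sly r₂ s₂).D j f) z = r₂ z.2 *
        fderiv ℝ (fun w : VV n => r₂ w.2 * dy j f w) z (0, Pi.single i 1) := rfl
      have b : fderiv ℝ (fun z : VV n => r₂ z.2) z (0, Pi.single i 1) = pd i r₂ z.2 :=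
        fd_snd (df_of f₂.op f₂.rs (hU hz).2) _ _
      have c : DifferentiableAt ℝ (dy j f) z := (hf.fd ho _).diff ho hz
      rw [a, fderiv_fun_mul h3 c]
      simp only [_root_.add_apply, _root_.smul_apply, smul_eq_mul, b]
      simp only [dy]
      ring
    rw [L_dv _ f fun j => dvy f₂ (hU hz).2 j]
    unfold Ly
    simp only [h4, Finset.mul_sum, ← Finset.sum_sub_distrib]
    refine Finset.sum_congr rfl fun i _ => Finset.sum_congr rfl fun j _ => ?_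
    have b : (sly r₂ s₂).D j f z = r₂ z.2 * dy j f z := rfl
    rw [b]
    simp only [sly]
    ring
  rw [e1, e2, e3]
  have k1 : r₂ z.2 ^ (ga n + 2) * r₂ z.2 ^ (-ga n) = r₂ z.2 ^ 2 := by
    rw [← Real.rpow_add h1, show ga n + 2 + -ga n = ((2 : ℕ) : ℝ) by push_cast; ring,
      Real.rpow_natCast]
  have k2 : r₂ z.2 ^ (ga n + 2) * r₂ z.2 ^ (-ga n - 1) = r₂ z.2 := by
    rw [← Real.rpow_add h1, show ga n + 2 + (-ga n - 1) = 1 by ring, Real.rpow_one]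
  have k3 : r₂ z.2 ^ (ga n + 2) * r₂ z.2 ^ (-ga n - 2) = 1 := by
    rw [← Real.rpow_add h1, show ga n + 2 + (-ga n - 2) = 0 by ring, Real.rpow_zero]
  have k4 : (n : ℝ) - 2 = 2 * ga n := by unfold ga; ring
  rw [k4]
  unfold vpt
  linear_combination (-Ly s₂ f z) * k1 + (2 * ga n * (∑ i, ∑ j, s₂ z.2 i j * pd i r₂ z.2 *
    dy j f z) + f z * ga n * Lv s₂ r₂ z.2) * k2 - (f z * (-ga n) * (-ga n - 1) *
    ∑ i, ∑ j, s₂ z.2 i j * pd i r₂ z.2 * pd j r₂ z.2) * k3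

end cal

end Vale.Agent.P088.R2.H961.GW
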