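import Vale.Agent.P088.R2.H961.W.Comm

/-!
# Weighted `L²` methods: the exact formula for `T`

`T(a, b) = ∫ θ (Q₁ a + Q₂ b)² + ∫ θ (P₂ a - P₁ b)²`
`= ∫ θ ((P₁ a)² + (P₂ b)² + (P₂ a)² + (P₁ b)²) + 8 ∫ θ (Hd₁(a) + 2 Md(a, b) + Hd₂(b))`
`+ 4 ∫ θ sk(a, b) + ∫ θ (zz₁ a² + zz₂ b² + zm a b)`.
-/

open MeasureTheory Set Filter
open scoped ContDiff Topology

noncomputable section

namespace Vale.Agent.P088.R2.H961.GW

variable {E ι κ : Type*} [NormedAddCommGroup E] [NormedSpace ℝ E] [Fintype ι] [Fintype κ]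

/-- The first order skew term. -/
def sk (σ : Sl E ι) (τ : Sl E κ) (W a b : E → ℝ) (z : E) : ℝ :=
  a z * (τ.Γ (σ.Λ W) b z - σ.Γ (τ.Λ W) b z) - b z * (τ.Γ (σ.Λ W) a z - σ.Γ (τ.Λ W) a z)

/-- The quadratic form. -/
def TT [MeasureSpace E] (σ : Sl E ι) (τ : Sl E κ) (U : Set E) (θ v₁ v₂ W a b : E → ℝ) : ℝ :=
  In U θ (fun z => (σ.Q v₁ W a z + τ.Q v₂ W b z) ^ 2) +
    In U θ (fun z => (τ.P v₂ W a z - σ.P v₁ W b z) ^ 2)

variable [MeasureSpace E] [FiniteDimensional ℝ E] [BorelSpace E]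
  [(volume : Measure E).IsAddHaarMeasure]

section integral

variable {σ : Sl E ι} {τ : Sl E κ} {U : Set E} {θ : E → ℝ} {v v₁ v₂ W f g h a b : E → ℝ}

/-- `∫ h Γ(g, f) = -∫ h f Λ g - ∫ f Γ(g, h)`. -/
theorem In_hG (ok : σ.Ok U θ) (hg : Sm U g) (hf : Sm U f) (hh : Te U h) :
    In U θ (fun z => h z * σ.Γ g f z) =
      -In U θ (fun z => σ.Λ g z * (h z * f z)) - In U θ (fun z => f z * σ.Γ g h z) := by
  have hU := ok.op
  have t1 : Te U fun z => h z * f z := hh.mul_right hU hf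
  have e := In_L ok hg t1
  have e2 : In U θ (σ.Γ g fun z => h z * f z) =
      In U θ (fun z => h z * σ.Γ g f z) + In U θ (fun z => f z * σ.Γ g h z) := by
    rw [← In_add hU ok.ts (hh.mul_right hU (ok.sG hg hf)) ((ok.tG hg hh).mul_left hU hf)]
    exact In_congr hU fun z hz => G_mul ok g hh.sm hf hz
  rw [e, e2]
  ring

/-- Integration by parts of the mixed second order term. -/
theorem In_M2 (ok : σ.Ok U θ) (ot : τ.Ok U θ) (c : Cm σ τ U) (hW : Sm U W) (ha : Te U a)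
    (hb : Sm U b) :
    In U θ (fun z => a z * M2 σ τ W b z) =
      -In U θ (M3 σ τ W a b) - In U θ (fun z => a z * τ.Γ (σ.Λ W) b z) := by
  have hU := ok.op
  have e1 : ∀ k l, In U θ (fun z => (a z * τ.s k l z) * σ.Γ (τ.D k W) (τ.D l b) z) =
      -In U θ (fun z => σ.Λ (τ.D k W) z * ((a z * τ.s k l z) * τ.D l b z)) -
        In U θ (fun z => τ.D l b z * σ.Γ (τ.D k W) (fun z => a z * τ.s k l z) z) := fun k l =>
    In_hG ok (ot.sD hW k) (ot.sD hb l) (ha.mul_right hU (ot.ss k l))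
  have e2 : ∀ k l, In U θ (fun z => τ.D l b z * σ.Γ (τ.D k W) (fun z => a z * τ.s k l z) z) =
      In U θ (fun z => τ.s k l z * σ.Γ (τ.D k W) a z * τ.D l b z) := fun k l => by
    refine In_congr hU fun z hz => ?_
    rw [G_mul ok _ ha.sm (ot.ss k l) hz, G_own _ (fun i => c.s1 z hz i k l)]
    ring
  have e3 : ∀ k l, In U θ (fun z => σ.Λ (τ.D k W) z * ((a z * τ.s k l z) * τ.D l b z)) =
      In U θ (fun z => a z * (τ.s k l z * τ.D k (σ.Λ W) z * τ.D l b z)) := fun k l => by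
    refine In_congr hU fun z hz => ?_
    rw [L_D ok ot c hW k hz]
    ring
  have t1 : ∀ k l, Te U fun z => (a z * τ.s k l z) * σ.Γ (τ.D k W) (τ.D l b) z := fun k l =>
    (ha.mul_right hU (ot.ss k l)).mul_right hU (ok.sG (ot.sD hW k) (ot.sD hb l))
  have t2 : ∀ k l, Te U fun z => τ.s k l z * σ.Γ (τ.D k W) a z * τ.D l b z := fun k l =>
    ((ok.tG (ot.sD hW k) ha).mul_left hU (ot.ss k l)).mul_right hU (ot.sD hb l)
  have t3 : ∀ k l, Te U fun z => a z * (τ.s k l z * τ.D k (σ.Λ W) z * τ.D l b z) := fun k l =>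
    ha.mul_right hU (((ot.ss k l).mul (ot.sD (ok.sL hW) k)).mul (ot.sD hb l))
  have f1 : In U θ (fun z => a z * M2 σ τ W b z) =
      ∑ k, ∑ l, In U θ (fun z => (a z * τ.s k l z) * σ.Γ (τ.D k W) (τ.D l b) z) := by
    rw [show (∑ k, ∑ l, In U θ (fun z => (a z * τ.s k l z) * σ.Γ (τ.D k W) (τ.D l b) z)) =
      ∑ k, In U θ (fun z => ∑ l, (a z * τ.s k l z) * σ.Γ (τ.D k W) (τ.D l b) z) from
      Finset.sum_congr rfl fun k _ => (In_sum hU ok.ts _ fun l _ => t1 k l).symm,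
      ← In_sum hU ok.ts _ fun k _ => Te.sum hU _ fun l _ => t1 k l]
    refine In_congr hU fun z _ => ?_
    unfold M2
    rw [Finset.mul_sum]
    refine Finset.sum_congr rfl fun k _ => ?_
    rw [Finset.mul_sum]
    exact Finset.sum_congr rfl fun l _ => by ring
  have f2 : In U θ (M3 σ τ W a b) =
      ∑ k, ∑ l, In U θ (fun z => τ.s k l z * σ.Γ (τ.D k W) a z * τ.D l b z) := by
    rw [show (∑ k, ∑ l, In U θ (fun z => τ.s k l z * σ.Γ (τ.D k W) a z * τ.D l b z)) =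
      ∑ k, In U θ (fun z => ∑ l, τ.s k l z * σ.Γ (τ.D k W) a z * τ.D l b z) from
      Finset.sum_congr rfl fun k _ => (In_sum hU ok.ts _ fun l _ => t2 k l).symm,
      ← In_sum hU ok.ts _ fun k _ => Te.sum hU _ fun l _ => t2 k l]
    rfl
  have f3 : In U θ (fun z => a z * τ.Γ (σ.Λ W) b z) =
      ∑ k, ∑ l, In U θ (fun z => a z * (τ.s k l z * τ.D k (σ.Λ W) z * τ.D l b z)) := by
    rw [show (∑ k, ∑ l, In U θ (fun z => a z * (τ.s k l z * τ.D k (σ.Λ W) z * τ.D l b z))) =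
      ∑ k, In U θ (fun z => ∑ l, a z * (τ.s k l z * τ.D k (σ.Λ W) z * τ.D l b z)) from
      Finset.sum_congr rfl fun k _ => (In_sum hU ok.ts _ fun l _ => t3 k l).symm,
      ← In_sum hU ok.ts _ fun k _ => Te.sum hU _ fun l _ => t3 k l]
    refine In_congr hU fun z _ => ?_
    unfold Sl.Γ
    rw [Finset.mul_sum]
    refine Finset.sum_congr rfl fun k _ => ?_
    rw [Finset.mul_sum]
  rw [f1, f2, f3]
  simp only [e1, e2, e3, Finset.sum_sub_distrib, Finset.sum_neg_distrib]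
  ring

/-- The mixed part of `T`. -/
theorem mixed (ok : σ.Ok U θ) (ot : τ.Ok U θ) (c : Cm σ τ U) (hv₁ : Sm U v₁) (hv₂ : Sm U v₂)
    (h₁ : ∀ z ∈ U, ∀ k, τ.D k v₁ z = 0) (h₂ : ∀ z ∈ U, ∀ i, σ.D i v₂ z = 0) (hW : Sm U W)
    (ha : Te U a) (hb : Te U b) :
    In U θ (fun z => σ.Q v₁ W a z * τ.Q v₂ W b z) - In U θ (fun z => τ.P v₂ W a z * σ.P v₁ W b z) =
      8 * In U θ (M3 σ τ W a b) +
        4 * In U θ (fun z => a z * (τ.Γ (σ.Λ W) b z - τ.Γ (σ.F W) b z + σ.Γ (τ.F W) b z -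
          σ.Γ (τ.Λ W) b z)) + In U θ (fun z => Zc σ τ W z * (a z * b z)) := by
  have hU := ok.op
  have sa := ha.sm
  have sb := hb.sm
  have a1 := adj ok hv₁ hW (ot.tQ hv₂ hW hb) ha
  have a2 := adj ot hv₂ hW ha (ok.tP hv₁ hW hb)
  have b1 : In U θ (fun z => σ.Q v₁ W a z * τ.Q v₂ W b z) =
      In U θ (fun z => a z * σ.P v₁ W (τ.Q v₂ W b) z) := by
    rw [show In U θ (fun z => σ.Q v₁ W a z * τ.Q v₂ W b z) =
      In U θ (fun z => τ.Q v₂ W b z * σ.Q v₁ W a z) from In_congr hU fun z _ => by ring, ← a1]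
    exact In_congr hU fun z _ => by ring
  rw [b1, a2, ← In_sub hU ok.ts (ha.mul_right hU (ok.sP hv₁ hW (ot.sQ hv₂ hW sb)))
    (ha.mul_right hU (ot.sQ hv₂ hW (ok.sP hv₁ hW sb)))]
  have t1 : Te U fun z => a z * M2 σ τ W b z := ha.mul_right hU (sM2 ok ot hW sb)
  have t2 : Te U fun z => a z * τ.Γ (σ.Λ W) b z := ha.mul_right hU (ot.sG (ok.sL hW) sb)
  have s3 : Sm U fun z => τ.Γ (σ.Λ W) b z - τ.Γ (σ.F W) b z + σ.Γ (τ.F W) b z -
          σ.Γ (τ.Λ W) b z :=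
    (((ot.sG (ok.sL hW) sb).sub (ot.sG (ok.sF hW) sb)).add (ok.sG (ot.sF hW) sb)).sub
      (ok.sG (ot.sL hW) sb)
  have t3 : Te U fun z => a z * (τ.Γ (σ.Λ W) b z - τ.Γ (σ.F W) b z + σ.Γ (τ.F W) b z -
          σ.Γ (τ.Λ W) b z) := ha.mul_right hU s3
  have t4 : Te U fun z => Zc σ τ W z * (a z * b z) :=
    (ha.mul_right hU sb).mul_left hU (sZc ok ot hW)
  have e : In U θ (fun z => a z * σ.P v₁ W (τ.Q v₂ W b) z - a z * τ.Q v₂ W (σ.P v₁ W b) z) =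
      In U θ (fun z => ((-8) * (a z * M2 σ τ W b z) + (-8) * (a z * τ.Γ (σ.Λ W) b z)) +
        (4 * (a z * (τ.Γ (σ.Λ W) b z - τ.Γ (σ.F W) b z + σ.Γ (τ.F W) b z -
          σ.Γ (τ.Λ W) b z)) + Zc σ τ W z * (a z * b z))) := by
    refine In_congr hU fun z hz => ?_
    have := comm ok ot c hv₁ hv₂ h₁ h₂ hW sb hz
    linear_combination a z * this
  rw [e, In_add hU ok.ts ((t1.cmul hU (-8)).add hU (t2.cmul hU (-8))) ((t3.cmul hU 4).add hU t4),
    In_add hU ok.ts (t1.cmul hU (-8)) (t2.cmul hU (-8)), In_add hU ok.ts (t3.cmul hU 4) t4,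
    In_cmul, In_cmul, In_cmul, In_M2 ok ot c hW ha sb]
  ring

/-- The mixed part of `T` with the dressed derivatives. -/
theorem mixed' (ok : σ.Ok U θ) (ot : τ.Ok U θ) (c : Cm σ τ U) (hv₁ : Sm U v₁) (hv₂ : Sm U v₂)
    (h₁ : ∀ z ∈ U, ∀ k, τ.D k v₁ z = 0) (h₂ : ∀ z ∈ U, ∀ i, σ.D i v₂ z = 0) (hW : Sm U W)
    (ha : Te U a) (hb : Te U b) :
    2 * (In U θ (fun z => σ.Q v₁ W a z * τ.Q v₂ W b z) -
      In U θ (fun z => τ.P v₂ W a z * σ.P v₁ W b z)) =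
      16 * In U θ (Md σ τ W a b) + 4 * In U θ (sk σ τ W a b) +
        In U θ (fun z => zm σ τ W z * (a z * b z)) := by
  have hU := ok.op
  have sa := ha.sm
  have sb := hb.sm
  have sF1 := ok.sF hW
  have sF2 := ot.sF hW
  have sL1 := ok.sL hW
  have sL2 := ot.sL hW
  have tab : Te U fun z => a z * b z := ha.mul_right hU sb
  rw [mixed ok ot c hv₁ hv₂ h₁ h₂ hW ha hb]
  -- test functions
  have tM : Te U (M3 σ τ W a b) := tM3' ok ot hW ha sb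
  have p1 : Te U fun z => a z * τ.Γ (σ.Λ W) b z := ha.mul_right hU (ot.sG sL1 sb)
  have p1' : Te U fun z => b z * τ.Γ (σ.Λ W) a z := hb.mul_right hU (ot.sG sL1 sa)
  have p2 : Te U fun z => a z * τ.Γ (σ.F W) b z := ha.mul_right hU (ot.sG sF1 sb)
  have p3 : Te U fun z => a z * σ.Γ (τ.F W) b z := ha.mul_right hU (ok.sG sF2 sb)
  have p3' : Te U fun z => b z * σ.Γ (τ.F W) a z := hb.mul_right hU (ok.sG sF2 sa)
  have p4 : Te U fun z => a z * σ.Γ (τ.Λ W) b z := ha.mul_right hU (ok.sG sL2 sb)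
  have p4' : Te U fun z => b z * σ.Γ (τ.Λ W) a z := hb.mul_right hU (ok.sG sL2 sa)
  have s5 : Sm U (M3 σ τ W W W) := sM3 ok ot hW hW hW
  have p5 : Te U fun z => a z * b z * M3 σ τ W W W z := tab.mul_right hU s5
  have p6 : Te U fun z => Zc σ τ W z * (a z * b z) := tab.mul_left hU (sZc ok ot hW)
  have p7 : Te U fun z => zm σ τ W z * (a z * b z) := tab.mul_left hU (szm ok ot hW)
  -- pointwise
  have e1 : ∀ f z, z ∈ U → τ.Γ (σ.F W) f z = 2 * M3 σ τ W W f z := by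
    intro f z hz
    rw [G_comm ot (σ.F W) f]
    have := G_G' ok ot c f hW hW hz
    have e : τ.Γ f (σ.F W) z = τ.Γ f (σ.Γ W W) z := rfl
    rw [e, this]; ring
  have e2 : ∀ f z, z ∈ U → σ.Γ (τ.F W) f z = 2 * M3 σ τ W f W z := by
    intro f z hz
    rw [G_comm ok (τ.F W) f]
    have := G_G ok ot c f hW hW hz
    have e : σ.Γ f (τ.F W) z = σ.Γ f (τ.Γ W W) z := rfl
    rw [e, this]; ring
  -- products
  have q1 : In U θ (fun z => a z * τ.Γ (σ.Λ W) b z) + In U θ (fun z => b z * τ.Γ (σ.Λ W) a z) =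
      -In U θ (fun z => τ.Λ (σ.Λ W) z * (a z * b z)) := by
    have := In_L ot sL1 tab
    rw [this, neg_neg, ← In_add hU ok.ts p1 p1']
    exact In_congr hU fun z hz => (G_mul ot _ sa sb hz).symm
  have q4 : In U θ (fun z => a z * σ.Γ (τ.Λ W) b z) + In U θ (fun z => b z * σ.Γ (τ.Λ W) a z) =
      -In U θ (fun z => σ.Λ (τ.Λ W) z * (a z * b z)) := by
    have := In_L ok sL2 tab
    rw [this, neg_neg, ← In_add hU ok.ts p4 p4']
    exact In_congr hU fun z hz => (G_mul ok _ sa sb hz).symm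
  have q3 : In U θ (fun z => a z * σ.Γ (τ.F W) b z) + In U θ (fun z => b z * σ.Γ (τ.F W) a z) =
      -In U θ (fun z => σ.Λ (τ.F W) z * (a z * b z)) := by
    have := In_L ok sF2 tab
    rw [this, neg_neg, ← In_add hU ok.ts p3 p3']
    exact In_congr hU fun z hz => (G_mul ok _ sa sb hz).symm
  have q5 : In U θ (fun z => τ.Λ (σ.Λ W) z * (a z * b z)) =
      In U θ (fun z => σ.Λ (τ.Λ W) z * (a z * b z)) :=
    In_congr hU fun z hz => by rw [L_L ok ot c hW hz]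
  -- the splitting of the terms
  have r1 : In U θ (fun z => a z * (τ.Γ (σ.Λ W) b z - τ.Γ (σ.F W) b z + σ.Γ (τ.F W) b z -
          σ.Γ (τ.Λ W) b z)) = In U θ (fun z => a z * τ.Γ (σ.Λ W) b z) -
      In U θ (fun z => a z * τ.Γ (σ.F W) b z) + In U θ (fun z => a z * σ.Γ (τ.F W) b z) -
      In U θ (fun z => a z * σ.Γ (τ.Λ W) b z) := by
    rw [← In_sub hU ok.ts p1 p2, ← In_add hU ok.ts (p1.sub hU p2) p3,
      ← In_sub hU ok.ts ((p1.sub hU p2).add hU p3) p4]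
    exact In_congr hU fun z _ => by ring
  have r2 : In U θ (sk σ τ W a b) = (In U θ (fun z => a z * τ.Γ (σ.Λ W) b z) -
      In U θ (fun z => a z * σ.Γ (τ.Λ W) b z)) - (In U θ (fun z => b z * τ.Γ (σ.Λ W) a z) -
      In U θ (fun z => b z * σ.Γ (τ.Λ W) a z)) := by
    rw [← In_sub hU ok.ts p1 p4, ← In_sub hU ok.ts p1' p4', ← In_sub hU ok.ts (p1.sub hU p4)
      (p1'.sub hU p4')]
    exact In_congr hU fun z _ => by unfold sk; ring
  have r3 : In U θ (Md σ τ W a b) = In U θ (M3 σ τ W a b) -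
      (1 / 2) * In U θ (fun z => a z * τ.Γ (σ.F W) b z) -
      (1 / 2) * In U θ (fun z => b z * σ.Γ (τ.F W) a z) +
      In U θ (fun z => a z * b z * M3 σ τ W W W z) := by
    rw [← In_cmul, ← In_cmul, ← In_sub hU ok.ts tM (p2.cmul hU _),
      ← In_sub hU ok.ts (tM.sub hU (p2.cmul hU _)) (p3'.cmul hU _),
      ← In_add hU ok.ts ((tM.sub hU (p2.cmul hU _)).sub hU (p3'.cmul hU _)) p5]
    refine In_congr hU fun z hz => ?_
    rw [e1 b z hz, e2 a z hz]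
    unfold Md
    ring
  have r4 : 2 * In U θ (fun z => Zc σ τ W z * (a z * b z)) =
      In U θ (fun z => zm σ τ W z * (a z * b z)) + 8 * In U θ (fun z => σ.Λ (τ.F W) z *
        (a z * b z)) + 16 * In U θ (fun z => a z * b z * M3 σ τ W W W z) := by
    have p8 : Te U fun z => σ.Λ (τ.F W) z * (a z * b z) := tab.mul_left hU (ok.sL sF2)
    rw [← In_cmul, ← In_cmul, ← In_cmul, ← In_add hU ok.ts p7 (p8.cmul hU 8),
      ← In_add hU ok.ts (p7.add hU (p8.cmul hU 8)) (p5.cmul hU 16)]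
    refine In_congr hU fun z hz => ?_
    have k1 : τ.Γ W (σ.F W) z = 2 * M3 σ τ W W W z := by rw [G_comm ot W, e1 W z hz]
    have k2 : σ.Γ W (τ.F W) z = 2 * M3 σ τ W W W z := by rw [G_comm ok W, e2 W z hz]
    have k3 : σ.Λ (τ.F W) z = 2 * τ.Γ W (σ.Λ W) z + 2 * M2 σ τ W W z := by
      have : σ.Λ (τ.F W) z = σ.Λ (τ.Γ W W) z := rfl
      rw [this, L_G ok ot c hW hW hz, G_comm ot (σ.Λ W) W]
      ring
    have k4 : τ.Λ (σ.F W) z = 2 * σ.Γ W (τ.Λ W) z + 2 * M2 σ τ W W z := by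
      have : τ.Λ (σ.F W) z = τ.Λ (σ.Γ W W) z := rfl
      rw [this, L_G ot ok c.symm hW hW hz, G_comm ok (τ.Λ W) W, M2_swap ok ot c hW hW hz]
      ring
    unfold Zc zm
    rw [k1, k2, k3, k4]
    ring
  rw [r1, r2, r3]
  linear_combination (4 : ℝ) * q1 - (4 : ℝ) * q4 + 8 * q3 + r4 + (-4 : ℝ) * q5

/-- **The exact formula for `T`.** -/
theorem tid (ok : σ.Ok U θ) (ot : τ.Ok U θ) (c : Cm σ τ U) (hv₁ : Sm U v₁) (hv₂ : Sm U v₂)
    (h₁ : ∀ z ∈ U, ∀ k, τ.D k v₁ z = 0) (h₂ : ∀ z ∈ U, ∀ i, σ.D i v₂ z = 0) (hW : Sm U W)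
    (ha : Te U a) (hb : Te U b) :
    TT σ τ U θ v₁ v₂ W a b =
      (In U θ (fun z => σ.P v₁ W a z ^ 2) + In U θ (fun z => τ.P v₂ W b z ^ 2) +
        In U θ (fun z => τ.P v₂ W a z ^ 2) + In U θ (fun z => σ.P v₁ W b z ^ 2)) +
      8 * (In U θ (σ.Hd W a) + 2 * In U θ (Md σ τ W a b) + In U θ (τ.Hd W b)) +
      4 * In U θ (sk σ τ W a b) +
      (In U θ (fun z => σ.zz v₁ W z * a z ^ 2) + In U θ (fun z => τ.zz v₂ W z * b z ^ 2) +
        In U θ (fun z => zm σ τ W z * (a z * b z))) := by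
  have hU := ok.op
  have tQa := ok.tQ hv₁ hW ha
  have tQb := ot.tQ hv₂ hW hb
  have tPa := ot.tP hv₂ hW ha
  have tPb := ok.tP hv₁ hW hb
  have e1 : In U θ (fun z => (σ.Q v₁ W a z + τ.Q v₂ W b z) ^ 2) =
      In U θ (fun z => σ.Q v₁ W a z ^ 2) + In U θ (fun z => τ.Q v₂ W b z ^ 2) +
        2 * In U θ (fun z => σ.Q v₁ W a z * τ.Q v₂ W b z) := by
    rw [← In_cmul, ← In_add hU ok.ts (tQa.sq hU) (tQb.sq hU), ← In_add hU ok.ts
      ((tQa.sq hU).add hU (tQb.sq hU)) ((tQa.mul_right hU tQb.sm).cmul hU 2)]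
    exact In_congr hU fun z _ => by ring
  have e2 : In U θ (fun z => (τ.P v₂ W a z - σ.P v₁ W b z) ^ 2) =
      In U θ (fun z => τ.P v₂ W a z ^ 2) + In U θ (fun z => σ.P v₁ W b z ^ 2) -
        2 * In U θ (fun z => τ.P v₂ W a z * σ.P v₁ W b z) := by
    rw [← In_cmul, ← In_add hU ok.ts (tPa.sq hU) (tPb.sq hU), ← In_sub hU ok.ts
      ((tPa.sq hU).add hU (tPb.sq hU)) ((tPa.mul_right hU tPb.sm).cmul hU 2)]
    exact In_congr hU fun z _ => by ring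
  have e3 := one_id' ok hv₁ hW ha
  have e4 := one_id' ot hv₂ hW hb
  have e5 := mixed' ok ot c hv₁ hv₂ h₁ h₂ hW ha hb
  unfold TT
  rw [e1, e2, e3, e4]
  linear_combination e5

end integral

end Vale.Agent.P088.R2.H961.GW
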