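import Vale.Agent.P088.R2.H961.W.Tid

/-!
# Weighted `L²` methods: the Hessian form in the frame

`Hd(a) = ∑ Hc_il X_i X_l`, `X_i = a D_i W - D_i a`.
-/

open MeasureTheory Set Filter
open scoped ContDiff Topology

noncomputable section

namespace Vale.Agent.P088.R2.H961.GW

variable {E ι κ : Type*} [NormedAddCommGroup E] [NormedSpace ℝ E]

/-- The derivatives of the scale. -/
def Sl.η (σ : Sl E ι) (i : ι) (z : E) : ℝ := fderiv ℝ σ.ρ z (σ.e i)

/-- The commutators of the derivations. -/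
theorem D_D {σ : Sl E ι} {U : Set E} {f : E → ℝ} {z : E} (hU : IsOpen U) (hρ : Sm U σ.ρ)
    (hf : Sm U f) (i j : ι) (hz : z ∈ U) :
    σ.D i (σ.D j f) z - σ.D j (σ.D i f) z = σ.η i z * σ.D j f z - σ.η j z * σ.D i f z := by
  have hs : IsSymmSndFDerivAt ℝ f z := (hf.at hU hz).isSymmSndFDerivAt
    (by rw [minSmoothness_of_isRCLikeNormedField]; exact WithTop.coe_le_coe.2 le_top)
  have h2 : ∀ v, DifferentiableAt ℝ (fun w => fderiv ℝ f w v) z := fun v => (hf.fd hU v).diff hU hz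
  have h3 : DifferentiableAt ℝ (fderiv ℝ f) z := by
    have h : ContDiffOn ℝ ∞ (fderiv ℝ f) U := hf.fderiv_of_isOpen hU (by norm_num)
    exact ((h z hz).contDiffAt (hU.mem_nhds hz)).differentiableAt (by simp)
  have e1 : ∀ u v : E, fderiv ℝ (fun w => fderiv ℝ f w v) z u = fderiv ℝ (fderiv ℝ f) z u v := by
    intro u v
    have := fderiv_clm_apply h3 (differentiableAt_const v)
    rw [this]
    simp
  have e2 : ∀ i j : ι, σ.D i (σ.D j f) z = σ.ρ z * (σ.η i z * fderiv ℝ f z (σ.e j) +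
      σ.ρ z * fderiv ℝ (fderiv ℝ f) z (σ.e i) (σ.e j)) := by
    intro i j
    have e0 : σ.D i (σ.D j f) z = σ.ρ z * fderiv ℝ (fun w => σ.ρ w * fderiv ℝ f w (σ.e j)) z
      (σ.e i) := rfl
    rw [e0, fderiv_fun_mul (hρ.diff hU hz) (h2 _)]
    simp only [_root_.add_apply, _root_.smul_apply, smul_eq_mul, e1, Sl.η]
    ring
  rw [e2, e2, hs (σ.e i) (σ.e j)]
  simp only [Sl.D]
  ring

variable [Fintype ι] [Fintype κ]

/-- The Hessian form on `(D f, D g)`. -/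
def Sl.Hs (σ : Sl E ι) (W f g : E → ℝ) (z : E) : ℝ :=
  1 / 2 * (σ.Γ f (σ.Γ W g) z + σ.Γ g (σ.Γ W f) z - σ.Γ W (σ.Γ f g) z)

/-- The Hessian of `W` as a form on the derivatives. -/
def Sl.Hc (σ : Sl E ι) (W : E → ℝ) (i l : ι) (z : E) : ℝ :=
  1 / 2 * (∑ j, ∑ k, (σ.s i j z * σ.s k l z * (σ.D j (σ.D k W) z + σ.D k (σ.D j W) z) +
    (σ.s i j z * (σ.D j (σ.s k l) z + σ.η j z * σ.s k l z) +
      σ.s l j z * (σ.D j (σ.s k i) z + σ.η j z * σ.s k i z)) * σ.D k W z -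
    σ.s j k z * σ.D j W z * σ.D k (σ.s i l) z - 2 * (σ.s j k z * σ.D j W z * σ.η k z) *
      σ.s i l z))

section pw

variable {σ : Sl E ι} {τ : Sl E κ} {U : Set E} {θ : E → ℝ} {v W f g h a b : E → ℝ} {z : E}

theorem sum_rot (F : ι → ι → ι → ι → ℝ) :
    ∑ i, ∑ j, ∑ k, ∑ l, F i j k l = ∑ i, ∑ l, ∑ j, ∑ k, F i j k l := by
  refine Finset.sum_congr rfl fun i _ => ?_
  rw [Finset.sum_comm' (s := Finset.univ) (t := fun _ => Finset.univ) (t' := Finset.univ)
    (s' := fun _ => Finset.univ) (by simp)]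
  rw [Finset.sum_congr rfl fun k _ => Finset.sum_comm]
  rw [Finset.sum_comm]
  exact Finset.sum_congr rfl fun l _ => Finset.sum_comm

/-- The derivative of `Γ(g, h)`. -/
theorem D_G' (ok : σ.Ok U θ) (hg : Sm U g) (hh : Sm U h) (j : ι) (hz : z ∈ U) :
    σ.D j (σ.Γ g h) z = ∑ k, ∑ l, (σ.D j (σ.s k l) z * σ.D k g z * σ.D l h z +
      σ.s k l z * σ.D j (σ.D k g) z * σ.D l h z + σ.s k l z * σ.D k g z * σ.D j (σ.D l h) z) := by
  have hU := ok.op
  have s1 : ∀ k l, Sm U fun z => σ.s k l z * σ.D k g z * σ.D l h z := fun k l =>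
    ((ok.ss k l).mul (ok.sD hg k)).mul (ok.sD hh l)
  have e : σ.D j (σ.Γ g h) z = σ.D j (fun z => ∑ k, ∑ l, σ.s k l z * σ.D k g z * σ.D l h z) z := rfl
  rw [e, D_sum σ hU _ (fun k _ => Sm.sum _ fun l _ => s1 k l) j hz]
  refine Finset.sum_congr rfl fun k _ => ?_
  rw [D_sum σ hU _ (fun l _ => s1 k l) j hz]
  refine Finset.sum_congr rfl fun l _ => ?_
  rw [D_mul σ hU ((ok.ss k l).mul (ok.sD hg k)) (ok.sD hh l) j hz,
    D_mul σ hU (ok.ss k l) (ok.sD hg k) j hz]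
  ring

/-- The Hessian form. -/
theorem Hs_eq (ok : σ.Ok U θ) (hW : Sm U W) (hf : Sm U f) (hg : Sm U g) (hz : z ∈ U) :
    σ.Hs W f g z = ∑ i, ∑ l, σ.Hc W i l z * σ.D i f z * σ.D l g z := by
  have hU := ok.op
  have A : σ.Γ f (σ.Γ W g) z = ∑ i, ∑ l, ∑ j, ∑ k, σ.s i j z * σ.D i f z *
      (σ.D j (σ.s k l) z * σ.D k W z * σ.D l g z +
      σ.s k l z * σ.D j (σ.D k W) z * σ.D l g z + σ.s k l z * σ.D k W z * σ.D j (σ.D l g) z) := by
    rw [← sum_rot]
    unfold Sl.Γ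
    refine Finset.sum_congr rfl fun i _ => Finset.sum_congr rfl fun j _ => ?_
    have := D_G' ok hW hg j hz
    unfold Sl.Γ at this
    rw [this, Finset.mul_sum]
    exact Finset.sum_congr rfl fun k _ => by rw [Finset.mul_sum]
  have B : σ.Γ g (σ.Γ W f) z = ∑ i, ∑ l, ∑ j, ∑ k, σ.s l j z * σ.D l g z *
      (σ.D j (σ.s k i) z * σ.D k W z * σ.D i f z +
      σ.s k i z * σ.D j (σ.D k W) z * σ.D i f z + σ.s k i z * σ.D k W z * σ.D j (σ.D i f) z) := by
    have e : σ.Γ g (σ.Γ W f) z = ∑ l, ∑ j, ∑ k, ∑ i, σ.s l j z * σ.D l g z *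
      (σ.D j (σ.s k i) z * σ.D k W z * σ.D i f z +
      σ.s k i z * σ.D j (σ.D k W) z * σ.D i f z + σ.s k i z * σ.D k W z * σ.D j (σ.D i f) z) := by
      unfold Sl.Γ
      refine Finset.sum_congr rfl fun l _ => Finset.sum_congr rfl fun j _ => ?_
      have := D_G' ok hW hf j hz
      unfold Sl.Γ at this
      rw [this, Finset.mul_sum]
      exact Finset.sum_congr rfl fun k _ => by rw [Finset.mul_sum]
    rw [e, sum_rot, Finset.sum_comm]
  have C : σ.Γ W (σ.Γ f g) z = ∑ i, ∑ l, ∑ j, ∑ k, σ.s j k z * σ.D j W z *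
      (σ.D k (σ.s i l) z * σ.D i f z * σ.D l g z +
      σ.s i l z * σ.D k (σ.D i f) z * σ.D l g z + σ.s i l z * σ.D i f z * σ.D k (σ.D l g) z) := by
    have e : σ.Γ W (σ.Γ f g) z = ∑ j, ∑ k, ∑ i, ∑ l, σ.s j k z * σ.D j W z *
      (σ.D k (σ.s i l) z * σ.D i f z * σ.D l g z +
      σ.s i l z * σ.D k (σ.D i f) z * σ.D l g z + σ.s i l z * σ.D i f z * σ.D k (σ.D l g) z) := by
      unfold Sl.Γ
      refine Finset.sum_congr rfl fun j _ => Finset.sum_congr rfl fun k _ => ?_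
      have := D_G' ok hf hg k hz
      unfold Sl.Γ at this
      rw [this, Finset.mul_sum]
      exact Finset.sum_congr rfl fun i _ => by rw [Finset.mul_sum]
    rw [e]
    exact (sum4 _).symm
  -- the third order terms
  have K1 : ∑ i, ∑ l, ∑ j, ∑ k, σ.s i j z * σ.D i f z * (σ.s k l z * σ.D k W z *
        σ.D j (σ.D l g) z) -
      ∑ i, ∑ l, ∑ j, ∑ k, σ.s j k z * σ.D j W z * (σ.s i l z * σ.D i f z *
        σ.D k (σ.D l g) z) =
      ∑ i, ∑ l, ∑ j, ∑ k, (σ.s i j z * σ.η j z * σ.s k l z * σ.D k W z -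
        σ.s i l z * (σ.s j k z * σ.D j W z * σ.η k z)) * σ.D i f z * σ.D l g z := by
    have e1 : ∑ i, ∑ l, ∑ j, ∑ k, σ.s j k z * σ.D j W z * (σ.s i l z * σ.D i f z *
        σ.D k (σ.D l g) z) = ∑ i, ∑ l, ∑ j, ∑ k, σ.s i j z * σ.D i f z *
          (σ.s k l z * σ.D k W z * σ.D l (σ.D j g) z) := by
      refine Finset.sum_congr rfl fun i _ => ?_
      rw [Finset.sum_comm (f := fun l j => ∑ k, σ.s i j z * σ.D i f z *
          (σ.s k l z * σ.D k W z * σ.D l (σ.D j g) z))]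
      refine Finset.sum_congr rfl fun l _ => ?_
      rw [Finset.sum_comm (f := fun j k => σ.s j k z * σ.D j W z * (σ.s i l z * σ.D i f z *
        σ.D k (σ.D l g) z))]
      refine Finset.sum_congr rfl fun k _ => Finset.sum_congr rfl fun j _ => ?_
      ring
    have e2 : ∑ i, ∑ l, ∑ j, ∑ k, σ.s i l z * (σ.s j k z * σ.D j W z * σ.η k z) *
        σ.D i f z * σ.D l g z = ∑ i, ∑ l, ∑ j, ∑ k, σ.s i j z * σ.D i f z *
          (σ.s k l z * σ.D k W z * (σ.η l z * σ.D j g z)) := by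
      refine Finset.sum_congr rfl fun i _ => ?_
      rw [Finset.sum_comm (f := fun l j => ∑ k, σ.s i j z * σ.D i f z *
          (σ.s k l z * σ.D k W z * (σ.η l z * σ.D j g z)))]
      refine Finset.sum_congr rfl fun l _ => ?_
      rw [Finset.sum_comm (f := fun j k => σ.s i l z * (σ.s j k z * σ.D j W z * σ.η k z) *
        σ.D i f z * σ.D l g z)]
      refine Finset.sum_congr rfl fun k _ => Finset.sum_congr rfl fun j _ => ?_
      ring
    rw [e1]
    have e3 : ∑ i, ∑ l, ∑ j, ∑ k, (σ.s i j z * σ.η j z * σ.s k l z * σ.D k W z -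
        σ.s i l z * (σ.s j k z * σ.D j W z * σ.η k z)) * σ.D i f z * σ.D l g z =
        ∑ i, ∑ l, ∑ j, ∑ k, σ.s i j z * σ.η j z * σ.s k l z * σ.D k W z * σ.D i f z * σ.D l g z -
        ∑ i, ∑ l, ∑ j, ∑ k, σ.s i l z * (σ.s j k z * σ.D j W z * σ.η k z) *
        σ.D i f z * σ.D l g z := by
      simp only [← Finset.sum_sub_distrib]
      refine Finset.sum_congr rfl fun i _ => Finset.sum_congr rfl fun l _ =>
        Finset.sum_congr rfl fun j _ => Finset.sum_congr rfl fun k _ => ?_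
      ring
    rw [e3, e2]
    simp only [← Finset.sum_sub_distrib]
    refine Finset.sum_congr rfl fun i _ => Finset.sum_congr rfl fun l _ =>
      Finset.sum_congr rfl fun j _ => Finset.sum_congr rfl fun k _ => ?_
    have := D_D hU ok.rs hg j l hz
    linear_combination (σ.s i j z * σ.D i f z * (σ.s k l z * σ.D k W z)) * this
  have K2 : ∑ i, ∑ l, ∑ j, ∑ k, σ.s l j z * σ.D l g z * (σ.s k i z * σ.D k W z *
        σ.D j (σ.D i f) z) -
      ∑ i, ∑ l, ∑ j, ∑ k, σ.s j k z * σ.D j W z * (σ.s i l z *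
        σ.D k (σ.D i f) z * σ.D l g z) =
      ∑ i, ∑ l, ∑ j, ∑ k, (σ.s l j z * σ.η j z * σ.s k i z * σ.D k W z -
        σ.s i l z * (σ.s j k z * σ.D j W z * σ.η k z)) * σ.D i f z * σ.D l g z := by
    have e1 : ∑ i, ∑ l, ∑ j, ∑ k, σ.s j k z * σ.D j W z * (σ.s i l z *
        σ.D k (σ.D i f) z * σ.D l g z) = ∑ i, ∑ l, ∑ j, ∑ k, σ.s l j z * σ.D l g z *
          (σ.s k i z * σ.D k W z * σ.D i (σ.D j f) z) := by
      rw [Finset.sum_comm, Finset.sum_comm (f := fun i l => ∑ j, ∑ k, σ.s l j z * σ.D l g z *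
          (σ.s k i z * σ.D k W z * σ.D i (σ.D j f) z))]
      refine Finset.sum_congr rfl fun l _ => ?_
      rw [Finset.sum_comm (f := fun i j => ∑ k, σ.s l j z * σ.D l g z *
          (σ.s k i z * σ.D k W z * σ.D i (σ.D j f) z))]
      refine Finset.sum_congr rfl fun i _ => ?_
      rw [Finset.sum_comm]
      refine Finset.sum_congr rfl fun k _ => Finset.sum_congr rfl fun j _ => ?_
      rw [ok.sy i l]
      ring
    have e2 : ∑ i, ∑ l, ∑ j, ∑ k, σ.s i l z * (σ.s j k z * σ.D j W z * σ.η k z) *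
        σ.D i f z * σ.D l g z = ∑ i, ∑ l, ∑ j, ∑ k, σ.s l j z * σ.D l g z *
          (σ.s k i z * σ.D k W z * (σ.η i z * σ.D j f z)) := by
      rw [Finset.sum_comm, Finset.sum_comm (f := fun i l => ∑ j, ∑ k, σ.s l j z * σ.D l g z *
          (σ.s k i z * σ.D k W z * (σ.η i z * σ.D j f z)))]
      refine Finset.sum_congr rfl fun l _ => ?_
      rw [Finset.sum_comm (f := fun i j => ∑ k, σ.s l j z * σ.D l g z *
          (σ.s k i z * σ.D k W z * (σ.η i z * σ.D j f z)))]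
      refine Finset.sum_congr rfl fun i _ => ?_
      rw [Finset.sum_comm]
      refine Finset.sum_congr rfl fun k _ => Finset.sum_congr rfl fun j _ => ?_
      rw [ok.sy i l]
      ring
    rw [e1]
    have e3 : ∑ i, ∑ l, ∑ j, ∑ k, (σ.s l j z * σ.η j z * σ.s k i z * σ.D k W z -
        σ.s i l z * (σ.s j k z * σ.D j W z * σ.η k z)) * σ.D i f z * σ.D l g z =
        ∑ i, ∑ l, ∑ j, ∑ k, σ.s l j z * σ.η j z * σ.s k i z * σ.D k W z * σ.D i f z * σ.D l g z -
        ∑ i, ∑ l, ∑ j, ∑ k, σ.s i l z * (σ.s j k z * σ.D j W z * σ.η k z) *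
        σ.D i f z * σ.D l g z := by
      simp only [← Finset.sum_sub_distrib]
      refine Finset.sum_congr rfl fun i _ => Finset.sum_congr rfl fun l _ =>
        Finset.sum_congr rfl fun j _ => Finset.sum_congr rfl fun k _ => ?_
      ring
    rw [e3, e2]
    simp only [← Finset.sum_sub_distrib]
    refine Finset.sum_congr rfl fun i _ => Finset.sum_congr rfl fun l _ =>
      Finset.sum_congr rfl fun j _ => Finset.sum_congr rfl fun k _ => ?_
    have := D_D hU ok.rs hf j i hz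
    linear_combination (σ.s l j z * σ.D l g z * (σ.s k i z * σ.D k W z)) * this
  -- the second derivatives of `W`
  have K3 : ∑ i, ∑ l, ∑ j, ∑ k, σ.s l j z * σ.s k i z * σ.D j (σ.D k W) z * σ.D i f z *
        σ.D l g z =
      ∑ i, ∑ l, ∑ j, ∑ k, σ.s i j z * σ.s k l z * σ.D k (σ.D j W) z * σ.D i f z * σ.D l g z := by
    refine Finset.sum_congr rfl fun i _ => Finset.sum_congr rfl fun l _ => ?_
    rw [Finset.sum_comm]
    refine Finset.sum_congr rfl fun j _ => Finset.sum_congr rfl fun k _ => ?_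
    rw [ok.sy l k, ok.sy j i]
    ring
  have D1 : σ.Γ f (σ.Γ W g) z + σ.Γ g (σ.Γ W f) z - σ.Γ W (σ.Γ f g) z =
      ∑ i, ∑ l, ∑ j, ∑ k, (σ.s i j z * σ.D j (σ.s k l) z * σ.D k W z +
        σ.s l j z * σ.D j (σ.s k i) z * σ.D k W z - σ.s j k z * σ.D j W z * σ.D k (σ.s i l) z +
        σ.s i j z * σ.s k l z * σ.D j (σ.D k W) z) * σ.D i f z * σ.D l g z +
      ∑ i, ∑ l, ∑ j, ∑ k, σ.s l j z * σ.s k i z * σ.D j (σ.D k W) z * σ.D i f z * σ.D l g z +
      (∑ i, ∑ l, ∑ j, ∑ k, σ.s i j z * σ.D i f z * (σ.s k l z * σ.D k W z *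
        σ.D j (σ.D l g) z) -
      ∑ i, ∑ l, ∑ j, ∑ k, σ.s j k z * σ.D j W z * (σ.s i l z * σ.D i f z *
        σ.D k (σ.D l g) z)) +
      (∑ i, ∑ l, ∑ j, ∑ k, σ.s l j z * σ.D l g z * (σ.s k i z * σ.D k W z *
        σ.D j (σ.D i f) z) -
      ∑ i, ∑ l, ∑ j, ∑ k, σ.s j k z * σ.D j W z * (σ.s i l z *
        σ.D k (σ.D i f) z * σ.D l g z)) := by
    rw [A, B, C]
    simp only [← Finset.sum_sub_distrib, ← Finset.sum_add_distrib]
    refine Finset.sum_congr rfl fun i _ => Finset.sum_congr rfl fun l _ =>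
      Finset.sum_congr rfl fun j _ => Finset.sum_congr rfl fun k _ => ?_
    ring
  unfold Sl.Hs
  rw [D1, K1, K2, K3]
  unfold Sl.Hc
  simp only [Finset.mul_sum, Finset.sum_mul, ← Finset.sum_add_distrib]
  refine Finset.sum_congr rfl fun i _ => Finset.sum_congr rfl fun l _ =>
    Finset.sum_congr rfl fun j _ => Finset.sum_congr rfl fun k _ => ?_
  ring

theorem Hs_W (ok : σ.Ok U θ) (f : E → ℝ) (z : E) : σ.Hs W f W z = 1 / 2 * σ.Γ f (σ.F W) z := by
  unfold Sl.Hs Sl.F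
  have e : σ.Γ f W = σ.Γ W f := funext fun z => G_comm ok f W z
  rw [e]
  ring

theorem Hc_symm (ok : σ.Ok U θ) (i l : ι) : σ.Hc W i l z = σ.Hc W l i z := by
  have e : ∀ i l : ι, σ.s i l = σ.s l i := fun i l => funext fun z => ok.sy i l z
  have e1 : ∀ i l, (∑ j, ∑ k, σ.s i j z * σ.s k l z * (σ.D j (σ.D k W) z + σ.D k (σ.D j W) z)) =
      ∑ j, ∑ k, σ.s l j z * σ.s k i z * (σ.D j (σ.D k W) z + σ.D k (σ.D j W) z) := by
    intro i l
    rw [Finset.sum_comm]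
    refine Finset.sum_congr rfl fun j _ => Finset.sum_congr rfl fun k _ => ?_
    rw [e j l, e i k]; ring
  unfold Sl.Hc
  congr 1
  have e2 : ∀ i l, (∑ j, ∑ k, (σ.s i j z * σ.s k l z * (σ.D j (σ.D k W) z + σ.D k (σ.D j W) z) +
    (σ.s i j z * (σ.D j (σ.s k l) z + σ.η j z * σ.s k l z) +
      σ.s l j z * (σ.D j (σ.s k i) z + σ.η j z * σ.s k i z)) * σ.D k W z -
    σ.s j k z * σ.D j W z * σ.D k (σ.s i l) z - 2 * (σ.s j k z * σ.D j W z * σ.η k z) *
      σ.s i l z)) = (∑ j, ∑ k, σ.s i j z * σ.s k l z * (σ.D j (σ.D k W) z + σ.D k (σ.D j W) z)) +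
      ∑ j, ∑ k, ((σ.s i j z * (σ.D j (σ.s k l) z + σ.η j z * σ.s k l z) +
      σ.s l j z * (σ.D j (σ.s k i) z + σ.η j z * σ.s k i z)) * σ.D k W z -
    σ.s j k z * σ.D j W z * σ.D k (σ.s i l) z - 2 * (σ.s j k z * σ.D j W z * σ.η k z) *
      σ.s i l z) := by
    intro i l
    simp only [← Finset.sum_add_distrib]
    refine Finset.sum_congr rfl fun j _ => Finset.sum_congr rfl fun k _ => ?_
    ring
  rw [e2, e2, e1 i l]
  congr 1
  refine Finset.sum_congr rfl fun j _ => Finset.sum_congr rfl fun k _ => ?_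
  rw [e i l]
  ring

/-- **The Hessian form on `(X a, X a)` in the frame.** -/
theorem Hd_eq (ok : σ.Ok U θ) (hW : Sm U W) (ha : Sm U a) (hz : z ∈ U) :
    σ.Hd W a z = ∑ i, ∑ l, σ.Hc W i l z * (a z * σ.D i W z - σ.D i a z) *
      (a z * σ.D l W z - σ.D l a z) := by
  have e1 := Hs_eq ok hW ha ha hz
  have e2 := Hs_eq ok hW ha hW hz
  have e3 := Hs_eq ok hW hW hW hz
  have e4 := Hs_eq ok hW hW ha hz
  have f2 := Hs_W (W := W) ok a z
  have f3 := Hs_W (W := W) ok W z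
  have f1 : σ.Hs W a a z = 1 / 2 * σ.Hf W a z := by
    unfold Sl.Hs Sl.Hf; ring
  have f4 : σ.Hs W W a z = σ.Hs W a W z := by
    rw [e4, e2, Finset.sum_comm]
    refine Finset.sum_congr rfl fun i _ => Finset.sum_congr rfl fun l _ => ?_
    rw [Hc_symm ok l i]; ring
  have e5 : ∑ i, ∑ l, σ.Hc W i l z * (a z * σ.D i W z - σ.D i a z) *
      (a z * σ.D l W z - σ.D l a z) = σ.Hs W a a z - a z * σ.Hs W a W z - a z * σ.Hs W W a z +
        a z ^ 2 * σ.Hs W W W z := by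
    rw [e1, e2, e3, e4]
    simp only [Finset.mul_sum, ← Finset.sum_sub_distrib, ← Finset.sum_add_distrib]
    refine Finset.sum_congr rfl fun i _ => Finset.sum_congr rfl fun l _ => ?_
    ring
  rw [e5, f4, f1, f2, f3]
  unfold Sl.Hd
  ring

/-- **The mixed Hessian form on `(X a, Y b)` in the frames.** -/
theorem Md_eq (σ : Sl E ι) (τ : Sl E κ) (W a b : E → ℝ) (z : E) :
    Md σ τ W a b z = ∑ k, ∑ l, τ.s k l z * (∑ i, ∑ j, σ.s i j z * σ.D i (τ.D k W) z *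
      (a z * σ.D j W z - σ.D j a z)) * (b z * τ.D l W z - τ.D l b z) := by
  unfold Md M3 Sl.Γ
  simp only [Finset.mul_sum, ← Finset.sum_sub_distrib, ← Finset.sum_add_distrib,
    Finset.sum_mul]
  refine Finset.sum_congr rfl fun k _ => Finset.sum_congr rfl fun l _ =>
    Finset.sum_congr rfl fun i _ => Finset.sum_congr rfl fun j _ => ?_
  ring

end pw

end Vale.Agent.P088.R2.H961.GW
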