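import Vale.Agent.P088.R2.H961.W.Op

/-!
# Weighted `L²` methods: two commuting slots

The exact formula for
`T(a, b) = ∫ θ (Q₁ a + Q₂ b)² + ∫ θ (P₂ a - P₁ b)²`.
-/

open MeasureTheory Set Filter
open scoped ContDiff Topology

noncomputable section

namespace Vale.Agent.P088.R2.H961.GW

variable {E ι κ : Type*} [NormedAddCommGroup E] [NormedSpace ℝ E] [Fintype ι] [Fintype κ]

/-- Two commuting slots. -/
structure Cm (σ : Sl E ι) (τ : Sl E κ) (U : Set E) : Prop where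
  cc : ∀ f, Sm U f → ∀ z ∈ U, ∀ i k, σ.D i (τ.D k f) z = τ.D k (σ.D i f) z
  s1 : ∀ z ∈ U, ∀ i k l, σ.D i (τ.s k l) z = 0
  k1 : ∀ z ∈ U, ∀ i k, σ.D i (τ.k k) z = 0
  s2 : ∀ z ∈ U, ∀ k i j, τ.D k (σ.s i j) z = 0
  k2 : ∀ z ∈ U, ∀ k i, τ.D k (σ.k i) z = 0

theorem Cm.symm {σ : Sl E ι} {τ : Sl E κ} {U : Set E} (c : Cm σ τ U) : Cm τ σ U where
  cc f hf z hz k i := (c.cc f hf z hz i k).symm
  s1 := c.s2
  k1 := c.k2
  s2 := c.s1
  k2 := c.k1

/-- `∑ σ_ij τ_kl (D_i D_k g) (D_j D_l f)`. -/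
def M2 (σ : Sl E ι) (τ : Sl E κ) (g f : E → ℝ) (z : E) : ℝ :=
  ∑ k, ∑ l, τ.s k l z * σ.Γ (τ.D k g) (τ.D l f) z

/-- `∑ σ_ij τ_kl (D_i D_k W) (D_j f) (D_l g)`. -/
def M3 (σ : Sl E ι) (τ : Sl E κ) (W f g : E → ℝ) (z : E) : ℝ :=
  ∑ k, ∑ l, τ.s k l z * σ.Γ (τ.D k W) f z * τ.D l g z

/-- The mixed Hessian form on `(X a, Y b)`, `X a = a DW - D a`, `Y b = b DW - D b`. -/
def Md (σ : Sl E ι) (τ : Sl E κ) (W a b : E → ℝ) (z : E) : ℝ :=
  M3 σ τ W a b z - a z * M3 σ τ W W b z - b z * M3 σ τ W a W z + a z * b z * M3 σ τ W W W z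

section pw

variable {σ : Sl E ι} {τ : Sl E κ} {U : Set E} {θ : E → ℝ} {v W f g h a b : E → ℝ} {z : E}

theorem cD (c : Cm σ τ U) (hf : Sm U f) (hz : z ∈ U) (i : ι) (k : κ) :
    σ.D i (τ.D k f) z = τ.D k (σ.D i f) z := c.cc f hf z hz i k

theorem D_Ds (ok : σ.Ok U θ) (c : Cm σ τ U) (hz : z ∈ U) (l : κ) (p i j : ι) :
    τ.D l (σ.D p (σ.s i j)) z = 0 := by
  rw [← c.cc _ (ok.ss i j) z hz p l,
    D_congr σ ok.op (g := fun _ => (0 : ℝ)) (fun z hz => c.s2 z hz l i j) p hz, D_const]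

/-- `Λ` of one slot commutes with the derivations of the other slot. -/
theorem L_D (ok : σ.Ok U θ) (ot : τ.Ok U θ) (c : Cm σ τ U) (hf : Sm U f) (l : κ) (hz : z ∈ U) :
    σ.Λ (τ.D l f) z = τ.D l (σ.Λ f) z := by
  have hU := ok.op
  have e0 : τ.D l (σ.Λ f) z = τ.D l (fun z => ∑ i, ∑ j, (σ.s i j z *
      (σ.D i (σ.D j f) z + σ.k i z * σ.D j f z) + σ.D i (σ.s i j) z * σ.D j f z)) z := rfl
  have s1 : ∀ i j, Sm U fun z => σ.D i (σ.D j f) z + σ.k i z * σ.D j f z := fun i j =>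
    (ok.sD (ok.sD hf j) i).add ((ok.ks i).mul (ok.sD hf j))
  have s2 : ∀ i j, Sm U fun z => σ.s i j z * (σ.D i (σ.D j f) z + σ.k i z * σ.D j f z) +
      σ.D i (σ.s i j) z * σ.D j f z := fun i j =>
    ((ok.ss i j).mul (s1 i j)).add ((ok.sD (ok.ss i j) i).mul (ok.sD hf j))
  rw [e0, D_sum τ hU _ (fun i _ => Sm.sum _ fun j _ => s2 i j) l hz]
  unfold Sl.Λ
  refine Finset.sum_congr rfl fun i _ => ?_
  rw [D_sum τ hU _ (fun j _ => s2 i j) l hz]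
  refine Finset.sum_congr rfl fun j _ => ?_
  rw [D_add τ hU ((ok.ss i j).mul (s1 i j)) ((ok.sD (ok.ss i j) i).mul (ok.sD hf j)) l hz,
    D_mul τ hU (ok.sD (ok.ss i j) i) (ok.sD hf j) l hz, D_Ds ok c hz l i i j,
    D_mul τ hU (ok.ss i j) (s1 i j) l hz, c.s2 z hz l i j,
    D_add τ hU (ok.sD (ok.sD hf j) i) ((ok.ks i).mul (ok.sD hf j)) l hz,
    D_mul τ hU (ok.ks i) (ok.sD hf j) l hz, c.k2 z hz l i, ← cD c (ok.sD hf j) hz i l,
    D_congr σ hU (fun z hz => cD c hf hz j l) i hz, cD c hf hz j l]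
  ring

/-- `Γ` of one slot and the derivations of the other slot. -/
theorem D_G (ok : σ.Ok U θ) (ot : τ.Ok U θ) (c : Cm σ τ U) (hf : Sm U f) (hg : Sm U g) (l : κ)
    (hz : z ∈ U) : τ.D l (σ.Γ f g) z = σ.Γ (τ.D l f) g z + σ.Γ f (τ.D l g) z := by
  have hU := ok.op
  have e0 : τ.D l (σ.Γ f g) z =
      τ.D l (fun z => ∑ i, ∑ j, σ.s i j z * σ.D i f z * σ.D j g z) z := rfl
  have s1 : ∀ i j, Sm U fun z => σ.s i j z * σ.D i f z := fun i j => (ok.ss i j).mul (ok.sD hf i)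
  rw [e0, D_sum τ hU _ (fun i _ => Sm.sum _ fun j _ => (s1 i j).mul (ok.sD hg j)) l hz]
  unfold Sl.Γ
  rw [← Finset.sum_add_distrib]
  refine Finset.sum_congr rfl fun i _ => ?_
  rw [D_sum τ hU _ (fun j _ => (s1 i j).mul (ok.sD hg j)) l hz, ← Finset.sum_add_distrib]
  refine Finset.sum_congr rfl fun j _ => ?_
  rw [D_mul τ hU (s1 i j) (ok.sD hg j) l hz, D_mul τ hU (ok.ss i j) (ok.sD hf i) l hz,
    c.s2 z hz l i j, ← cD c hf hz i l, ← cD c hg hz j l]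
  ring

theorem sum4 (f : ι → ι → κ → κ → ℝ) :
    ∑ i, ∑ j, ∑ k, ∑ l, f i j k l = ∑ k, ∑ l, ∑ i, ∑ j, f i j k l := by
  have h1 : ∀ i, ∑ j, ∑ k, ∑ l, f i j k l = ∑ k, ∑ l, ∑ j, f i j k l := by
    intro i
    rw [Finset.sum_comm]
    exact Finset.sum_congr rfl fun k _ => Finset.sum_comm
  simp only [h1]
  rw [Finset.sum_comm]
  exact Finset.sum_congr rfl fun k _ => Finset.sum_comm

/-- `Γ₁(f, Γ₂(g, h))`. -/
theorem G_G (ok : σ.Ok U θ) (ot : τ.Ok U θ) (c : Cm σ τ U) (f : E → ℝ) (hg : Sm U g)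
    (hh : Sm U h) (hz : z ∈ U) :
    σ.Γ f (τ.Γ g h) z = M3 σ τ g f h z + M3 σ τ h f g z := by
  have hU := ok.op
  have e1 : ∀ j, σ.D j (τ.Γ g h) z = τ.Γ (σ.D j g) h z + τ.Γ g (σ.D j h) z := fun j =>
    D_G ot ok c.symm hg hh j hz
  have e2 : ∀ p q : E → ℝ, Sm U p → ∑ i, ∑ j, σ.s i j z * σ.D i f z *
      τ.Γ (σ.D j p) q z = M3 σ τ p f q z := by
    intro p q hp
    have h1 : ∑ i, ∑ j, σ.s i j z * σ.D i f z * τ.Γ (σ.D j p) q z =
        ∑ i, ∑ j, ∑ k, ∑ l, σ.s i j z * σ.D i (τ.D k p) z * σ.D j f z * τ.s k l z * τ.D l q z := by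
      unfold Sl.Γ
      rw [Finset.sum_comm]
      refine Finset.sum_congr rfl fun i _ => Finset.sum_congr rfl fun j _ => ?_
      rw [Finset.mul_sum]
      refine Finset.sum_congr rfl fun k _ => ?_
      rw [Finset.mul_sum]
      refine Finset.sum_congr rfl fun l _ => ?_
      rw [← cD c hp hz i k, ok.sy j i]
      ring
    rw [h1, sum4]
    unfold M3 Sl.Γ
    refine Finset.sum_congr rfl fun k _ => Finset.sum_congr rfl fun l _ => ?_
    rw [Finset.mul_sum, Finset.sum_mul]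
    refine Finset.sum_congr rfl fun i _ => ?_
    rw [Finset.mul_sum, Finset.sum_mul]
    refine Finset.sum_congr rfl fun j _ => ?_
    ring
  have e3 : σ.Γ f (τ.Γ g h) z = ∑ i, ∑ j, σ.s i j z * σ.D i f z * τ.Γ (σ.D j g) h z +
      ∑ i, ∑ j, σ.s i j z * σ.D i f z * τ.Γ (σ.D j h) g z := by
    have : σ.Γ f (τ.Γ g h) z = ∑ i, ∑ j, σ.s i j z * σ.D i f z * σ.D j (τ.Γ g h) z := rfl
    rw [this, ← Finset.sum_add_distrib]
    refine Finset.sum_congr rfl fun i _ => ?_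
    rw [← Finset.sum_add_distrib]
    refine Finset.sum_congr rfl fun j _ => ?_
    rw [e1 j, G_comm ot g]
    ring
  rw [e3, e2 g h hg, e2 h g hh]

theorem M3_swap (ok : σ.Ok U θ) (ot : τ.Ok U θ) (c : Cm σ τ U) (hW : Sm U W) (f g : E → ℝ)
    (hz : z ∈ U) : M3 τ σ W g f z = M3 σ τ W f g z := by
  have h1 : M3 τ σ W g f z = ∑ i, ∑ j, ∑ k, ∑ l, σ.s i j z * τ.s k l z * σ.D i (τ.D k W) z *
      τ.D l g z * σ.D j f z := by
    unfold M3 Sl.Γ
    refine Finset.sum_congr rfl fun i _ => Finset.sum_congr rfl fun j _ => ?_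
    rw [Finset.mul_sum, Finset.sum_mul]
    refine Finset.sum_congr rfl fun k _ => ?_
    rw [Finset.mul_sum, Finset.sum_mul]
    refine Finset.sum_congr rfl fun l _ => ?_
    rw [← cD c hW hz i k]
    ring
  rw [h1, sum4]
  unfold M3 Sl.Γ
  refine Finset.sum_congr rfl fun k _ => Finset.sum_congr rfl fun l _ => ?_
  rw [Finset.mul_sum, Finset.sum_mul]
  refine Finset.sum_congr rfl fun i _ => ?_
  rw [Finset.mul_sum, Finset.sum_mul]
  refine Finset.sum_congr rfl fun j _ => ?_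
  ring

theorem M2_swap (ok : σ.Ok U θ) (ot : τ.Ok U θ) (c : Cm σ τ U) (hg : Sm U g) (hf : Sm U f)
    (hz : z ∈ U) : M2 τ σ g f z = M2 σ τ g f z := by
  have h1 : M2 τ σ g f z = ∑ i, ∑ j, ∑ k, ∑ l, σ.s i j z * τ.s k l z * σ.D i (τ.D k g) z *
      σ.D j (τ.D l f) z := by
    unfold M2 Sl.Γ
    refine Finset.sum_congr rfl fun i _ => Finset.sum_congr rfl fun j _ => ?_
    rw [Finset.mul_sum]
    refine Finset.sum_congr rfl fun k _ => ?_
    rw [Finset.mul_sum]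
    refine Finset.sum_congr rfl fun l _ => ?_
    rw [← cD c hg hz i k, ← cD c hf hz j l]
    ring
  rw [h1, sum4]
  unfold M2 Sl.Γ
  refine Finset.sum_congr rfl fun k _ => Finset.sum_congr rfl fun l _ => ?_
  rw [Finset.mul_sum]
  refine Finset.sum_congr rfl fun i _ => ?_
  rw [Finset.mul_sum]
  refine Finset.sum_congr rfl fun j _ => ?_
  ring

/-- `Γ₂(f, Γ₁(g, h))`. -/
theorem G_G' (ok : σ.Ok U θ) (ot : τ.Ok U θ) (c : Cm σ τ U) (f : E → ℝ) (hg : Sm U g)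
    (hh : Sm U h) (hz : z ∈ U) :
    τ.Γ f (σ.Γ g h) z = M3 σ τ g h f z + M3 σ τ h g f z := by
  rw [G_G ot ok c.symm f hg hh hz, M3_swap ok ot c hg _ _ hz, M3_swap ok ot c hh _ _ hz]

/-- `Λ₁ Γ₂(g, f)`. -/
theorem L_G (ok : σ.Ok U θ) (ot : τ.Ok U θ) (c : Cm σ τ U) (hg : Sm U g) (hf : Sm U f)
    (hz : z ∈ U) :
    σ.Λ (τ.Γ g f) z = τ.Γ (σ.Λ g) f z + τ.Γ g (σ.Λ f) z + 2 * M2 σ τ g f z := by
  have hU := ok.op
  have e0 : σ.Λ (τ.Γ g f) z = ∑ k, ∑ l, σ.Λ (fun z => τ.s k l z * (τ.D k g z * τ.D l f z)) z := by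
    have s1 : ∀ k l, Sm U fun z => τ.s k l z * (τ.D k g z * τ.D l f z) := fun k l =>
      (ot.ss k l).mul ((ot.sD hg k).mul (ot.sD hf l))
    have a1 : ∀ (S : Finset κ) (F : κ → E → ℝ), (∀ k, Sm U (F k)) →
        σ.Λ (fun z => ∑ k ∈ S, F k z) z = ∑ k ∈ S, σ.Λ (F k) z := by
      classical
      intro S F hF
      induction S using Finset.induction_on with
      | empty =>
        simp only [Finset.sum_empty]
        have := L_cmul ok 0 (contDiffOn_const (c := (0 : ℝ)) (s := U) (𝕜 := ℝ) (n := ∞)) hz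
        simpa using this
      | insert p S hp ih =>
        simp only [Finset.sum_insert hp]
        rw [L_add ok (hF p) (Sm.sum S fun k _ => hF k) hz, ih]
    have a2 : σ.Λ (τ.Γ g f) z = σ.Λ (fun z => ∑ k, ∑ l, τ.s k l z * (τ.D k g z * τ.D l f z)) z :=
      L_congr ok (fun z _ => by
        unfold Sl.Γ
        exact Finset.sum_congr rfl fun k _ => Finset.sum_congr rfl fun l _ => by ring) hz
    rw [a2, a1 _ _ fun k => Sm.sum _ fun l _ => s1 k l]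
    exact Finset.sum_congr rfl fun k _ => a1 _ _ fun l => s1 k l
  have e1 : ∀ k l, σ.Λ (fun z => τ.s k l z * (τ.D k g z * τ.D l f z)) z =
      τ.s k l z * τ.D k (σ.Λ g) z * τ.D l f z + τ.s k l z * τ.D k g z * τ.D l (σ.Λ f) z +
        2 * (τ.s k l z * σ.Γ (τ.D k g) (τ.D l f) z) := by
    intro k l
    have hs0 : ∀ i, σ.D i (τ.s k l) z = 0 := fun i => c.s1 z hz i k l
    have hG0 : σ.Γ (τ.s k l) (fun z => τ.D k g z * τ.D l f z) z = 0 := by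
      unfold Sl.Γ
      exact Finset.sum_eq_zero fun i _ => Finset.sum_eq_zero fun j _ => by
        rw [hs0 i]; ring
    have hL0 : σ.Λ (τ.s k l) z = 0 := by
      unfold Sl.Λ
      refine Finset.sum_eq_zero fun i _ => Finset.sum_eq_zero fun j _ => ?_
      rw [hs0 j, D_congr σ hU (g := fun _ => (0 : ℝ)) (fun z hz => c.s1 z hz j k l) i hz, D_const]
      ring
    rw [L_mul ok (ot.ss k l) ((ot.sD hg k).mul (ot.sD hf l)) hz, hG0, hL0,
      L_mul ok (ot.sD hg k) (ot.sD hf l) hz, L_D ok ot c hg k hz, L_D ok ot c hf l hz]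
    ring
  rw [e0]
  simp only [e1]
  unfold M2 Sl.Γ
  simp only [Finset.sum_add_distrib, Finset.mul_sum]

/-- `Λ₁ Λ₂ = Λ₂ Λ₁`. -/
theorem L_L (ok : σ.Ok U θ) (ot : τ.Ok U θ) (c : Cm σ τ U) (hf : Sm U f) (hz : z ∈ U) :
    σ.Λ (τ.Λ f) z = τ.Λ (σ.Λ f) z := by
  have hU := ok.op
  have s1 : ∀ k l, Sm U fun z => τ.D k (τ.D l f) z + τ.k k z * τ.D l f z := fun k l =>
    (ot.sD (ot.sD hf l) k).add ((ot.ks k).mul (ot.sD hf l))
  have a1 : ∀ (S : Finset κ) (F : κ → E → ℝ), (∀ k, Sm U (F k)) →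
      σ.Λ (fun z => ∑ k ∈ S, F k z) z = ∑ k ∈ S, σ.Λ (F k) z := by
    classical
    intro S F hF
    induction S using Finset.induction_on with
    | empty =>
      simp only [Finset.sum_empty]
      have := L_cmul ok 0 (contDiffOn_const (c := (0 : ℝ)) (s := U) (𝕜 := ℝ) (n := ∞)) hz
      simpa using this
    | insert p S hp ih =>
      simp only [Finset.sum_insert hp]
      rw [L_add ok (hF p) (Sm.sum S fun k _ => hF k) hz, ih]
  have s2 : ∀ k l, Sm U fun z => τ.s k l z * (τ.D k (τ.D l f) z + τ.k k z * τ.D l f z) +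
      τ.D k (τ.s k l) z * τ.D l f z := fun k l =>
    ((ot.ss k l).mul (s1 k l)).add ((ot.sD (ot.ss k l) k).mul (ot.sD hf l))
  have e0 : σ.Λ (τ.Λ f) z = ∑ k, ∑ l, σ.Λ (fun z => τ.s k l z *
      (τ.D k (τ.D l f) z + τ.k k z * τ.D l f z) + τ.D k (τ.s k l) z * τ.D l f z) z := by
    have a2 : σ.Λ (τ.Λ f) z = σ.Λ (fun z => ∑ k, ∑ l, (τ.s k l z *
      (τ.D k (τ.D l f) z + τ.k k z * τ.D l f z) + τ.D k (τ.s k l) z * τ.D l f z)) z := rfl
    rw [a2, a1 _ _ fun k => Sm.sum _ fun l _ => s2 k l]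
    exact Finset.sum_congr rfl fun k _ => a1 _ _ fun l => s2 k l
  have z0 : ∀ (p q : E → ℝ), Sm U p → Sm U q → (∀ z ∈ U, ∀ i, σ.D i p z = 0) →
      σ.Λ (fun z => p z * q z) z = p z * σ.Λ q z := by
    intro p q hp hq hp0
    have hG0 : σ.Γ p q z = 0 := by
      unfold Sl.Γ
      exact Finset.sum_eq_zero fun i _ => Finset.sum_eq_zero fun j _ => by
        rw [hp0 z hz i]; ring
    have hL0 : σ.Λ p z = 0 := by
      unfold Sl.Λ
      refine Finset.sum_eq_zero fun i _ => Finset.sum_eq_zero fun j _ => ?_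
      rw [hp0 z hz j, D_congr σ hU (g := fun _ => (0 : ℝ)) (fun z hz => hp0 z hz j) i hz, D_const]
      ring
    rw [L_mul ok hp hq hz, hG0, hL0]
    ring
  rw [e0]
  have e1 : τ.Λ (σ.Λ f) z = ∑ k, ∑ l, (τ.s k l z * (τ.D k (τ.D l (σ.Λ f)) z +
    τ.k k z * τ.D l (σ.Λ f) z) + τ.D k (τ.s k l) z * τ.D l (σ.Λ f) z) := rfl
  rw [e1]
  refine Finset.sum_congr rfl fun k _ => Finset.sum_congr rfl fun l _ => ?_
  rw [L_add ok ((ot.ss k l).mul (s1 k l)) ((ot.sD (ot.ss k l) k).mul (ot.sD hf l)) hz,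
    z0 _ _ (ot.ss k l) (s1 k l) fun z hz i => c.s1 z hz i k l,
    z0 _ _ (ot.sD (ot.ss k l) k) (ot.sD hf l) fun z hz i => D_Ds ot c.symm hz i k k l,
    L_add ok (ot.sD (ot.sD hf l) k) ((ot.ks k).mul (ot.sD hf l)) hz,
    z0 _ _ (ot.ks k) (ot.sD hf l) fun z hz i => c.k1 z hz i k,
    L_D ok ot c (ot.sD hf l) k hz, L_D ok ot c hf l hz,
    D_congr τ hU (fun z hz => L_D ok ot c hf l hz) k hz]

/-- The product of a function of the other variables. -/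
theorem L_own (ok : σ.Ok U θ) {p q : E → ℝ} (hp : Sm U p) (hq : Sm U q)
    (hp0 : ∀ z ∈ U, ∀ i, σ.D i p z = 0) (hz : z ∈ U) :
    σ.Λ (fun z => p z * q z) z = p z * σ.Λ q z := by
  have hG0 : σ.Γ p q z = 0 := by
    unfold Sl.Γ
    exact Finset.sum_eq_zero fun i _ => Finset.sum_eq_zero fun j _ => by
      rw [hp0 z hz i]; ring
  have hL0 : σ.Λ p z = 0 := by
    unfold Sl.Λ
    refine Finset.sum_eq_zero fun i _ => Finset.sum_eq_zero fun j _ => ?_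
    rw [hp0 z hz j, D_congr σ ok.op (g := fun _ => (0 : ℝ)) (fun z hz => hp0 z hz j) i hz, D_const]
    ring
  rw [L_mul ok hp hq hz, hG0, hL0]
  ring

theorem G_own (f : E → ℝ) {p : E → ℝ} (hp0 : ∀ i, σ.D i p z = 0) : σ.Γ f p z = 0 := by
  unfold Sl.Γ
  exact Finset.sum_eq_zero fun i _ => Finset.sum_eq_zero fun j _ => by
    rw [hp0 j]; ring

end pw

end Vale.Agent.P088.R2.H961.GW
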