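import Vale.Agent.P088.R2.H961.W.Mix

/-!
# Weighted `L²` methods: two commuting slots, the commutator and the formula for `T`
-/

open MeasureTheory Set Filter
open scoped ContDiff Topology

noncomputable section

namespace Vale.Agent.P088.R2.H961.GW

variable {E ι κ : Type*} [NormedAddCommGroup E] [NormedSpace ℝ E] [Fintype ι] [Fintype κ]

/-- The zero order part of `[P₁, Q₂]`. -/
def Zc (σ : Sl E ι) (τ : Sl E κ) (W : E → ℝ) (z : E) : ℝ :=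
  σ.Λ (τ.F W) z - τ.Λ (σ.F W) z - 2 * σ.Λ (τ.Λ W) z + 2 * τ.Γ W (σ.F W) z +
    2 * σ.Γ W (τ.F W) z - 2 * σ.Γ W (τ.Λ W) z + 2 * τ.Γ W (σ.Λ W) z

/-- The mixed potential. -/
def zm (σ : Sl E ι) (τ : Sl E κ) (W : E → ℝ) (z : E) : ℝ :=
  -(4 * σ.Λ (τ.Λ W) z) - 8 * τ.Γ W (σ.Λ W) z - 8 * σ.Γ W (τ.Λ W) z - 16 * M2 σ τ W W z

section pw

variable {σ : Sl E ι} {τ : Sl E κ} {U : Set E} {θ : E → ℝ} {v v₁ v₂ W f g h a b : E → ℝ} {z : E}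

theorem sM3 (ok : σ.Ok U θ) (ot : τ.Ok U θ) (hW : Sm U W) (hf : Sm U f) (hg : Sm U g) :
    Sm U (M3 σ τ W f g) :=
  Sm.sum _ fun k _ => Sm.sum _ fun l _ =>
    ((ot.ss k l).mul (ok.sG (ot.sD hW k) hf)).mul (ot.sD hg l)

theorem sM2 (ok : σ.Ok U θ) (ot : τ.Ok U θ) (hg : Sm U g) (hf : Sm U f) :
    Sm U (M2 σ τ g f) :=
  Sm.sum _ fun k _ => Sm.sum _ fun l _ => (ot.ss k l).mul (ok.sG (ot.sD hg k) (ot.sD hf l))

theorem tM3 (ok : σ.Ok U θ) (ot : τ.Ok U θ) (hW : Sm U W) (hf : Sm U f) (hg : Te U g) :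
    Te U (M3 σ τ W f g) :=
  Te.sum ok.op _ fun k _ => Te.sum ok.op _ fun l _ =>
    (ot.tD hg l).mul_left ok.op ((ot.ss k l).mul (ok.sG (ot.sD hW k) hf))

theorem tM3' (ok : σ.Ok U θ) (ot : τ.Ok U θ) (hW : Sm U W) (hf : Te U f) (hg : Sm U g) :
    Te U (M3 σ τ W f g) :=
  Te.sum ok.op _ fun k _ => Te.sum ok.op _ fun l _ =>
    ((ok.tG (ot.sD hW k) hf).mul_left ok.op (ot.ss k l)).mul_right ok.op (ot.sD hg l)

theorem tM2 (ok : σ.Ok U θ) (ot : τ.Ok U θ) (hg : Sm U g) (hf : Te U f) :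
    Te U (M2 σ τ g f) :=
  Te.sum ok.op _ fun k _ => Te.sum ok.op _ fun l _ =>
    (ok.tG (ot.sD hg k) (ot.tD hf l)).mul_left ok.op (ot.ss k l)

theorem sZc (ok : σ.Ok U θ) (ot : τ.Ok U θ) (hW : Sm U W) : Sm U (Zc σ τ W) :=
  ((((((ok.sL (ot.sF hW)).sub (ot.sL (ok.sF hW))).sub (contDiffOn_const.mul (ok.sL (ot.sL hW)))).add
    (contDiffOn_const.mul (ot.sG hW (ok.sF hW)))).add
    (contDiffOn_const.mul (ok.sG hW (ot.sF hW)))).sub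
    (contDiffOn_const.mul (ok.sG hW (ot.sL hW)))).add
    (contDiffOn_const.mul (ot.sG hW (ok.sL hW)))

theorem szm (ok : σ.Ok U θ) (ot : τ.Ok U θ) (hW : Sm U W) : Sm U (zm σ τ W) :=
  ((((contDiffOn_const.mul (ok.sL (ot.sL hW))).neg).sub
    (contDiffOn_const.mul (ot.sG hW (ok.sL hW)))).sub
    (contDiffOn_const.mul (ok.sG hW (ot.sL hW)))).sub (contDiffOn_const.mul (sM2 ok ot hW hW))

/-- The commutator `[P₁, Q₂]`. -/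
theorem comm (ok : σ.Ok U θ) (ot : τ.Ok U θ) (c : Cm σ τ U) (hv₁ : Sm U v₁) (hv₂ : Sm U v₂)
    (h₁ : ∀ z ∈ U, ∀ k, τ.D k v₁ z = 0) (h₂ : ∀ z ∈ U, ∀ i, σ.D i v₂ z = 0) (hW : Sm U W)
    (hf : Sm U f) (hz : z ∈ U) :
    σ.P v₁ W (τ.Q v₂ W f) z - τ.Q v₂ W (σ.P v₁ W f) z =
      -(8 * M2 σ τ W f z) + 4 * σ.Γ (τ.F W) f z - 4 * σ.Γ (τ.Λ W) f z - 4 * τ.Γ (σ.F W) f z -
        4 * τ.Γ (σ.Λ W) f z + Zc σ τ W z * f z := by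
  have hU := ok.op
  have sL1 := ok.sL hW
  have sL2 := ot.sL hW
  have sF1 := ok.sF hW
  have sF2 := ot.sF hW
  have f1 := ok.sL hf
  have f2 := ot.sL hf
  have g1 := ok.sG hW hf
  have g2 := ot.sG hW hf
  have L1 : σ.Λ (τ.Q v₂ W f) z = σ.Λ (τ.Λ f) z + v₂ z * σ.Λ f z -
      (2 * (τ.Γ (σ.Λ W) f z + τ.Γ W (σ.Λ f) z + 2 * M2 σ τ W f z) +
        (τ.Λ W z * σ.Λ f z + f z * σ.Λ (τ.Λ W) z + 2 * σ.Γ (τ.Λ W) f z)) +
      (τ.F W z * σ.Λ f z + f z * σ.Λ (τ.F W) z + 2 * σ.Γ (τ.F W) f z) := by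
    have e : σ.Λ (τ.Q v₂ W f) z = σ.Λ (fun z => ((τ.Λ f z + v₂ z * f z) -
      (2 * τ.Γ W f z + τ.Λ W z * f z)) + τ.F W z * f z) z := rfl
    rw [e, L_add ok ((f2.add (hv₂.mul hf)).sub ((contDiffOn_const.mul g2).add (sL2.mul hf)))
        (sF2.mul hf) hz,
      L_sub ok (f2.add (hv₂.mul hf)) ((contDiffOn_const.mul g2).add (sL2.mul hf)) hz,
      L_add ok f2 (hv₂.mul hf) hz, L_add ok (contDiffOn_const.mul g2) (sL2.mul hf) hz,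
      L_cmul ok 2 g2 hz, L_own ok hv₂ hf h₂ hz, L_mul ok sL2 hf hz, L_mul ok sF2 hf hz,
      L_G ok ot c hW hf hz]
  have G1 : σ.Γ W (τ.Q v₂ W f) z = σ.Γ W (τ.Λ f) z + v₂ z * σ.Γ W f z -
      (2 * (M3 σ τ W W f z + M3 σ τ f W W z) +
        (τ.Λ W z * σ.Γ W f z + f z * σ.Γ W (τ.Λ W) z)) +
      (τ.F W z * σ.Γ W f z + f z * σ.Γ W (τ.F W) z) := by
    have e : σ.Γ W (τ.Q v₂ W f) z = σ.Γ W (fun z => ((τ.Λ f z + v₂ z * f z) -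
      (2 * τ.Γ W f z + τ.Λ W z * f z)) + τ.F W z * f z) z := rfl
    rw [e, G_add ok W ((f2.add (hv₂.mul hf)).sub ((contDiffOn_const.mul g2).add (sL2.mul hf)))
        (sF2.mul hf) hz,
      G_sub ok W (f2.add (hv₂.mul hf)) ((contDiffOn_const.mul g2).add (sL2.mul hf)) hz,
      G_add ok W f2 (hv₂.mul hf) hz, G_add ok W (contDiffOn_const.mul g2) (sL2.mul hf) hz,
      G_cmul ok W 2 g2 hz, G_mul ok W hv₂ hf hz, G_own W (h₂ z hz), G_mul ok W sL2 hf hz,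
      G_mul ok W sF2 hf hz, G_G ok ot c W hW hf hz]
    ring
  have L2 : τ.Λ (σ.P v₁ W f) z = τ.Λ (σ.Λ f) z + v₁ z * τ.Λ f z +
      (2 * (σ.Γ (τ.Λ W) f z + σ.Γ W (τ.Λ f) z + 2 * M2 σ τ W f z) +
        (σ.Λ W z * τ.Λ f z + f z * τ.Λ (σ.Λ W) z + 2 * τ.Γ (σ.Λ W) f z)) +
      (σ.F W z * τ.Λ f z + f z * τ.Λ (σ.F W) z + 2 * τ.Γ (σ.F W) f z) := by
    have e : τ.Λ (σ.P v₁ W f) z = τ.Λ (fun z => ((σ.Λ f z + v₁ z * f z) +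
      (2 * σ.Γ W f z + σ.Λ W z * f z)) + σ.F W z * f z) z := rfl
    rw [e, L_add ot ((f1.add (hv₁.mul hf)).add ((contDiffOn_const.mul g1).add (sL1.mul hf)))
        (sF1.mul hf) hz,
      L_add ot (f1.add (hv₁.mul hf)) ((contDiffOn_const.mul g1).add (sL1.mul hf)) hz,
      L_add ot f1 (hv₁.mul hf) hz, L_add ot (contDiffOn_const.mul g1) (sL1.mul hf) hz,
      L_cmul ot 2 g1 hz, L_own ot hv₁ hf h₁ hz, L_mul ot sL1 hf hz, L_mul ot sF1 hf hz,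
      L_G ot ok c.symm hW hf hz, M2_swap ok ot c hW hf hz]
  have G2 : τ.Γ W (σ.P v₁ W f) z = τ.Γ W (σ.Λ f) z + v₁ z * τ.Γ W f z +
      (2 * (M3 σ τ W f W z + M3 σ τ f W W z) +
        (σ.Λ W z * τ.Γ W f z + f z * τ.Γ W (σ.Λ W) z)) +
      (σ.F W z * τ.Γ W f z + f z * τ.Γ W (σ.F W) z) := by
    have e : τ.Γ W (σ.P v₁ W f) z = τ.Γ W (fun z => ((σ.Λ f z + v₁ z * f z) +
      (2 * σ.Γ W f z + σ.Λ W z * f z)) + σ.F W z * f z) z := rfl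
    rw [e, G_add ot W ((f1.add (hv₁.mul hf)).add ((contDiffOn_const.mul g1).add (sL1.mul hf)))
        (sF1.mul hf) hz,
      G_add ot W (f1.add (hv₁.mul hf)) ((contDiffOn_const.mul g1).add (sL1.mul hf)) hz,
      G_add ot W f1 (hv₁.mul hf) hz, G_add ot W (contDiffOn_const.mul g1) (sL1.mul hf) hz,
      G_cmul ot W 2 g1 hz, G_mul ot W hv₁ hf hz, G_own W (h₁ z hz), G_mul ot W sL1 hf hz,
      G_mul ot W sF1 hf hz, G_G' ok ot c W hW hf hz]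
    ring
  have e1 : τ.Γ (σ.F W) f z = 2 * M3 σ τ W W f z := by
    rw [G_comm ot (σ.F W) f]
    have := G_G' ok ot c f hW hW hz
    have e : τ.Γ f (σ.F W) z = τ.Γ f (σ.Γ W W) z := rfl
    rw [e, this]; ring
  have e2 : σ.Γ (τ.F W) f z = 2 * M3 σ τ W f W z := by
    rw [G_comm ok (τ.F W) f]
    have := G_G ok ot c f hW hW hz
    have e : σ.Γ f (τ.F W) z = σ.Γ f (τ.Γ W W) z := rfl
    rw [e, this]; ring
  have e3 := L_L ok ot c hf hz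
  have e4 := L_L ok ot c hW hz
  have eP : σ.P v₁ W (τ.Q v₂ W f) z = σ.Λ (τ.Q v₂ W f) z + v₁ z * τ.Q v₂ W f z +
    (2 * σ.Γ W (τ.Q v₂ W f) z + σ.Λ W z * τ.Q v₂ W f z) + σ.F W z * τ.Q v₂ W f z := rfl
  have eQ : τ.Q v₂ W (σ.P v₁ W f) z = τ.Λ (σ.P v₁ W f) z + v₂ z * σ.P v₁ W f z -
    (2 * τ.Γ W (σ.P v₁ W f) z + τ.Λ W z * σ.P v₁ W f z) + τ.F W z * σ.P v₁ W f z := rfl
  have eP' : σ.P v₁ W f z = σ.Λ f z + v₁ z * f z + (2 * σ.Γ W f z + σ.Λ W z * f z) +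
    σ.F W z * f z := rfl
  have eQ' : τ.Q v₂ W f z = τ.Λ f z + v₂ z * f z - (2 * τ.Γ W f z + τ.Λ W z * f z) +
    τ.F W z * f z := rfl
  rw [eP, eQ, L1, G1, L2, G2, eP', eQ', e1, e2, ← e3, ← e4]
  unfold Zc
  ring

end pw

end Vale.Agent.P088.R2.H961.GW
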