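import Vale.Agent.P088.R2.H961.W.Hes
import Mathlib.Analysis.SpecialFunctions.ExpDeriv
import Mathlib.Analysis.SpecialFunctions.Exp

/-!
# Weighted `L²` methods: `P = e^{-W} (Λ + v) e^{W}`, `Q = e^{W} (Λ + v) e^{-W}`
-/

open MeasureTheory Set Filter
open scoped ContDiff Topology

noncomputable section

namespace Vale.Agent.P088.R2.H961.GW

variable {E ι : Type*} [NormedAddCommGroup E] [NormedSpace ℝ E]

section pw

variable {σ : Sl E ι} {U : Set E} {θ : E → ℝ} {v W f g h a b : E → ℝ} {z : E}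

theorem sm_exp (hW : Sm U W) : Sm U fun z => Real.exp (W z) := hW.exp

theorem D_exp (hU : IsOpen U) (hW : Sm U W) (i : ι) (hz : z ∈ U) :
    σ.D i (fun z => Real.exp (W z)) z = Real.exp (W z) * σ.D i W z := by
  simp only [Sl.D]
  rw [fderiv_exp (hW.diff hU hz)]
  simp only [_root_.smul_apply, smul_eq_mul]; ring

variable [Fintype ι]

theorem G_exp (ok : σ.Ok U θ) (f : E → ℝ) (hW : Sm U W) (hz : z ∈ U) :
    σ.Γ f (fun z => Real.exp (W z)) z = Real.exp (W z) * σ.Γ f W z := by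
  unfold Sl.Γ
  simp only [Finset.mul_sum]
  refine Finset.sum_congr rfl fun i _ => Finset.sum_congr rfl fun j _ => ?_
  rw [D_exp ok.op hW j hz]; ring

theorem L_exp (ok : σ.Ok U θ) (hW : Sm U W) (hz : z ∈ U) :
    σ.Λ (fun z => Real.exp (W z)) z = Real.exp (W z) * (σ.Λ W z + σ.F W z) := by
  unfold Sl.F Sl.Λ Sl.Γ
  simp only [Finset.mul_sum, ← Finset.sum_add_distrib]
  refine Finset.sum_congr rfl fun i _ => Finset.sum_congr rfl fun j _ => ?_
  rw [D_congr σ ok.op (fun z hz => D_exp ok.op hW j hz) i hz,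
    D_mul σ ok.op (sm_exp hW) (ok.sD hW j) i hz, D_exp ok.op hW i hz, D_exp ok.op hW j hz]
  ring

/-- `P = e^{-W} (Λ + v) e^{W}`. -/
theorem P_exp (ok : σ.Ok U θ) (v : E → ℝ) (hW : Sm U W) (hf : Sm U f) (hz : z ∈ U) :
    σ.P v W f z = Real.exp (-W z) * (σ.Λ (fun z => Real.exp (W z) * f z) z +
      v z * (Real.exp (W z) * f z)) := by
  have e : Real.exp (-W z) * Real.exp (W z) = 1 := by rw [← Real.exp_add]; simp
  rw [L_mul ok (sm_exp hW) hf hz, L_exp ok hW hz, G_comm ok (fun z => Real.exp (W z)) f,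
    G_exp ok f hW hz, G_comm ok f W]
  unfold Sl.P Sl.K
  linear_combination (-(σ.Λ f z + v z * f z + (2 * σ.Γ W f z + σ.Λ W z * f z) +
    σ.F W z * f z)) * e

theorem Q_neg (ok : σ.Ok U θ) (v : E → ℝ) (hW : Sm U W) (f : E → ℝ) (hz : z ∈ U) :
    σ.Q v W f z = σ.P v (fun z => -W z) f z := by
  have e1 : σ.Γ (fun z => -W z) f z = -σ.Γ W f z := by
    rw [G_comm ok (fun z => -W z) f, G_neg ok f hW hz, G_comm ok f W]
  have e2 : σ.Λ (fun z => -W z) z = -σ.Λ W z := by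
    have := L_cmul ok (-1) hW hz
    simpa using this
  have e3 : σ.F (fun z => -W z) z = σ.F W z := by
    unfold Sl.F
    rw [G_neg ok _ hW hz, G_comm ok (fun z => -W z) W, G_neg ok W hW hz, neg_neg]
  unfold Sl.Q Sl.P Sl.K
  rw [e1, e2, e3]
  ring

/-- `Q = e^{W} (Λ + v) e^{-W}`. -/
theorem Q_exp (ok : σ.Ok U θ) (v : E → ℝ) (hW : Sm U W) (hf : Sm U f) (hz : z ∈ U) :
    σ.Q v W f z = Real.exp (W z) * (σ.Λ (fun z => Real.exp (-W z) * f z) z +
      v z * (Real.exp (-W z) * f z)) := by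
  rw [Q_neg ok v hW f hz, P_exp ok v (W := fun z => -W z) hW.neg hf hz]
  simp only [neg_neg]

end pw

end Vale.Agent.P088.R2.H961.GW
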