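import Vale.Agent.P088.R2.H961.W.Inst

/-!
# Weighted `L²` methods: the conjugated operators on pairs of points, examples of frames
-/

open MeasureTheory Set Filter
open scoped ContDiff Topology Matrix

noncomputable section

namespace Vale.Agent.P088.R2.H961.GW

open Vale.Agent.P088.LR Vale.Agent.P088.HY

variable {n : ℕ}

section cal

variable {r r₁ r₂ : V n → ℝ} {s s₁ s₂ : MF n} {O O₁ O₂ : Set (V n)} {U : Set (VV n)} {z : VV n}
  {W f : VV n → ℝ}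

/-- `P_x = e^{-W} r^{γ+2} L_x r^{-γ} e^{W}`. -/
theorem Px_eq (f₁ : Fr r₁ s₁ O₁) (f₂ : Fr r₂ s₂ O₂) (ho : IsOpen U) (hU : U ⊆ O₁ ×ˢ O₂)
    (hW : Sm U W) (hf : Sm U f) (hz : z ∈ U) :
    (slx r₁ s₁).P (fun z => vpt r₁ s₁ z.1) W f z = Real.exp (-W z) * (r₁ z.1 ^ (ga n + 2) *
      Lx s₁ (fun w => r₁ w.1 ^ (-ga n) * (Real.exp (W w) * f w)) z) := by
  rw [← Lx_conf f₁ f₂ ho hU ((sm_exp hW).mul hf) hz]
  exact P_exp (okx f₁.toFr0 f₂.toFr0 ho hU) _ hW hf hz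

/-- `P_y = e^{-W} r^{γ+2} L_y r^{-γ} e^{W}`. -/
theorem Py_eq (f₁ : Fr r₁ s₁ O₁) (f₂ : Fr r₂ s₂ O₂) (ho : IsOpen U) (hU : U ⊆ O₁ ×ˢ O₂)
    (hW : Sm U W) (hf : Sm U f) (hz : z ∈ U) :
    (sly r₂ s₂).P (fun z => vpt r₂ s₂ z.2) W f z = Real.exp (-W z) * (r₂ z.2 ^ (ga n + 2) *
      Ly s₂ (fun w => r₂ w.2 ^ (-ga n) * (Real.exp (W w) * f w)) z) := by
  rw [← Ly_conf f₁ f₂ ho hU ((sm_exp hW).mul hf) hz]
  exact P_exp (oky f₁.toFr0 f₂.toFr0 ho hU) _ hW hf hz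

/-- `Q_x = e^{W} r^{γ+2} L_x r^{-γ} e^{-W}`. -/
theorem Qx_eq (f₁ : Fr r₁ s₁ O₁) (f₂ : Fr r₂ s₂ O₂) (ho : IsOpen U) (hU : U ⊆ O₁ ×ˢ O₂)
    (hW : Sm U W) (hf : Sm U f) (hz : z ∈ U) :
    (slx r₁ s₁).Q (fun z => vpt r₁ s₁ z.1) W f z = Real.exp (W z) * (r₁ z.1 ^ (ga n + 2) *
      Lx s₁ (fun w => r₁ w.1 ^ (-ga n) * (Real.exp (-W w) * f w)) z) := by
  rw [← Lx_conf f₁ f₂ ho hU ((sm_exp (W := fun z => -W z) hW.neg).mul hf) hz]
  exact Q_exp (okx f₁.toFr0 f₂.toFr0 ho hU) _ hW hf hz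

/-- `Q_y = e^{W} r^{γ+2} L_y r^{-γ} e^{-W}`. -/
theorem Qy_eq (f₁ : Fr r₁ s₁ O₁) (f₂ : Fr r₂ s₂ O₂) (ho : IsOpen U) (hU : U ⊆ O₁ ×ˢ O₂)
    (hW : Sm U W) (hf : Sm U f) (hz : z ∈ U) :
    (sly r₂ s₂).Q (fun z => vpt r₂ s₂ z.2) W f z = Real.exp (W z) * (r₂ z.2 ^ (ga n + 2) *
      Ly s₂ (fun w => r₂ w.2 ^ (-ga n) * (Real.exp (-W w) * f w)) z) := by
  rw [← Ly_conf f₁ f₂ ho hU ((sm_exp (W := fun z => -W z) hW.neg).mul hf) hz]
  exact Q_exp (oky f₁.toFr0 f₂.toFr0 ho hU) _ hW hf hz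

/-! ## The flat frame -/

theorem vpt_one (s : MF n) (x : V n) : vpt (fun _ => 1) s x = 0 := by
  have h : ∀ j : Fin n, pd j (fun _ : V n => (1 : ℝ)) = fun _ => 0 := fun j => by
    funext y; simp [pd]
  have h2 : ∀ i : Fin n, pd i (fun _ : V n => (0 : ℝ)) x = 0 := fun i => by simp [pd]
  unfold vpt Lv
  simp [h2, h]

/-- `P_x = e^{-W} L_x e^{W}` in the flat frame. -/
theorem Px_flat (f₁ : Fr r₁ s₁ O₁) (f₂ : Fr r₂ s₂ O₂) (ho : IsOpen U) (hU : U ⊆ O₁ ×ˢ O₂)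
    (hW : Sm U W) (hf : Sm U f) (hz : z ∈ U) :
    (slx (fun _ => 1) s₁).P (fun _ => 0) W f z =
      Real.exp (-W z) * Lx s₁ (fun w => Real.exp (W w) * f w) z := by
  rw [P_exp (okx (fr_one f₁).toFr0 (fr_one f₂).toFr0 ho hU) _ hW hf hz,
    Lx_one f₁ (hU hz).1]
  ring

theorem Py_flat (f₁ : Fr r₁ s₁ O₁) (f₂ : Fr r₂ s₂ O₂) (ho : IsOpen U) (hU : U ⊆ O₁ ×ˢ O₂)
    (hW : Sm U W) (hf : Sm U f) (hz : z ∈ U) :
    (sly (fun _ => 1) s₂).P (fun _ => 0) W f z =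
      Real.exp (-W z) * Ly s₂ (fun w => Real.exp (W w) * f w) z := by
  rw [P_exp (oky (fr_one f₁).toFr0 (fr_one f₂).toFr0 ho hU) _ hW hf hz,
    Ly_one f₂ (hU hz).2]
  ring

theorem Qx_flat (f₁ : Fr r₁ s₁ O₁) (f₂ : Fr r₂ s₂ O₂) (ho : IsOpen U) (hU : U ⊆ O₁ ×ˢ O₂)
    (hW : Sm U W) (hf : Sm U f) (hz : z ∈ U) :
    (slx (fun _ => 1) s₁).Q (fun _ => 0) W f z =
      Real.exp (W z) * Lx s₁ (fun w => Real.exp (-W w) * f w) z := by
  rw [Q_exp (okx (fr_one f₁).toFr0 (fr_one f₂).toFr0 ho hU) _ hW hf hz,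
    Lx_one f₁ (hU hz).1]
  ring

theorem Qy_flat (f₁ : Fr r₁ s₁ O₁) (f₂ : Fr r₂ s₂ O₂) (ho : IsOpen U) (hU : U ⊆ O₁ ×ˢ O₂)
    (hW : Sm U W) (hf : Sm U f) (hz : z ∈ U) :
    (sly (fun _ => 1) s₂).Q (fun _ => 0) W f z =
      Real.exp (W z) * Ly s₂ (fun w => Real.exp (-W w) * f w) z := by
  rw [Q_exp (oky (fr_one f₁).toFr0 (fr_one f₂).toFr0 ho hU) _ hW hf hz,
    Ly_one f₂ (hU hz).2]
  ring

/-! ## The flat frame, tensors with divergence -/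

theorem Px_div (f₁ : Fr0 r₁ s₁ O₁) (f₂ : Fr0 r₂ s₂ O₂) (ho : IsOpen U) (hU : U ⊆ O₁ ×ˢ O₂)
    (v : VV n → ℝ) (hW : Sm U W) (hf : Sm U f) (hz : z ∈ U) :
    (slx (fun _ => 1) s₁).P v W f z = Real.exp (-W z) *
      ((∑ i, ∑ j, dx i (fun w => s₁ w.1 i j * dx j (fun w => Real.exp (W w) * f w) w) z) +
        v z * (Real.exp (W z) * f z)) := by
  rw [P_exp (okx (fr_one0 f₁) (fr_one0 f₂) ho hU) _ hW hf hz,
    Lx_div (okx (fr_one0 f₁) (fr_one0 f₂) ho hU) ((sm_exp hW).mul hf) hz]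

theorem Py_div (f₁ : Fr0 r₁ s₁ O₁) (f₂ : Fr0 r₂ s₂ O₂) (ho : IsOpen U) (hU : U ⊆ O₁ ×ˢ O₂)
    (v : VV n → ℝ) (hW : Sm U W) (hf : Sm U f) (hz : z ∈ U) :
    (sly (fun _ => 1) s₂).P v W f z = Real.exp (-W z) *
      ((∑ i, ∑ j, dy i (fun w => s₂ w.2 i j * dy j (fun w => Real.exp (W w) * f w) w) z) +
        v z * (Real.exp (W z) * f z)) := by
  rw [P_exp (oky (fr_one0 f₁) (fr_one0 f₂) ho hU) _ hW hf hz,
    Ly_div (oky (fr_one0 f₁) (fr_one0 f₂) ho hU) ((sm_exp hW).mul hf) hz]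

theorem Qx_div (f₁ : Fr0 r₁ s₁ O₁) (f₂ : Fr0 r₂ s₂ O₂) (ho : IsOpen U) (hU : U ⊆ O₁ ×ˢ O₂)
    (v : VV n → ℝ) (hW : Sm U W) (hf : Sm U f) (hz : z ∈ U) :
    (slx (fun _ => 1) s₁).Q v W f z = Real.exp (W z) *
      ((∑ i, ∑ j, dx i (fun w => s₁ w.1 i j * dx j (fun w => Real.exp (-W w) * f w) w) z) +
        v z * (Real.exp (-W z) * f z)) := by
  rw [Q_exp (okx (fr_one0 f₁) (fr_one0 f₂) ho hU) _ hW hf hz,
    Lx_div (okx (fr_one0 f₁) (fr_one0 f₂) ho hU) ((sm_exp (W := fun z => -W z) hW.neg).mul hf) hz]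

theorem Qy_div (f₁ : Fr0 r₁ s₁ O₁) (f₂ : Fr0 r₂ s₂ O₂) (ho : IsOpen U) (hU : U ⊆ O₁ ×ˢ O₂)
    (v : VV n → ℝ) (hW : Sm U W) (hf : Sm U f) (hz : z ∈ U) :
    (sly (fun _ => 1) s₂).Q v W f z = Real.exp (W z) *
      ((∑ i, ∑ j, dy i (fun w => s₂ w.2 i j * dy j (fun w => Real.exp (-W w) * f w) w) z) +
        v z * (Real.exp (-W z) * f z)) := by
  rw [Q_exp (oky (fr_one0 f₁) (fr_one0 f₂) ho hU) _ hW hf hz,
    Ly_div (oky (fr_one0 f₁) (fr_one0 f₂) ho hU) ((sm_exp (W := fun z => -W z) hW.neg).mul hf) hz]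

/-! ## The cone frame `r = e^{-x_m}` -/

/-- The scale of the cone frame. -/
def cn (m : Fin n) (x : V n) : ℝ := Real.exp (-x m)

theorem cn_smooth (m : Fin n) : ContDiff ℝ ∞ (cn m) := by
  unfold cn; fun_prop

theorem fr_cn (f : Fr r s O) (m : Fin n) : Fr (cn m) s O where
  op := f.op
  rp _ _ := Real.exp_pos _
  rs := (cn_smooth m).contDiffOn
  ss := f.ss
  sy := f.sy
  dv := f.dv

theorem pd_cn (m i : Fin n) (x : V n) : pd i (cn m) x = -(if i = m then cn m x else 0) := by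
  have h : HasFDerivAt (fun x : V n => -x m) (-(ContinuousLinearMap.proj (R := ℝ)
    (φ := fun _ : Fin n => ℝ) m)) x := (hasFDerivAt_apply m x).neg
  have h2 := h.exp
  unfold pd
  rw [show fderiv ℝ (cn m) x = _ from h2.fderiv]
  simp only [_root_.smul_apply, _root_.neg_apply, ContinuousLinearMap.proj_apply, smul_eq_mul,
    Pi.single_apply, cn]
  by_cases hi : i = m
  · simp [hi]
  · simp [hi, Ne.symm hi]

/-- The potential of the cone frame. -/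
theorem vpt_cn (s : MF n) (m : Fin n) (x : V n) :
    vpt (cn m) s x = ga n ^ 2 * cn m x ^ 2 * s x m m := by
  have h1 : ∀ j, pd j (cn m) = fun x => -(if j = m then cn m x else 0) := fun j =>
    funext fun x => pd_cn m j x
  have h2 : ∀ i j, pd i (pd j (cn m)) x = if i = m then (if j = m then cn m x else 0) else 0 := by
    intro i j
    rw [h1 j]
    by_cases hj : j = m
    · simp only [hj, if_true]
      have : pd i (fun x => -cn m x) x = -pd i (cn m) x := by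
        unfold pd; rw [fderiv_fun_neg]; rfl
      rw [this, pd_cn, neg_neg]
    · simp only [hj, if_false, neg_zero, ite_self]
      simp [pd]
  unfold vpt Lv
  simp only [h2, pd_cn]
  have e1 : ∑ i, ∑ j, s x i j * (if i = m then (if j = m then cn m x else 0) else 0) =
      s x m m * cn m x := by
    rw [Finset.sum_eq_single m]
    · rw [Finset.sum_eq_single m]
      · simp
      · intro b _ hb; simp [hb]
      · intro h; exact absurd (Finset.mem_univ m) h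
    · intro b _ hb; simp [hb]
    · intro h; exact absurd (Finset.mem_univ m) h
  have e2 : ∑ i, ∑ j, s x i j * (-(if i = m then cn m x else 0)) *
      (-(if j = m then cn m x else 0)) = s x m m * cn m x ^ 2 := by
    rw [Finset.sum_eq_single m]
    · rw [Finset.sum_eq_single m]
      · simp; ring
      · intro b _ hb; simp [hb]
      · intro h; exact absurd (Finset.mem_univ m) h
    · intro b _ hb; simp [hb]
    · intro h; exact absurd (Finset.mem_univ m) h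
  rw [e1, e2]
  ring

/-! ## The hyperbolic frame -/

theorem fr_rr {K : ℕ} {ε : ℝ} (h : TS n K ε s) : Fr rr s (Bn n) where
  op := by
    have : Continuous (HY.sq : V n → ℝ) := by unfold HY.sq; fun_prop
    exact isOpen_lt this continuous_const
  rp x hx := by
    have : HY.sq x < 1 := hx
    unfold rr; linarith
  rs := by
    have : ContDiff ℝ ∞ (HY.sq : V n → ℝ) := by unfold HY.sq; fun_prop
    unfold rr
    exact ((contDiff_const.sub this).div_const _).contDiffOn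
  ss i j := (h.sm i j).contDiffOn
  sy x i j := (h.sy x).apply j i
  dv := h.dv

/-- The flat frame. -/
theorem fr_flat {K : ℕ} {ε : ℝ} (h : TS n K ε s) : Fr (fun _ => 1) s (Bn n) := fr_one (fr_rr h)

end cal

end Vale.Agent.P088.R2.H961.GW
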