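import Vale.Agent.P088.R2.H961.W.Tid

/-!
# Weighted `L²` methods: the exact formula for `T`, form with a linear potential

The quantum potential is `-2 ∑ Λ_j Λ_k W`, linear in `W`.
-/

open MeasureTheory Set Filter
open scoped ContDiff Topology

noncomputable section

namespace Vale.Agent.P088.R2.H961.GW

variable {E ι κ : Type*} [NormedAddCommGroup E] [NormedSpace ℝ E] [Fintype ι] [Fintype κ]

/-- The first order skew term of the linear form. -/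
def sF (σ : Sl E ι) (τ : Sl E κ) (W a b : E → ℝ) (z : E) : ℝ :=
  a z * (M3 σ τ W b W z - M3 σ τ W W b z) - b z * (M3 σ τ W a W z - M3 σ τ W W a z)

variable [MeasureSpace E] [FiniteDimensional ℝ E] [BorelSpace E]
  [(volume : Measure E).IsAddHaarMeasure]

section integral

variable {σ : Sl E ι} {τ : Sl E κ} {U : Set E} {θ : E → ℝ} {v v₁ v₂ W f g h a b : E → ℝ}

/-- The one-factor identity, linear potential. -/
theorem one_lin (ok : σ.Ok U θ) (hv : Sm U v) (hW : Sm U W) (hf : Te U f) :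
    In U θ (fun z => σ.Q v W f z ^ 2) = In U θ (fun z => σ.P v W f z ^ 2) +
      4 * In U θ (fun z => σ.Hf W f z + f z ^ 2 * σ.Γ W (σ.F W) z) +
      In U θ (fun z => (4 * σ.Γ W v z - 2 * σ.Λ (σ.Λ W) z) * f z ^ 2) := by
  have hU := ok.op
  have sf := hf.sm
  have tf := hf.sq hU
  have sF' := ok.sF hW
  have sL := ok.sL hW
  rw [one_id ok hv hW hf]
  have t1 := ok.tHf hW hf
  have t2 : Te U fun z => f z * σ.Γ f (σ.Λ W) z := hf.mul_right hU (ok.sG sf sL)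
  have t3 : Te U fun z => f z ^ 2 * σ.Γ W (σ.F W) z := tf.mul_right hU (ok.sG hW sF')
  have t4 : Te U fun z => σ.Γ W v z * f z ^ 2 := tf.mul_left hU (ok.sG hW hv)
  have t7 : Te U fun z => σ.Λ (σ.Λ W) z * f z ^ 2 := tf.mul_left hU (ok.sL sL)
  have e1 : In U θ (fun z => σ.Hf W f z + f z * σ.Γ f (σ.Λ W) z +
        f z ^ 2 * σ.Γ W (fun z => v z + σ.F W z) z) =
      In U θ (fun z => (σ.Hf W f z + f z ^ 2 * σ.Γ W (σ.F W) z) + (f z * σ.Γ f (σ.Λ W) z +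
        σ.Γ W v z * f z ^ 2)) := by
    refine In_congr hU fun z hz => ?_
    rw [G_add ok W hv sF' hz]
    ring
  have e3 : In U θ (fun z => (4 * σ.Γ W v z - 2 * σ.Λ (σ.Λ W) z) * f z ^ 2) =
      In U θ (fun z => 4 * (σ.Γ W v z * f z ^ 2) - 2 * (σ.Λ (σ.Λ W) z * f z ^ 2)) :=
    In_congr hU fun z _ => by ring
  rw [e1, e3, In_add hU ok.ts (t1.add hU t3) (t2.add hU t4), In_add hU ok.ts t2 t4,
    In_sub hU ok.ts (t4.cmul hU 4) (t7.cmul hU 2), In_cmul, In_cmul, In_aG ok hf sL]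
  ring

/-- The mixed part of `T`, linear potential. -/
theorem mixed_lin (ok : σ.Ok U θ) (ot : τ.Ok U θ) (c : Cm σ τ U) (hv₁ : Sm U v₁) (hv₂ : Sm U v₂)
    (h₁ : ∀ z ∈ U, ∀ k, τ.D k v₁ z = 0) (h₂ : ∀ z ∈ U, ∀ i, σ.D i v₂ z = 0) (hW : Sm U W)
    (ha : Te U a) (hb : Te U b) :
    2 * (In U θ (fun z => σ.Q v₁ W a z * τ.Q v₂ W b z) -
      In U θ (fun z => τ.P v₂ W a z * σ.P v₁ W b z)) =
      8 * (In U θ (M3 σ τ W a b) + In U θ (M3 σ τ W b a)) + 8 * In U θ (sF σ τ W a b) +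
        In U θ (fun z => (16 * M3 σ τ W W W z - 4 * σ.Λ (τ.Λ W) z) * (a z * b z)) := by
  have hU := ok.op
  have sa := ha.sm
  have sb := hb.sm
  have sF1 := ok.sF hW
  have sF2 := ot.sF hW
  have sL1 := ok.sL hW
  have sL2 := ot.sL hW
  have tab : Te U fun z => a z * b z := ha.mul_right hU sb
  rw [mixed ok ot c hv₁ hv₂ h₁ h₂ hW ha hb]
  -- test functions
  have tM : Te U (M3 σ τ W a b) := tM3' ok ot hW ha sb
  have tM' : Te U (M3 σ τ W b a) := tM3' ok ot hW hb sa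
  have p1 : Te U fun z => a z * τ.Γ (σ.Λ W) b z := ha.mul_right hU (ot.sG sL1 sb)
  have p2 : Te U fun z => a z * τ.Γ (σ.F W) b z := ha.mul_right hU (ot.sG sF1 sb)
  have p2' : Te U fun z => b z * τ.Γ (σ.F W) a z := hb.mul_right hU (ot.sG sF1 sa)
  have p3 : Te U fun z => a z * σ.Γ (τ.F W) b z := ha.mul_right hU (ok.sG sF2 sb)
  have p3' : Te U fun z => b z * σ.Γ (τ.F W) a z := hb.mul_right hU (ok.sG sF2 sa)
  have p4 : Te U fun z => a z * σ.Γ (τ.Λ W) b z := ha.mul_right hU (ok.sG sL2 sb)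
  have s5 : Sm U (M3 σ τ W W W) := sM3 ok ot hW hW hW
  have p5 : Te U fun z => M3 σ τ W W W z * (a z * b z) := tab.mul_left hU s5
  have p6 : Te U fun z => Zc σ τ W z * (a z * b z) := tab.mul_left hU (sZc ok ot hW)
  have p7 : Te U fun z => σ.Λ (τ.Λ W) z * (a z * b z) := tab.mul_left hU (ok.sL sL2)
  have p8 : Te U fun z => σ.Λ (τ.F W) z * (a z * b z) := tab.mul_left hU (ok.sL sF2)
  have p9 : Te U fun z => τ.Λ (σ.F W) z * (a z * b z) := tab.mul_left hU (ot.sL sF1)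
  -- pointwise
  have e1 : ∀ f z, z ∈ U → τ.Γ (σ.F W) f z = 2 * M3 σ τ W W f z := by
    intro f z hz
    rw [G_comm ot (σ.F W) f]
    have := G_G' ok ot c f hW hW hz
    have e : τ.Γ f (σ.F W) z = τ.Γ f (σ.Γ W W) z := rfl
    rw [e, this]; ring
  have e2 : ∀ f z, z ∈ U → σ.Γ (τ.F W) f z = 2 * M3 σ τ W f W z := by
    intro f z hz
    rw [G_comm ok (τ.F W) f]
    have := G_G ok ot c f hW hW hz
    have e : σ.Γ f (τ.F W) z = σ.Γ f (τ.Γ W W) z := rfl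
    rw [e, this]; ring
  -- the two forms of the second order term
  have m1 := In_M2 ok ot c hW ha sb
  have m2 := In_M2 ot ok c.symm hW ha sb
  have m3 : In U θ (fun z => a z * M2 τ σ W b z) = In U θ (fun z => a z * M2 σ τ W b z) :=
    In_congr hU fun z hz => by rw [M2_swap ok ot c hW sb hz]
  have m4 : In U θ (M3 τ σ W a b) = In U θ (M3 σ τ W b a) :=
    In_congr hU fun z hz => M3_swap ok ot c hW _ _ hz
  -- products
  have q3 : In U θ (fun z => a z * σ.Γ (τ.F W) b z) + In U θ (fun z => b z * σ.Γ (τ.F W) a z) =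
      -In U θ (fun z => σ.Λ (τ.F W) z * (a z * b z)) := by
    have := In_L ok sF2 tab
    rw [this, neg_neg, ← In_add hU ok.ts p3 p3']
    exact In_congr hU fun z hz => (G_mul ok _ sa sb hz).symm
  have q2 : In U θ (fun z => a z * τ.Γ (σ.F W) b z) + In U θ (fun z => b z * τ.Γ (σ.F W) a z) =
      -In U θ (fun z => τ.Λ (σ.F W) z * (a z * b z)) := by
    have := In_L ot sF1 tab
    rw [this, neg_neg, ← In_add hU ok.ts p2 p2']
    exact In_congr hU fun z hz => (G_mul ot _ sa sb hz).symm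
  have r1 : In U θ (fun z => a z * (τ.Γ (σ.Λ W) b z - τ.Γ (σ.F W) b z + σ.Γ (τ.F W) b z -
          σ.Γ (τ.Λ W) b z)) = In U θ (fun z => a z * τ.Γ (σ.Λ W) b z) -
      In U θ (fun z => a z * τ.Γ (σ.F W) b z) + In U θ (fun z => a z * σ.Γ (τ.F W) b z) -
      In U θ (fun z => a z * σ.Γ (τ.Λ W) b z) := by
    rw [← In_sub hU ok.ts p1 p2, ← In_add hU ok.ts (p1.sub hU p2) p3,
      ← In_sub hU ok.ts ((p1.sub hU p2).add hU p3) p4]
    exact In_congr hU fun z _ => by ring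
  have r2 : 2 * In U θ (sF σ τ W a b) = (In U θ (fun z => a z * σ.Γ (τ.F W) b z) -
      In U θ (fun z => a z * τ.Γ (σ.F W) b z)) - (In U θ (fun z => b z * σ.Γ (τ.F W) a z) -
      In U θ (fun z => b z * τ.Γ (σ.F W) a z)) := by
    rw [← In_cmul, ← In_sub hU ok.ts p3 p2, ← In_sub hU ok.ts p3' p2',
      ← In_sub hU ok.ts (p3.sub hU p2) (p3'.sub hU p2')]
    refine In_congr hU fun z hz => ?_
    rw [e1 b z hz, e1 a z hz, e2 a z hz, e2 b z hz]
    unfold sF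
    ring
  have r4 : 2 * In U θ (fun z => Zc σ τ W z * (a z * b z)) =
      In U θ (fun z => (16 * M3 σ τ W W W z - 4 * σ.Λ (τ.Λ W) z) * (a z * b z)) +
      4 * In U θ (fun z => σ.Λ (τ.F W) z * (a z * b z)) -
      4 * In U θ (fun z => τ.Λ (σ.F W) z * (a z * b z)) := by
    have p10 : Te U fun z => (16 * M3 σ τ W W W z - 4 * σ.Λ (τ.Λ W) z) * (a z * b z) :=
      tab.mul_left hU ((contDiffOn_const.mul s5).sub (contDiffOn_const.mul (ok.sL sL2)))
    rw [← In_cmul, ← In_cmul, ← In_cmul, ← In_add hU ok.ts p10 (p8.cmul hU 4),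
      ← In_sub hU ok.ts (p10.add hU (p8.cmul hU 4)) (p9.cmul hU 4)]
    refine In_congr hU fun z hz => ?_
    have k1 : τ.Γ W (σ.F W) z = 2 * M3 σ τ W W W z := by rw [G_comm ot W, e1 W z hz]
    have k2 : σ.Γ W (τ.F W) z = 2 * M3 σ τ W W W z := by rw [G_comm ok W, e2 W z hz]
    have k3 : σ.Λ (τ.F W) z = 2 * τ.Γ W (σ.Λ W) z + 2 * M2 σ τ W W z := by
      have : σ.Λ (τ.F W) z = σ.Λ (τ.Γ W W) z := rfl
      rw [this, L_G ok ot c hW hW hz, G_comm ot (σ.Λ W) W]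
      ring
    have k4 : τ.Λ (σ.F W) z = 2 * σ.Γ W (τ.Λ W) z + 2 * M2 σ τ W W z := by
      have : τ.Λ (σ.F W) z = τ.Λ (σ.Γ W W) z := rfl
      rw [this, L_G ot ok c.symm hW hW hz, G_comm ok (τ.Λ W) W, M2_swap ok ot c hW hW hz]
      ring
    unfold Zc
    rw [k1, k2, k3, k4]
    ring
  rw [r1]
  linear_combination (-4 : ℝ) * r2 + 4 * q3 - 4 * q2 + r4 + 8 * m1 - 8 * m2 + 8 * m3 + 8 * m4

/-- **The exact formula for `T`, linear potential.** -/
theorem tlin (ok : σ.Ok U θ) (ot : τ.Ok U θ) (c : Cm σ τ U) (hv₁ : Sm U v₁) (hv₂ : Sm U v₂)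
    (h₁ : ∀ z ∈ U, ∀ k, τ.D k v₁ z = 0) (h₂ : ∀ z ∈ U, ∀ i, σ.D i v₂ z = 0) (hW : Sm U W)
    (ha : Te U a) (hb : Te U b) :
    TT σ τ U θ v₁ v₂ W a b =
      (In U θ (fun z => σ.P v₁ W a z ^ 2) + In U θ (fun z => τ.P v₂ W b z ^ 2) +
        In U θ (fun z => τ.P v₂ W a z ^ 2) + In U θ (fun z => σ.P v₁ W b z ^ 2)) +
      8 * (1 / 2 * In U θ (σ.Hf W a) + 1 / 2 * In U θ (τ.Hf W b) +
        In U θ (M3 σ τ W a b) + In U θ (M3 σ τ W b a) + In U θ (sF σ τ W a b)) +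
      (In U θ (fun z => 4 * σ.Γ W (σ.F W) z * a z ^ 2) +
        In U θ (fun z => 16 * M3 σ τ W W W z * (a z * b z)) +
        In U θ (fun z => 4 * τ.Γ W (τ.F W) z * b z ^ 2)) -
      2 * (In U θ (fun z => σ.Λ (σ.Λ W) z * a z ^ 2) +
        2 * In U θ (fun z => σ.Λ (τ.Λ W) z * (a z * b z)) +
        In U θ (fun z => τ.Λ (τ.Λ W) z * b z ^ 2)) +
      4 * (In U θ (fun z => σ.Γ W v₁ z * a z ^ 2) + In U θ (fun z => τ.Γ W v₂ z * b z ^ 2)) := by
  have hU := ok.op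
  have sa := ha.sm
  have sb := hb.sm
  have ta := ha.sq hU
  have tb := hb.sq hU
  have tab : Te U fun z => a z * b z := ha.mul_right hU sb
  have tQa := ok.tQ hv₁ hW ha
  have tQb := ot.tQ hv₂ hW hb
  have tPa := ot.tP hv₂ hW ha
  have tPb := ok.tP hv₁ hW hb
  have e1 : In U θ (fun z => (σ.Q v₁ W a z + τ.Q v₂ W b z) ^ 2) =
      In U θ (fun z => σ.Q v₁ W a z ^ 2) + In U θ (fun z => τ.Q v₂ W b z ^ 2) +
        2 * In U θ (fun z => σ.Q v₁ W a z * τ.Q v₂ W b z) := by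
    rw [← In_cmul, ← In_add hU ok.ts (tQa.sq hU) (tQb.sq hU), ← In_add hU ok.ts
      ((tQa.sq hU).add hU (tQb.sq hU)) ((tQa.mul_right hU tQb.sm).cmul hU 2)]
    exact In_congr hU fun z _ => by ring
  have e2 : In U θ (fun z => (τ.P v₂ W a z - σ.P v₁ W b z) ^ 2) =
      In U θ (fun z => τ.P v₂ W a z ^ 2) + In U θ (fun z => σ.P v₁ W b z ^ 2) -
        2 * In U θ (fun z => τ.P v₂ W a z * σ.P v₁ W b z) := by
    rw [← In_cmul, ← In_add hU ok.ts (tPa.sq hU) (tPb.sq hU), ← In_sub hU ok.ts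
      ((tPa.sq hU).add hU (tPb.sq hU)) ((tPa.mul_right hU tPb.sm).cmul hU 2)]
    exact In_congr hU fun z _ => by ring
  have e3 := one_lin ok hv₁ hW ha
  have e4 := one_lin ot hv₂ hW hb
  have e5 := mixed_lin ok ot c hv₁ hv₂ h₁ h₂ hW ha hb
  -- splitting
  have s1 : Te U fun z => a z ^ 2 * σ.Γ W (σ.F W) z := ta.mul_right hU (ok.sG hW (ok.sF hW))
  have s2 : Te U fun z => b z ^ 2 * τ.Γ W (τ.F W) z := tb.mul_right hU (ot.sG hW (ot.sF hW))
  have g1 : Te U fun z => σ.Γ W v₁ z * a z ^ 2 := ta.mul_left hU (ok.sG hW hv₁)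
  have g2 : Te U fun z => τ.Γ W v₂ z * b z ^ 2 := tb.mul_left hU (ot.sG hW hv₂)
  have g3 : Te U fun z => σ.Λ (σ.Λ W) z * a z ^ 2 := ta.mul_left hU (ok.sL (ok.sL hW))
  have g4 : Te U fun z => τ.Λ (τ.Λ W) z * b z ^ 2 := tb.mul_left hU (ot.sL (ot.sL hW))
  have g5 : Te U fun z => M3 σ τ W W W z * (a z * b z) := tab.mul_left hU (sM3 ok ot hW hW hW)
  have g6 : Te U fun z => σ.Λ (τ.Λ W) z * (a z * b z) := tab.mul_left hU (ok.sL (ot.sL hW))
  have f1 : In U θ (fun z => σ.Hf W a z + a z ^ 2 * σ.Γ W (σ.F W) z) =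
      In U θ (σ.Hf W a) + In U θ (fun z => a z ^ 2 * σ.Γ W (σ.F W) z) :=
    In_add hU ok.ts (ok.tHf hW ha) s1
  have f2 : In U θ (fun z => τ.Hf W b z + b z ^ 2 * τ.Γ W (τ.F W) z) =
      In U θ (τ.Hf W b) + In U θ (fun z => b z ^ 2 * τ.Γ W (τ.F W) z) :=
    In_add hU ok.ts (ot.tHf hW hb) s2
  have f3 : In U θ (fun z => (4 * σ.Γ W v₁ z - 2 * σ.Λ (σ.Λ W) z) * a z ^ 2) =
      4 * In U θ (fun z => σ.Γ W v₁ z * a z ^ 2) - 2 * In U θ (fun z => σ.Λ (σ.Λ W) z * a z ^ 2) := by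
    rw [← In_cmul, ← In_cmul, ← In_sub hU ok.ts (g1.cmul hU 4) (g3.cmul hU 2)]
    exact In_congr hU fun z _ => by ring
  have f4 : In U θ (fun z => (4 * τ.Γ W v₂ z - 2 * τ.Λ (τ.Λ W) z) * b z ^ 2) =
      4 * In U θ (fun z => τ.Γ W v₂ z * b z ^ 2) - 2 * In U θ (fun z => τ.Λ (τ.Λ W) z * b z ^ 2) := by
    rw [← In_cmul, ← In_cmul, ← In_sub hU ok.ts (g2.cmul hU 4) (g4.cmul hU 2)]
    exact In_congr hU fun z _ => by ring
  have f5 : In U θ (fun z => (16 * M3 σ τ W W W z - 4 * σ.Λ (τ.Λ W) z) * (a z * b z)) =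
      16 * In U θ (fun z => M3 σ τ W W W z * (a z * b z)) -
        4 * In U θ (fun z => σ.Λ (τ.Λ W) z * (a z * b z)) := by
    rw [← In_cmul, ← In_cmul, ← In_sub hU ok.ts (g5.cmul hU 16) (g6.cmul hU 4)]
    exact In_congr hU fun z _ => by ring
  have f6 : In U θ (fun z => 4 * σ.Γ W (σ.F W) z * a z ^ 2) =
      4 * In U θ (fun z => a z ^ 2 * σ.Γ W (σ.F W) z) := by
    rw [← In_cmul]; exact In_congr hU fun z _ => by ring
  have f7 : In U θ (fun z => 4 * τ.Γ W (τ.F W) z * b z ^ 2) =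
      4 * In U θ (fun z => b z ^ 2 * τ.Γ W (τ.F W) z) := by
    rw [← In_cmul]; exact In_congr hU fun z _ => by ring
  have f8 : In U θ (fun z => 16 * M3 σ τ W W W z * (a z * b z)) =
      16 * In U θ (fun z => M3 σ τ W W W z * (a z * b z)) := by
    rw [← In_cmul]; exact In_congr hU fun z _ => by ring
  rw [f1, f3] at e3
  rw [f2, f4] at e4
  rw [f5] at e5
  unfold TT
  rw [e1, e2, e3, e4, f6, f7, f8]
  linear_combination e5

end integral

end Vale.Agent.P088.R2.H961.GW
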